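import Vale.Agent.P032.H546.FWord

/-!
# P032: parities of the numbers of ends

`par_A` : if the ends `{a,b,f}` are labelled, the number of the ends of the `ab`-arcs plus the number
of the J-points is even; `par_C` : the same for `cd`.
-/

open Set Filter Topology Metric

noncomputable section

namespace Vale.Agent.P032.H546

open Vale.Agent.P032.Six Vale.Agent.P032.S5.H767 Vale.Agent.P032.S5.H349
open Vale.Agent.P032.H987 hiding lb
open Vale.Agent.P032.H460

/-- the number of the slots with the letter `m` -/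
def nl (m : Fin 4) (h : Fin 6 → Fin 4) : ℕ :=
  (if h 0 = m then 1 else 0) + (if h 1 = m then 1 else 0) + (if h 2 = m then 1 else 0) +
    (if h 3 = m then 1 else 0) + (if h 4 = m then 1 else 0) + (if h 5 = m then 1 else 0)

theorem nl_rot (m : Fin 4) (h : Fin 6 → Fin 4) : nl m (fun j => h (j + 1)) = nl m h := by
  unfold nl
  have e0 : (0 : Fin 6) + 1 = 1 := rfl
  have e1 : (1 : Fin 6) + 1 = 2 := rfl
  have e2 : (2 : Fin 6) + 1 = 3 := rfl
  have e3 : (3 : Fin 6) + 1 = 4 := rfl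
  have e4 : (4 : Fin 6) + 1 = 5 := rfl
  have e5 : (5 : Fin 6) + 1 = 0 := rfl
  simp only [e0, e1, e2, e3, e4, e5]
  ring

theorem slot_A : ∀ (g2 : Bool) (x : Fin 11) (l m : Fin 4), CtF true g2 x l m →
    (((if l = 2 then 1 else 0) + (if m = 2 then 1 else 0) + (ind 0 x.val + ind 1 x.val +
      ind 4 x.val) : ℕ)) % 2 = 0 := by decide

theorem slot_C : ∀ (g1 : Bool) (x : Fin 11) (l m : Fin 4), CtF g1 true x l m →
    (((if l = 3 then 1 else 0) + (if m = 3 then 1 else 0) + (ind 3 x.val + ind 2 x.val +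
      ind 4 x.val) : ℕ)) % 2 = 0 := by decide

/-- the parity of one event -/
def PEv (m : Fin 4) (i k : Fin 5) (τ : Fin 6 → Fin 11) (h h' : Fin 6 → Fin 4) : Prop :=
  (nl m h + nl m h' + (cvF τ i + cvF τ k + cvF τ 4)) % 2 = 0

variable {g1 g2 : Bool}

theorem pev_A {τ : Fin 6 → Fin 11} {h h' : Fin 6 → Fin 4} (t : EvF true g2 τ h h') :
    PEv 2 0 1 τ h h' := by
  have k0 := slot_A g2 _ _ _ (t.ct 0)
  have k1 := slot_A g2 _ _ _ (t.ct 1)
  have k2 := slot_A g2 _ _ _ (t.ct 2)
  have k3 := slot_A g2 _ _ _ (t.ct 3)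
  have k4 := slot_A g2 _ _ _ (t.ct 4)
  have k5 := slot_A g2 _ _ _ (t.ct 5)
  unfold PEv nl cvF
  omega

theorem pev_C {τ : Fin 6 → Fin 11} {h h' : Fin 6 → Fin 4} (t : EvF g1 true τ h h') :
    PEv 3 3 2 τ h h' := by
  have k0 := slot_C g1 _ _ _ (t.ct 0)
  have k1 := slot_C g1 _ _ _ (t.ct 1)
  have k2 := slot_C g1 _ _ _ (t.ct 2)
  have k3 := slot_C g1 _ _ _ (t.ct 3)
  have k4 := slot_C g1 _ _ _ (t.ct 4)
  have k5 := slot_C g1 _ _ _ (t.ct 5)
  unfold PEv nl cvF
  omega

theorem cvF_zero (i : Fin 5) : cvF (fun _ => 0) i = 0 := by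
  have : ind i 0 = 0 := by revert i; decide
  unfold cvF
  show ind i 0 + ind i 0 + ind i 0 + ind i 0 + ind i 0 + ind i 0 = 0
  omega

/-- the parity of a chain -/
theorem pch {m : Fin 4} {i k : Fin 5} {κ : ℕ} {l : List (Fin 6 → Fin 11)}
    (hE : ∀ {τ h h'}, EvF g1 g2 τ h h' → PEv m i k τ h h') :
    ∀ {h h' : Fin 6 → Fin 4}, ZChF g1 g2 κ (fun g => nl m g % 2) l h h' →
      (nl m h + nl m h' + (scv l i + scv l k + scv l 4)) % 2 = 0 := by
  induction l with
  | nil =>
    intro h h' c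
    have e : nl m h % 2 = nl m h' % 2 := c.2.2
    have e0 : ∀ i, scv [] i = 0 := fun i => by rw [scv_nil]; rfl
    rw [e0, e0, e0]
    omega
  | cons τ l ih =>
    rintro h h' ⟨g, g', ⟨-, -, e⟩, t, h3⟩
    have e : nl m h % 2 = nl m g % 2 := e
    have h4 := ih h3
    have h5 := hE t
    unfold PEv at h5
    rw [scv_cons]
    have e1 : ∀ i, (cvF τ + scv l) i = cvF τ i + scv l i := fun i => rfl
    rw [e1, e1, e1]
    omega

variable {U : Fin 6 → Set ℂ} {T : ℂ → Set (Fin 6)} {z : ℂ} {a b c d e f : Fin 6} {p q : ℝ}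

theorem par_of (S : CzF g1 g2 U T z a b c d e f) (Z : Zn T z a b c d p q)
    (hfin : {y | dist y z = 1 ∧ lbF g1 g2 T z a b c d e f y ≠ 0}.Finite) {m : Fin 4} {i k : Fin 5}
    (hE : ∀ {τ h h'}, EvF g1 g2 τ h h' → PEv m i k τ h h') :
    ({y | dist y z = 1 ∧ ind i (lbF g1 g2 T z a b c d e f y).val ≠ 0}.ncard +
      {y | dist y z = 1 ∧ ind k (lbF g1 g2 T z a b c d e f y).val ≠ 0}.ncard +
      {y | dist y z = 1 ∧ ind 4 (lbF g1 g2 T z a b c d e f y).val ≠ 0}.ncard) % 2 = 0 := by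
  have hsum : ∀ L : List ℝ, L.Pairwise (· < ·) → (∀ u ∈ L, 0 ≤ u ∧ u < 1) →
      (∀ u, 0 ≤ u → u < 1 → (∃ j, lamF g1 g2 T z a b c d e f p u j ≠ 0) → u ∈ L) →
      ((scv (L.map (lamF g1 g2 T z a b c d e f p)) i + scv (L.map (lamF g1 g2 T z a b c d e f p)) k
        + scv (L.map (lamF g1 g2 T z a b c d e f p)) 4) % 2 = 0) →
      ({y | dist y z = 1 ∧ ind i (lbF g1 g2 T z a b c d e f y).val ≠ 0}.ncard +
      {y | dist y z = 1 ∧ ind k (lbF g1 g2 T z a b c d e f y).val ≠ 0}.ncard +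
      {y | dist y z = 1 ∧ ind 4 (lbF g1 g2 T z a b c d e f y).val ≠ 0}.ncard) % 2 = 0 := by
    intro L h1 h2 h3 h4
    rw [scv_ncard h1 h2 h3 i, scv_ncard h1 h2 h3 k, scv_ncard h1 h2 h3 4] at h4
    exact h4
  obtain ⟨j0, s, hj0, hs0, hs1, hq, h1 | h1⟩ := S.zpath Z hfin
    (cl := fun _ g => nl m g % 2) (by
      intro κ h h' _ _ t
      have h5 := hE t
      unfold PEv at h5
      rw [cvF_zero, cvF_zero, cvF_zero] at h5
      show nl m h % 2 = nl m h' % 2
      omega)
  · obtain ⟨rfl, hpos, l, h, h', hp, hl, hev, hz⟩ := h1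
    refine hsum ((0 : ℝ) :: l) ?_ ?_ ?_ ?_
    · rw [List.pairwise_cons]
      exact ⟨fun u hu => ((hl u).1 hu).1.1, hp⟩
    · intro u hu
      rcases List.mem_cons.1 hu with rfl | hu
      · exact ⟨le_rfl, one_pos⟩
      · exact ⟨((hl u).1 hu).1.1.le, ((hl u).1 hu).1.2⟩
    · intro u hu0 hu1 hj
      rcases hu0.eq_or_lt with h2 | h2
      · rw [← h2]; exact List.mem_cons_self
      · exact List.mem_cons_of_mem _ ((hl u).2 ⟨⟨h2, hu1⟩, hj⟩)
    · have h2 := hE hev
      have h3 := pch hE hz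
      rw [nl_rot] at h3
      unfold PEv at h2
      rw [List.map_cons, scv_cons]
      have e1 : ∀ i, (cvF (lamF g1 g2 T z a b c d e f p 0) +
          scv (l.map (lamF g1 g2 T z a b c d e f p))) i =
          cvF (lamF g1 g2 T z a b c d e f p 0) i +
            scv (l.map (lamF g1 g2 T z a b c d e f p)) i := fun i => rfl
      rw [e1, e1, e1]
      omega
  · obtain ⟨hpos, l, l', h, h', g, g', hp, hp', hl, hl', hev, hz, hev', hz'⟩ := h1
    refine hsum ((0 : ℝ) :: (l ++ s :: l')) ?_ ?_ ?_ ?_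
    · rw [List.pairwise_cons, List.pairwise_append, List.pairwise_cons]
      refine ⟨fun u hu => ?_, hp, ⟨fun u hu => ((hl' u).1 hu).1.1, hp'⟩, fun u hu v hv => ?_⟩
      · rcases List.mem_append.1 hu with hu | hu
        · exact ((hl u).1 hu).1.1
        · rcases List.mem_cons.1 hu with rfl | hu
          · exact hpos
          · exact hpos.trans ((hl' u).1 hu).1.1
      · have h2 := ((hl u).1 hu).1.2
        rcases List.mem_cons.1 hv with rfl | hv
        · exact h2
        · exact h2.trans ((hl' v).1 hv).1.1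
    · intro u hu
      rcases List.mem_cons.1 hu with rfl | hu
      · exact ⟨le_rfl, one_pos⟩
      rcases List.mem_append.1 hu with hu | hu
      · exact ⟨((hl u).1 hu).1.1.le, ((hl u).1 hu).1.2.trans hs1⟩
      rcases List.mem_cons.1 hu with rfl | hu
      · exact ⟨hpos.le, hs1⟩
      · exact ⟨(hpos.trans ((hl' u).1 hu).1.1).le, ((hl' u).1 hu).1.2⟩
    · intro u hu0 hu1 hj
      rcases hu0.eq_or_lt with h2 | h2
      · rw [← h2]; exact List.mem_cons_self
      refine List.mem_cons_of_mem _ ?_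
      rcases lt_trichotomy u s with h3 | h3 | h3
      · exact List.mem_append_left _ ((hl u).2 ⟨⟨h2, h3⟩, hj⟩)
      · rw [h3]; exact List.mem_append_right _ List.mem_cons_self
      · exact List.mem_append_right _ (List.mem_cons_of_mem _ ((hl' u).2 ⟨⟨h3, hu1⟩, hj⟩))
    · have h2 := hE hev
      have h3 := pch hE hz
      have h4 := hE hev'
      have h5 := pch hE hz'
      rw [nl_rot] at h5
      unfold PEv at h2 h4
      rw [List.map_cons, scv_cons, List.map_append, scv_append, List.map_cons, scv_cons]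
      have e1 : ∀ i, (cvF (lamF g1 g2 T z a b c d e f p 0) +
          (scv (l.map (lamF g1 g2 T z a b c d e f p)) +
            (cvF (lamF g1 g2 T z a b c d e f p s) +
              scv (l'.map (lamF g1 g2 T z a b c d e f p))))) i =
          cvF (lamF g1 g2 T z a b c d e f p 0) i +
          (scv (l.map (lamF g1 g2 T z a b c d e f p)) i +
            (cvF (lamF g1 g2 T z a b c d e f p s) i +
              scv (l'.map (lamF g1 g2 T z a b c d e f p)) i)) := fun i => rfl
      rw [e1, e1, e1]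
      omega

/-- **parity of the ends of the `ab`-arcs** -/
theorem par_A (S : CzF true g2 U T z a b c d e f) (Z : Zn T z a b c d p q)
    (hfin : {y | dist y z = 1 ∧ lbF true g2 T z a b c d e f y ≠ 0}.Finite) :
    ({y | dist y z = 1 ∧ ind 0 (lbF true g2 T z a b c d e f y).val ≠ 0}.ncard +
      {y | dist y z = 1 ∧ ind 1 (lbF true g2 T z a b c d e f y).val ≠ 0}.ncard +
      {y | dist y z = 1 ∧ ind 4 (lbF true g2 T z a b c d e f y).val ≠ 0}.ncard) % 2 = 0 :=
  par_of S Z hfin (fun t => pev_A t)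

/-- **parity of the ends of the `cd`-arcs** -/
theorem par_C (S : CzF g1 true U T z a b c d e f) (Z : Zn T z a b c d p q)
    (hfin : {y | dist y z = 1 ∧ lbF g1 true T z a b c d e f y ≠ 0}.Finite) :
    ({y | dist y z = 1 ∧ ind 3 (lbF g1 true T z a b c d e f y).val ≠ 0}.ncard +
      {y | dist y z = 1 ∧ ind 2 (lbF g1 true T z a b c d e f y).val ≠ 0}.ncard +
      {y | dist y z = 1 ∧ ind 4 (lbF g1 true T z a b c d e f y).val ≠ 0}.ncard) % 2 = 0 :=
  par_of S Z hfin (fun t => pev_C t)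

end Vale.Agent.P032.H546
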