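import Vale.Agent.P032.H546.FNo
import Vale.Agent.P032.H546.FPar
import Vale.Agent.P032.H987.InstF
import Vale.Agent.P032.H987.Arcs
import Vale.Agent.P032.H471.Inst
import Vale.Agent.P032.H533.Two22
import Vale.Agent.P032.H460.Inst11

/-!
# P032: names and numbers at a comp centre with a J-partner

`cnt2` : one of the two complementary palettes occurs once, the other one twice.
`names_J` : names with the J-point in the direction of the zone line `p`, label `6`.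
`one_J` : exactly one J-point: `list1` or `listS` or `listT`.
`two_J` : two J-points: `list2` or `list3`.
-/

open Set Filter Topology Metric

noncomputable section

namespace Vale.Agent.P032.H546

open Vale.Agent.P032.Six Vale.Agent.P032.S5.H767 Vale.Agent.P032.S5.H349 Vale.Agent.P032.S5.H450
open Vale.Agent.P032.S5.H122 Vale.Agent.P032.Sweep
open Vale.Agent.P032.H987 hiding lb
open Vale.Agent.P032.H460 Vale.Agent.P032.H471 Vale.Agent.P032.H533
open Vale.Agent.P032.Net.H672 (Full)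

variable {U : Fin 6 → Set ℂ} {T : ℂ → Set (Fin 6)} {z v q : ℂ} {a b c d e f : Fin 6} {p r : ℝ}

/-! ### One or two -/

theorem one_or_two {P : Set ℂ} {x : ℂ} (hx : x ∈ P)
    (h3 : ∀ y ∈ P, ∀ w ∈ P, y ≠ x → w ≠ x → y ≠ w → False) :
    (P.ncard = 1 ∧ ∀ y ∈ P, y = x) ∨ (P.ncard = 2 ∧ ∃ y ∈ P, y ≠ x ∧ ∀ w ∈ P, w = x ∨ w = y) := by
  by_cases h1 : ∀ y ∈ P, y = x
  · left
    have e : P = {x} := Set.eq_singleton_iff_unique_mem.2 ⟨hx, h1⟩
    exact ⟨by rw [e]; exact Set.ncard_singleton x, h1⟩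
  · push Not at h1
    obtain ⟨y, hy, hne⟩ := h1
    right
    have h2 : ∀ w ∈ P, w = x ∨ w = y := by
      intro w hw
      by_contra hcon
      push Not at hcon
      exact h3 y hy w hw hne hcon.1 (Ne.symm hcon.2)
    have e : P = {x, y} := by
      ext w
      constructor
      · exact fun hw => h2 w hw
      · rintro (rfl | rfl)
        exacts [hx, hy]
    exact ⟨by rw [e]; exact Set.ncard_pair hne.symm, y, hy, hne, h2⟩

/-- no three complementary ends -/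
theorem no_three (h : Irr U T) (hS : Sec4 T) (hv : EE T z v) (hq : EE T z q) (hc : T q = (T v)ᶜ)
    {q1 q2 : ℂ} (h1 : dist q1 z = 1 ∧ T q1 = T q) (h2 : dist q2 z = 1 ∧ T q2 = T q)
    (n1 : q1 ≠ q) (n2 : q2 ≠ q) (n3 : q1 ≠ q2) : False := by
  have hcv : T v = (T q)ᶜ := by rw [hc, compl_compl]
  have a1 : EE T z q1 := auto471 h hS hq hv hcv h1.1 h1.2
  have a2 : EE T z q2 := auto471 h hS hq hv hcv h2.1 h2.2
  have fl : ∀ {x : ℂ}, EE T z x → T x = (T v)ᶜ → Full T (EE T) (v + x - z) v ∧ v + x - z ≠ z := by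
    intro x hx hTx
    refine ⟨⟨rh471 h hS hv hx hTx, x, rh471' h hS hv hx hTx, hTx⟩, fun hh => ?_⟩
    exact hv.anti h hx hTx (by linear_combination hh)
  obtain ⟨f0, m0⟩ := fl hq hc
  obtain ⟨f1, m1⟩ := fl a1 (h1.2.trans hc)
  obtain ⟨f2, m2⟩ := fl a2 (h2.2.trans hc)
  rcases three471 h (v := v) (z₁ := z) ⟨hv, q, hq, hc⟩ f0 f1 f2 with k | k | k | k | k | k
  · exact m0 k.symm
  · exact m1 k.symm
  · exact m2 k.symm
  · exact n1 (by linear_combination -k)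
  · exact n2 (by linear_combination -k)
  · exact n3 (by linear_combination k)

/-- no (1,1)-centre, no (2,2)-centre -/
structure N12 (T : ℂ → Set (Fin 6)) : Prop where
  s4 : Sec4 T
  h11 : ∀ w v q, ¬ Is11 T w v q
  h22 : ∀ z v v' q q', ¬ Is22 T z v v' q q'

/-- **one of the two palettes once, the other one twice** -/
theorem cnt2 (h : Irr U T) (hN : N12 T) (hv : EE T z v)
    (hq : EE T z q) (hc : T q = (T v)ᶜ) :
    ({y | dist y z = 1 ∧ T y = T v}.ncard = 1 ∧ {y | dist y z = 1 ∧ T y = T q}.ncard = 2) ∨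
      ({y | dist y z = 1 ∧ T y = T v}.ncard = 2 ∧ {y | dist y z = 1 ∧ T y = T q}.ncard = 1) := by
  have hS := hN.s4
  have hcv : T v = (T q)ᶜ := by rw [hc, compl_compl]
  rcases one_or_two (P := {y | dist y z = 1 ∧ T y = T v}) (x := v) ⟨hv.dist, rfl⟩
    (fun y hy w hw n1 n2 n3 => no_three h hS hq hv hcv hy hw n1 n2 n3) with
    ⟨kv, kv1⟩ | ⟨kv, v', hv', nv, -⟩ <;>
  rcases one_or_two (P := {y | dist y z = 1 ∧ T y = T q}) (x := q) ⟨hq.dist, rfl⟩
    (fun y hy w hw n1 n2 n3 => no_three h hS hv hq hc hy hw n1 n2 n3) with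
    ⟨kq, kq1⟩ | ⟨kq, q', hq', nq, -⟩
  · exact (hN.h11 z v q ⟨hv, hq, hc, fun x h1 h2 => kv1 x ⟨h1, h2⟩,
      fun x h1 h2 => kq1 x ⟨h1, h2⟩⟩).elim
  · exact Or.inl ⟨kv, kq⟩
  · exact Or.inr ⟨kv, kq⟩
  · exact (hN.h22 z v v' q q' ⟨hv, auto471 h hS hv hq hc hv'.1 hv'.2, hq,
      auto471 h hS hq hv hcv hq'.1 hq'.2, hv'.2, hq'.2, hc, nv.symm, nq.symm⟩).elim

/-! ### Zones -/

theorem Zn.shift (Z : Zn T z a b c d p r) (n : ℤ) : Zn T z a b c d (p + 3 * n) (r + 3 * n) where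
  lt := by have := Z.lt; linarith
  lt' := by have := Z.lt'; linarith
  zA := fun u hu => by
    obtain ⟨m, h1, h2⟩ := Z.zA u hu
    refine ⟨m + n, ?_, ?_⟩
    · push_cast; linarith
    · push_cast; linarith
  zC := fun u hu => by
    obtain ⟨m, h1, h2⟩ := Z.zC u hu
    refine ⟨m + n, ?_, ?_⟩
    · push_cast; linarith
    · push_cast; linarith

theorem Zn.swap (Z : Zn T z a b c d p r) : Zn T z c d a b r (p + 3) where
  lt := Z.lt'
  lt' := by have := Z.lt; linarith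
  zA := fun u hu => Z.zC u hu
  zC := fun u hu => by
    obtain ⟨m, h1, h2⟩ := Z.zA u hu
    refine ⟨m + 1, ?_, ?_⟩
    · push_cast; linarith
    · push_cast; linarith

theorem mem_clo_right {P : Set ℂ} {u β : ℝ} (hβ : u < β) (h : ∀ v ∈ Ioo u β, pt z v ∈ P) :
    pt z u ∈ closure P := by
  refine mem_closure_of_tendsto (b := 𝓝[>] u) (f := pt z)
    ((continuous_pt z).tendsto u |>.mono_left nhdsWithin_le_nhds) ?_
  filter_upwards [Ioo_mem_nhdsGT hβ] with v hv using h v hv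

theorem mem_clo_left {P : Set ℂ} {u α : ℝ} (hα : α < u) (h : ∀ v ∈ Ioo α u, pt z v ∈ P) :
    pt z u ∈ closure P := by
  refine mem_closure_of_tendsto (b := 𝓝[<] u) (f := pt z)
    ((continuous_pt z).tendsto u |>.mono_left nhdsWithin_le_nhds) ?_
  filter_upwards [Ioo_mem_nhdsLT hα] with v hv using h v hv

theorem J_sides (S : CzE U T z a b c d e f) {u : ℝ} (hT : T (pt z u) = T z) :
    ((∃ β > u, ∀ v ∈ Ioo u β, pt z v ∈ Ex T z {a, b}) ∧
      ∃ α < u, ∀ v ∈ Ioo α u, pt z v ∈ Ex T z {c, d}) ∨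
    ((∃ β > u, ∀ v ∈ Ioo u β, pt z v ∈ Ex T z {c, d}) ∧
      ∃ α < u, ∀ v ∈ Ioo α u, pt z v ∈ Ex T z {a, b}) := by
  have C := S.toCz
  obtain ⟨τ, hτ, h1, h2⟩ := C.irr.j_sides C.dpt (dist_pt z u) hT
  rcases hτ with rfl | rfl
  · left
    obtain ⟨β, hβ, k1⟩ := aft_of (P := fun y => T y = {a, b}) (z := z) (u := u)
      (by have := ev_Ioo h1; simpa only [hb, one_mul] using this)
    obtain ⟨α, hα, k2⟩ := bef_of (P := fun y => T y = {c, d}) (z := z) (u := u)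
      (by have := ev_Ioo h2; simpa only [hb, neg_one_mul] using this)
    exact ⟨⟨β, hβ, ex_of_Ioo k1⟩, ⟨α, hα, ex_of_Ioo k2⟩⟩
  · right
    rw [neg_neg] at h2
    obtain ⟨β, hβ, k1⟩ := aft_of (P := fun y => T y = {c, d}) (z := z) (u := u)
      (by have := ev_Ioo h2; simpa only [hb, one_mul] using this)
    obtain ⟨α, hα, k2⟩ := bef_of (P := fun y => T y = {a, b}) (z := z) (u := u)
      (by have := ev_Ioo h1; simpa only [hb, neg_one_mul] using this)
    exact ⟨⟨β, hβ, ex_of_Ioo k1⟩, ⟨α, hα, ex_of_Ioo k2⟩⟩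

/-- the J-points are on the zone lines -/
theorem J_pos (S : CzE U T z a b c d e f) (Z : Zn T z a b c d p r) {u : ℝ}
    (hT : T (pt z u) = T z) : ∃ n : ℤ, u = p + 3 * n ∨ u = r + 3 * n := by
  have hlt := Z.lt
  have hlt' := Z.lt'
  have key : pt z u ∈ closure (Ex T z {a, b}) ∧ pt z u ∈ closure (Ex T z {c, d}) := by
    rcases J_sides S hT with ⟨⟨β, hβ, k1⟩, α, hα, k2⟩ | ⟨⟨β, hβ, k1⟩, α, hα, k2⟩
    · exact ⟨mem_clo_right hβ k1, mem_clo_left hα k2⟩
    · exact ⟨mem_clo_left hα k2, mem_clo_right hβ k1⟩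
  obtain ⟨n, n1, n2⟩ := Z.zA u key.1
  obtain ⟨m, m1, m2⟩ := Z.zC u key.2
  rcases lt_trichotomy m n with h1 | h1 | h1
  · have h2 : (m : ℝ) + 1 ≤ n := by exact_mod_cast h1
    linarith
  · subst h1
    exact ⟨-m, Or.inr (by push_cast; linarith)⟩
  · have h2 : (n : ℝ) + 1 ≤ m := by exact_mod_cast h1
    exact ⟨-n, Or.inl (by push_cast; linarith)⟩

/-- on the line `p` the sides are `cd`, `ab` -/
theorem J_side_p (S : CzE U T z a b c d e f) (Z : Zn T z a b c d p r)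
    (hT : T (pt z p) = T z) : (∃ β > p, ∀ v ∈ Ioo p β, pt z v ∈ Ex T z {a, b}) ∧
      ∃ α < p, ∀ v ∈ Ioo α p, pt z v ∈ Ex T z {c, d} := by
  have hlt := Z.lt
  have hlt' := Z.lt'
  rcases J_sides S hT with h1 | ⟨-, α, hα, k2⟩
  · exact h1
  exfalso
  obtain ⟨v, hv1, hv2⟩ := exists_between (max_lt hα (show r - 3 < p by linarith))
  have hv1' := (max_lt_iff.1 hv1)
  obtain ⟨n, n1, n2⟩ := Z.zA v (subset_closure (k2 v ⟨hv1'.1, hv2⟩))
  rcases lt_or_ge n 1 with h1 | h1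
  · have h2 : (n : ℝ) ≤ 0 := by exact_mod_cast (by omega : n ≤ 0)
    linarith
  · have h2 : (1 : ℝ) ≤ n := by exact_mod_cast h1
    linarith [hv1'.2]

/-- **the label on the line `p` is `6`** -/
theorem six_of {g1 g2 : Bool} (S : CzE U T z a b c d e f) (Z : Zn T z a b c d p r)
    (hT : T (pt z p) = T z) : lbF g1 g2 T z a b c d e f (pt z p) = 6 := by
  obtain ⟨-, α, hα, k2⟩ := J_side_p S Z hT
  have C := S.toCz
  unfold lbF
  rw [if_pos hT]
  obtain ⟨τ, hτ, h1, h2⟩ := C.irr.j_sides C.dpt (dist_pt z p) hT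
  rcases hτ with rfl | rfl
  · have hn : ¬ ∀ᶠ t in 𝓝[>] (0 : ℝ), T (hb z (pt z p) (-1) t) = {a, b} := by
      intro h5
      obtain ⟨t, ht1, ht2⟩ := (h5.and h2).exists
      have : a ∈ ({c, d} : Set (Fin 6)) := by rw [← ht2, ht1]; simp
      rcases this with h6 | h6
      · exact C.dpt.ac h6
      · exact C.dpt.ad h6
    rw [if_neg hn]
  · exfalso
    obtain ⟨α', hα', k3⟩ := bef_of (P := fun y => T y = {a, b}) (z := z) (u := p)
      (by have := ev_Ioo h1; simpa only [hb, neg_one_mul] using this)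
    obtain ⟨v, hv1, hv2⟩ := exists_between (max_lt hα hα')
    have hv1' := (max_lt_iff.1 hv1)
    have e1 := k3 v ⟨hv1'.2, hv2⟩
    have e2 := ex_self (k2 v ⟨hv1'.1, hv2⟩)
    have : a ∈ ({c, d} : Set (Fin 6)) := by rw [← e2, e1]; simp
    rcases this with h6 | h6
    · exact C.dpt.ac h6
    · exact C.dpt.ad h6

/-! ### Names -/

/-- **names with the J-point on the line `p`** -/
theorem names_J (h : Irr U T) (w0 : ∀ y, dist y z = 1 → (T y).ncard ≤ 3 ∨ T y = T z)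
    (h5 : ∀ x y, dist x y = 1 → 5 ≤ (T x).ncard → 4 ≤ (T y).ncard → False)
    (ev : EE T z v) (eq : EE T z q) (hc : T q = (T v)ᶜ) {y : ℂ} (hy : dist y z = 1)
    (hTy : T y = T z) :
    ∃ a b c d e f p r v' q', Zn T z a b c d p r ∧ pt z p = y ∧ CzE U T z a b c d e f ∧
      {y | dist y z = 1 ∧ H987.lb T z a b c d e f y ≠ 0}.Finite ∧ EE T z v' ∧ EE T z q' ∧
      T v' = {a, b, e} ∧ T q' = {c, d, f} := by
  obtain ⟨a, b, c, d, e, f, p, p', r, r', -, Z, S, hfin, Tv, Tq⟩ := inst460 h w0 h5 ev eq hc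
  obtain ⟨u, rfl⟩ := exists_pt hy
  obtain ⟨n, hn | hn⟩ := J_pos S Z hTy
  · subst hn
    exact ⟨a, b, c, d, e, f, _, _, v, q, Zn.shift Z n, rfl, S, hfin, ev, eq, Tv, Tq⟩
  · subst hn
    refine ⟨c, d, a, b, f, e, _, _, q, v, Zn.shift (Zn.swap Z) n, rfl, S.swap460, ?_, eq, ev,
      Tq, Tv⟩
    refine hfin.subset ?_
    rintro y ⟨hy, h1⟩
    refine ⟨hy, fun h2 => h1 ?_⟩
    rw [lb_swap460 S hy, h2]
    rfl

end Vale.Agent.P032.H546
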