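import Vale.Agent.P032.H546.CntJ

/-!
# P032: the cases at a comp centre with a J-partner

`one_J` : exactly one J-point `y = pt z φ`: all labels `1, 2, 1, 2`, or (`IV1`) no `{a,b,f}` and
`1, 2`, or (`IV2`) no `{c,d,e}` and `2, 1`; the label of `y` is `6`.
`two_J` : two J-points, any of them `y = pt z φ`: all labels, `1, 1, 2, 2` or `2, 2, 1, 1`.
-/

open Set Filter Topology Metric

noncomputable section

namespace Vale.Agent.P032.H546

open Vale.Agent.P032.Six Vale.Agent.P032.S5.H767 Vale.Agent.P032.S5.H349 Vale.Agent.P032.S5.H450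
open Vale.Agent.P032.S5.H122 Vale.Agent.P032.Sweep
open Vale.Agent.P032.H987 hiding lb
open Vale.Agent.P032.H460 Vale.Agent.P032.H471 Vale.Agent.P032.H533

variable {U : Fin 6 → Set ℂ} {T : ℂ → Set (Fin 6)} {z v q : ℂ} {a b c d e f : Fin 6} {p r : ℝ}

theorem clo_of_end (S : Cz U T z a b c d e f) {y : ℂ} (hy : dist y z = 1) (hT : T y = {a, b, e})
    (hc : Cln T z y) : y ∈ closure (Ex T z {a, b}) := by
  obtain ⟨u, rfl⟩ := exists_pt hy
  rcases S.end_sides hT hc with ⟨-, ⟨α, hα, k⟩, -⟩ | ⟨-, ⟨β, hβ, k⟩, -⟩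
  · exact mem_clo_left hα k
  · exact mem_clo_right hβ k

/-- the points with the palettes `{a, b, e}`, `{c, d, f}` are ends -/
structure EEs (T : ℂ → Set (Fin 6)) (z : ℂ) (a b c d e f : Fin 6) : Prop where
  abe : ∀ x, dist x z = 1 → T x = {a, b, e} → EE T z x
  cdf : ∀ x, dist x z = 1 → T x = {c, d, f} → EE T z x

theorem ees_of (h : Irr U T) (hS : Sec4 T) (ev : EE T z v) (eq : EE T z q) (hc : T q = (T v)ᶜ)
    (Tv : T v = {a, b, e}) (Tq : T q = {c, d, f}) : EEs T z a b c d e f where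
  abe := fun x h1 h2 => auto471 h hS ev eq hc h1 (h2.trans Tv.symm)
  cdf := fun x h1 h2 => auto471 h hS eq ev (by rw [hc, compl_compl]) h1 (h2.trans Tq.symm)

/-- the number of the J-points -/
theorem nJ_of (h : Irr U T) (hz : DPt T z a b c d) {y : ℂ} (hy : dist y z = 1) (hT : T y = T z) :
    ({y | dist y z = 1 ∧ T y = T z}.ncard = 1 ∧ ∀ y', dist y' z = 1 → T y' = T z → y' = y) ∨
      ({y | dist y z = 1 ∧ T y = T z}.ncard = 2 ∧ ∃ y', dist y' z = 1 ∧ T y' = T z ∧ y' ≠ y) := by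
  rcases one_or_two (P := {y | dist y z = 1 ∧ T y = T z}) (x := y) ⟨hy, hT⟩
    (fun y1 h1 y2 h2 n1 n2 n3 => h.no_three_J hz hy h1.1 h2.1 hT h1.2 h2.2 n1.symm n2.symm n3) with
    ⟨k1, k2⟩ | ⟨k1, y', k2, k3, -⟩
  · exact Or.inl ⟨k1, fun y' h1 h2 => k2 y' ⟨h1, h2⟩⟩
  · exact Or.inr ⟨k1, y', k2.1, k2.2, k3⟩

theorem cnt_ofN (S : CzE U T z a b c d e f) (S' : CzE U T z a b c d f e) :
    Cnt T z a b c d e f {y | dist y z = 1 ∧ T y = {a, b, e}}.ncard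
      {y | dist y z = 1 ∧ T y = {a, b, f}}.ncard {y | dist y z = 1 ∧ T y = {c, d, e}}.ncard
      {y | dist y z = 1 ∧ T y = {c, d, f}}.ncard {y | dist y z = 1 ∧ T y = T z}.ncard where
  abe := rfl
  abf := by
    congr 1
    ext y
    simp only [mem_ofPred_eq]
    exact ⟨fun h1 => ⟨h1.1, h1.2.1⟩, fun h1 => ⟨h1.1, h1.2,
      clo_of_end S'.toCz h1.1 h1.2 (S'.cln y h1.1 (Or.inl h1.2))⟩⟩
  cde := by
    congr 1
    ext y
    simp only [mem_ofPred_eq]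
    exact ⟨fun h1 => ⟨h1.1, h1.2.1⟩, fun h1 => ⟨h1.1, h1.2,
      clo_of_end S.toCz.swapP h1.1 h1.2 (S'.cln y h1.1 (Or.inr h1.2))⟩⟩
  cdf := rfl
  jj := rfl

theorem par_cnt (F : CzF true true U T z a b c d e f) (Z : Zn T z a b c d p r)
    (hfin : {y | dist y z = 1 ∧ lbF true true T z a b c d e f y ≠ 0}.Finite) {n0 n1 n2 n3 n4 : ℕ}
    (C : Cnt T z a b c d e f n0 n1 n2 n3 n4) :
    (n0 + n1 + n4) % 2 = 0 ∧ (n3 + n2 + n4) % 2 = 0 := by
  have k := Cnt.hn F.nd F.four (n := ![n0, n1, n2, n3, n4]) C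
  have h1 := par_A F Z hfin
  have h2 := par_C F Z hfin
  rw [k 0, k 1, k 4] at h1
  rw [k 3, k 2, k 4] at h2
  exact ⟨h1, h2⟩

/-- the data of a centre with exactly one J-point and only one network, first case -/
structure IV1 (U : Fin 6 → Set ℂ) (T : ℂ → Set (Fin 6)) (z : ℂ) (a b c d e f : Fin 6) : Prop where
  F : CzF true false U T z a b c d e f
  fin : {y | dist y z = 1 ∧ lbF true false T z a b c d e f y ≠ 0}.Finite
  nV : {y | dist y z = 1 ∧ T y = {a, b, e}}.ncard = 1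
  nQ : {y | dist y z = 1 ∧ T y = {c, d, f}}.ncard = 2
  nJ : {y | dist y z = 1 ∧ T y = T z}.ncard = 1
  no : ∀ y, dist y z = 1 → T y ≠ {a, b, f}

/-- the second case -/
structure IV2 (U : Fin 6 → Set ℂ) (T : ℂ → Set (Fin 6)) (z : ℂ) (a b c d e f : Fin 6) : Prop where
  F : CzF false true U T z a b c d e f
  fin : {y | dist y z = 1 ∧ lbF false true T z a b c d e f y ≠ 0}.Finite
  nV : {y | dist y z = 1 ∧ T y = {a, b, e}}.ncard = 2
  nQ : {y | dist y z = 1 ∧ T y = {c, d, f}}.ncard = 1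
  nJ : {y | dist y z = 1 ∧ T y = T z}.ncard = 1
  no : ∀ y, dist y z = 1 → T y ≠ {c, d, e}

/-- the data of a centre with two networks -/
structure FullN (U : Fin 6 → Set ℂ) (T : ℂ → Set (Fin 6)) (z : ℂ) (a b c d e f : Fin 6)
    (n0 n1 n2 n3 n4 : ℕ) : Prop where
  F : CzF true true U T z a b c d e f
  fin : {y | dist y z = 1 ∧ lbF true true T z a b c d e f y ≠ 0}.Finite
  cnt : Cnt T z a b c d e f n0 n1 n2 n3 n4
  ees : EEs T z a b c d e f
  ees' : EEs T z a b c d f e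

/-- **all cases** -/
theorem cases_J (h : Irr U T) (hN : N12 T)
    (w0 : ∀ y, dist y z = 1 → (T y).ncard ≤ 3 ∨ T y = T z)
    (h5 : ∀ x y, dist x y = 1 → 5 ≤ (T x).ncard → 4 ≤ (T y).ncard → False)
    (ev : EE T z v) (eq : EE T z q) (hc : T q = (T v)ᶜ) {y : ℂ} (hy : dist y z = 1)
    (hTy : T y = T z) :
    ∃ a b c d e f φ r, pt z φ = y ∧ Zn T z a b c d φ r ∧ CzE U T z a b c d e f ∧
      EEs T z a b c d e f ∧
      (FullN U T z a b c d e f 1 2 1 2 1 ∨ IV1 U T z a b c d e f ∨ IV2 U T z a b c d e f ∨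
        FullN U T z a b c d e f 1 1 2 2 2 ∨ FullN U T z a b c d e f 2 2 1 1 2) := by
  obtain ⟨a, b, c, d, e, f, p, r, v', q', Z, hp, S, hfin, ev', eq', Tv, Tq⟩ :=
    names_J h w0 h5 ev eq hc hy hTy
  have hTp : T (pt z p) = T z := by rw [hp]; exact hTy
  have hc' : T q' = (T v')ᶜ := by rw [Tq, Tv, compl987 S.toCz]
  have E1 := ees_of h hN.s4 ev' eq' hc' Tv Tq
  have n1 := cnt2 h hN ev' eq' hc'
  rw [Tv, Tq] at n1
  have hnJ := nJ_of h S.dpt hy hTy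
  have h4 := S.four
  rcases S.full h5 hfin with ⟨F, fin, k | k⟩ | ⟨F, fin, k⟩ | ⟨F, fin, k⟩
  · obtain ⟨v2, q2, hv2, hq2, Tv2, Tq2, hop, S', hfin'⟩ := k
    have hcc : ({a, b, f} : Set (Fin 6))ᶜ = {c, d, e} := compl987 S'.toCz
    have N : Nd T {a, b, f} z v2 q2 := by
      obtain ⟨⟨ab, ac, ad, af, ae⟩, ⟨bc, bd, bf, be⟩, -⟩ := S'.toCz.nd'
      exact ⟨H987.ncard_three ab af bf, by rw [dist_comm]; exact hv2, by rw [dist_comm]; exact hq2, Tv2,
        by rw [Tq2, hcc], hop⟩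
    obtain ⟨ev2, eq2⟩ := ee_of_nd h hN.s4 N h4
    have hc2 : T q2 = (T v2)ᶜ := by rw [Tq2, Tv2, hcc]
    have E2 := ees_of h hN.s4 ev2 eq2 hc2 Tv2 Tq2
    have n2 := cnt2 h hN ev2 eq2 hc2
    rw [Tv2, Tq2] at n2
    have C := cnt_ofN S S'
    have P := par_cnt F Z fin C
    have hJ2 : {y | dist y z = 1 ∧ T y = T z}.ncard = 1 ∨ {y | dist y z = 1 ∧ T y = T z}.ncard = 2 :=
      hnJ.imp (fun k => k.1) fun k => k.1
    rcases n1 with ⟨m0, m3⟩ | ⟨m0, m3⟩ <;> rcases n2 with ⟨m1, m2⟩ | ⟨m1, m2⟩ <;>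
      rcases hJ2 with m4 | m4 <;> rw [m0, m1, m2, m3, m4] at C P
    · omega
    · exact ⟨a, b, c, d, e, f, p, r, hp, Z, S, E1, Or.inr (Or.inr (Or.inr (Or.inl
        ⟨F, fin, C, E1, E2⟩)))⟩
    · exact ⟨a, b, c, d, e, f, p, r, hp, Z, S, E1, Or.inl ⟨F, fin, C, E1, E2⟩⟩
    · omega
    · -- the free colours exchanged
      have C' := cnt_ofN S' S
      rw [m0, m1, m2, m3, m4] at C'
      rcases S'.full h5 hfin' with ⟨F', fin', -⟩ | ⟨-, -, k⟩ | ⟨-, -, k⟩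
      · exact ⟨a, b, c, d, f, e, p, r, hp, Z, S', E2, Or.inl ⟨F', fin', C', E2, E1⟩⟩
      · exact absurd Tv (k v' ev'.dist)
      · exact absurd Tq (k q' eq'.dist)
    · omega
    · omega
    · exact ⟨a, b, c, d, e, f, p, r, hp, Z, S, E1, Or.inr (Or.inr (Or.inr (Or.inr
        ⟨F, fin, C, E1, E2⟩)))⟩
  · -- the second network has no labelled points
    exfalso
    have C : Cnt T z a b c d e f {y | dist y z = 1 ∧ T y = {a, b, e}}.ncard 0 0
        {y | dist y z = 1 ∧ T y = {c, d, f}}.ncard {y | dist y z = 1 ∧ T y = T z}.ncard := by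
      refine ⟨rfl, ?_, ?_, rfl, rfl⟩
      · rw [show {y | dist y z = 1 ∧ T y = {a, b, f} ∧ y ∈ closure (Ex T z {a, b})} = ∅ from
          Set.eq_empty_iff_forall_notMem.2 fun y hy => (k y hy.1).1 hy.2.1 hy.2.2]
        exact Set.ncard_empty _
      · rw [show {y | dist y z = 1 ∧ T y = {c, d, e} ∧ y ∈ closure (Ex T z {c, d})} = ∅ from
          Set.eq_empty_iff_forall_notMem.2 fun y hy => (k y hy.1).2 hy.2.1 hy.2.2]
        exact Set.ncard_empty _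
    have P := par_cnt F Z fin C
    rcases n1 with ⟨m0, m3⟩ | ⟨m0, m3⟩ <;> rw [m0, m3] at P <;> omega
  · have P := par_A F Z fin
    simp only [ind0_iff h4, ind1_iff F.nd h4, ind4_iff, true_and] at P
    rw [show {y | dist y z = 1 ∧ T y = {a, b, f} ∧ y ∈ closure (Ex T z {a, b})} = ∅ from
      Set.eq_empty_iff_forall_notMem.2 fun y hy => k y hy.1 hy.2.1, Set.ncard_empty] at P
    refine ⟨a, b, c, d, e, f, p, r, hp, Z, S, E1, Or.inr (Or.inl ?_)⟩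
    rcases n1 with ⟨m0, m3⟩ | ⟨m0, m3⟩ <;> rcases hnJ with ⟨m4, -⟩ | ⟨m4, -⟩ <;>
      rw [m0, m4] at P
    · exact ⟨F, fin, m0, m3, m4, k⟩
    · omega
    · omega
    · exact (noS2 F Z fin m0 m3 m4 k (six_of S Z hTp)).elim
  · have P := par_C F Z fin
    simp only [ind3_iff F.nd h4, ind2_iff F.nd h4, ind4_iff, true_and] at P
    rw [show {y | dist y z = 1 ∧ T y = {c, d, e} ∧ y ∈ closure (Ex T z {c, d})} = ∅ from
      Set.eq_empty_iff_forall_notMem.2 fun y hy => k y hy.1 hy.2.1, Set.ncard_empty] at P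
    refine ⟨a, b, c, d, e, f, p, r, hp, Z, S, E1, Or.inr (Or.inr (Or.inl ?_))⟩
    rcases n1 with ⟨m0, m3⟩ | ⟨m0, m3⟩ <;> rcases hnJ with ⟨m4, -⟩ | ⟨m4, -⟩ <;>
      rw [m3, m4] at P
    · omega
    · exact (noR2 F Z fin m0 m3 m4 k (six_of S Z hTp)).elim
    · exact ⟨F, fin, m0, m3, m4, k⟩
    · omega

/-- **exactly one J-point** -/
theorem one_J (h : Irr U T) (hN : N12 T)
    (w0 : ∀ y, dist y z = 1 → (T y).ncard ≤ 3 ∨ T y = T z)
    (h5 : ∀ x y, dist x y = 1 → 5 ≤ (T x).ncard → 4 ≤ (T y).ncard → False)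
    (ev : EE T z v) (eq : EE T z q) (hc : T q = (T v)ᶜ) {y : ℂ} (hy : dist y z = 1)
    (hTy : T y = T z) (hone : ∀ y', dist y' z = 1 → T y' = T z → y' = y) :
    ∃ a b c d e f φ r, pt z φ = y ∧ Zn T z a b c d φ r ∧ EEs T z a b c d e f ∧
      ((FullN U T z a b c d e f 1 2 1 2 1 ∧ lbF true true T z a b c d e f (pt z φ) = 6) ∨
        (IV1 U T z a b c d e f ∧ lbF true false T z a b c d e f (pt z φ) = 6) ∨
        (IV2 U T z a b c d e f ∧ lbF false true T z a b c d e f (pt z φ) = 6)) := by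
  obtain ⟨a, b, c, d, e, f, φ, r, hφ, Z, S, E, k⟩ := cases_J h hN w0 h5 ev eq hc hy hTy
  have hTp : T (pt z φ) = T z := by rw [hφ]; exact hTy
  have hn : {y | dist y z = 1 ∧ T y = T z}.ncard ≠ 2 := by
    rcases nJ_of h S.dpt hy hTy with ⟨k1, -⟩ | ⟨-, y', k1, k2, k3⟩
    · omega
    · exact absurd (hone y' k1 k2) k3
  refine ⟨a, b, c, d, e, f, φ, r, hφ, Z, E, ?_⟩
  rcases k with k | k | k | k | k
  · exact Or.inl ⟨k, six_of S Z hTp⟩
  · exact Or.inr (Or.inl ⟨k, six_of S Z hTp⟩)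
  · exact Or.inr (Or.inr ⟨k, six_of S Z hTp⟩)
  · exact absurd k.cnt.jj hn
  · exact absurd k.cnt.jj hn

/-- **two J-points** -/
theorem two_J (h : Irr U T) (hN : N12 T)
    (w0 : ∀ y, dist y z = 1 → (T y).ncard ≤ 3 ∨ T y = T z)
    (h5 : ∀ x y, dist x y = 1 → 5 ≤ (T x).ncard → 4 ≤ (T y).ncard → False)
    (ev : EE T z v) (eq : EE T z q) (hc : T q = (T v)ᶜ) {y y' : ℂ} (hy : dist y z = 1)
    (hTy : T y = T z) (hy' : dist y' z = 1) (hTy' : T y' = T z) (hne : y' ≠ y) :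
    ∃ a b c d e f φ r, pt z φ = y ∧ Zn T z a b c d φ r ∧
      lbF true true T z a b c d e f (pt z φ) = 6 ∧
      (FullN U T z a b c d e f 1 1 2 2 2 ∨ FullN U T z a b c d e f 2 2 1 1 2) := by
  obtain ⟨a, b, c, d, e, f, φ, r, hφ, Z, S, E, k⟩ := cases_J h hN w0 h5 ev eq hc hy hTy
  have hTp : T (pt z φ) = T z := by rw [hφ]; exact hTy
  have hn : {y | dist y z = 1 ∧ T y = T z}.ncard ≠ 1 := by
    rcases nJ_of h S.dpt hy hTy with ⟨-, k1⟩ | ⟨k1, -⟩
    · exact absurd (k1 y' hy' hTy') hne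
    · omega
  refine ⟨a, b, c, d, e, f, φ, r, hφ, Z, six_of S Z hTp, ?_⟩
  rcases k with k | k | k | k | k
  · exact absurd k.cnt.jj hn
  · exact absurd k.nJ hn
  · exact absurd k.nJ hn
  · exact Or.inl k
  · exact Or.inr k

end Vale.Agent.P032.H546
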