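import Vale.Agent.P032.H546.FWord
import Vale.Agent.P032.H546.FD1
import Vale.Agent.P032.H546.FD2
import Vale.Agent.P032.H546.FD3
import Vale.Agent.P032.H546.FDS

/-!
# P032: the words of a centre with a J-partner

Labels (`A` : exact `ab`-arc, `C` : exact `cd`-arc, `e`, `f` : one of these colours, before > after):
`1` : `A>e`, `2` : `e>A`, `3` : `C>f`, `4` : `f>C`, `5` : `A>C`, `6` : `C>A`, `7` : `A>f`, `8` : `f>A`,
`9` : `C>e`, `10` : `e>C`.

* `list1` : one J, `1, 2, 1, 2` ends `{a,b,e}, {a,b,f}, {c,d,e}, {c,d,f}`;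
* `list2` : two J's, `1, 1, 2, 2` ends; `list3` : two J's, `2, 2, 1, 1` ends;
* `listS` : one J, no `{a,b,f}`, `1, 2` ends `{a,b,e}, {c,d,f}`, the points `{c,d,e}` not labelled.
-/

open Set Filter Topology Metric

noncomputable section

namespace Vale.Agent.P032.H546

open Vale.Agent.P032.Six Vale.Agent.P032.S5.H767 Vale.Agent.P032.S5.H349
open Vale.Agent.P032.H987 hiding lb
open Vale.Agent.P032.H460

/-! ### The systems of certificates -/

theorem ccF : ∀ k, k < 4 → ckF evF wpF (zn k) (zn k) (FC (clF k)) = true := by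
  intro k hk
  have h4 : k = 0 ∨ k = 1 ∨ k = 2 ∨ k = 3 := by omega
  rcases h4 with rfl | rfl | rfl | rfl
  exacts [cclF0, cclF1, cclF2, cclF3]

theorem ccS : ∀ k, k < 4 → ckF evS wpS (zn k) (zn k) (FC (clS k)) = true := by
  intro k hk
  have h4 : k = 0 ∨ k = 1 ∨ k = 2 ∨ k = 3 := by omega
  rcases h4 with rfl | rfl | rfl | rfl
  exacts [cclS0, cclS1, cclS2, cclS3]

theorem sys1 : Sys C1.P evF wpF C1.Q clF where
  c01 := ⟨_, _, _, _, _, _, by norm_num, ⟨C1.pa01, C1.mi01, C1.pb01, C1.st01, C1.en01⟩⟩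
  c11 := ⟨_, _, _, _, _, _, by norm_num, ⟨C1.pa11, C1.mi11, C1.pb11, C1.st11, C1.en11⟩⟩
  c21 := ⟨_, _, _, _, _, _, by norm_num, ⟨C1.pa21, C1.mi21, C1.pb21, C1.st21, C1.en21⟩⟩
  c10 := ⟨_, _, _, _, by norm_num, ⟨C1.ph10, C1.st10, C1.en10⟩⟩
  c20 := ⟨_, _, _, _, by norm_num, ⟨C1.ph20, C1.st20, C1.en20⟩⟩
  mok := C1.mok
  bnd := by decide
  cc := ccF

theorem sys2 : Sys C2.P evF wpF C2.Q clF where
  c01 := ⟨_, _, _, _, _, _, by norm_num, ⟨C2.pa01, C2.mi01, C2.pb01, C2.st01, C2.en01⟩⟩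
  c11 := ⟨_, _, _, _, _, _, by norm_num, ⟨C2.pa11, C2.mi11, C2.pb11, C2.st11, C2.en11⟩⟩
  c21 := ⟨_, _, _, _, _, _, by norm_num, ⟨C2.pa21, C2.mi21, C2.pb21, C2.st21, C2.en21⟩⟩
  c10 := ⟨_, _, _, _, by norm_num, ⟨C2.ph10, C2.st10, C2.en10⟩⟩
  c20 := ⟨_, _, _, _, by norm_num, ⟨C2.ph20, C2.st20, C2.en20⟩⟩
  mok := C2.mok
  bnd := by decide
  cc := ccF

theorem sys3 : Sys C3.P evF wpF C3.Q clF where
  c01 := ⟨_, _, _, _, _, _, by norm_num, ⟨C3.pa01, C3.mi01, C3.pb01, C3.st01, C3.en01⟩⟩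
  c11 := ⟨_, _, _, _, _, _, by norm_num, ⟨C3.pa11, C3.mi11, C3.pb11, C3.st11, C3.en11⟩⟩
  c21 := ⟨_, _, _, _, _, _, by norm_num, ⟨C3.pa21, C3.mi21, C3.pb21, C3.st21, C3.en21⟩⟩
  c10 := ⟨_, _, _, _, by norm_num, ⟨C3.ph10, C3.st10, C3.en10⟩⟩
  c20 := ⟨_, _, _, _, by norm_num, ⟨C3.ph20, C3.st20, C3.en20⟩⟩
  mok := C3.mok
  bnd := by decide
  cc := ccF

theorem sysS : Sys CS.P evS wpS CS.Q clS where
  c01 := ⟨_, _, _, _, _, _, by norm_num, ⟨CS.pa01, CS.mi01, CS.pb01, CS.st01, CS.en01⟩⟩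
  c11 := ⟨_, _, _, _, _, _, by norm_num, ⟨CS.pa11, CS.mi11, CS.pb11, CS.st11, CS.en11⟩⟩
  c21 := ⟨_, _, _, _, _, _, by norm_num, ⟨CS.pa21, CS.mi21, CS.pb21, CS.st21, CS.en21⟩⟩
  c10 := ⟨_, _, _, _, by norm_num, ⟨CS.ph10, CS.st10, CS.en10⟩⟩
  c20 := ⟨_, _, _, _, by norm_num, ⟨CS.ph20, CS.st20, CS.en20⟩⟩
  mok := CS.mok
  bnd := by decide
  cc := ccS

/-! ### The tests -/

/-- the label words -/
def wds1 : List (List ℕ) :=
  [[6, 7, 4, 9, 8, 1, 4], [6, 7, 10, 3, 8, 1, 4], [6, 7, 10, 3, 2, 7, 4], [6, 7, 4, 9, 2, 7, 4]]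

def wds2 : List (List ℕ) :=
  [[6, 7, 10, 3, 2, 5, 3, 10], [6, 1, 4, 9, 8, 5, 9, 4], [6, 7, 10, 3, 2, 5, 9, 4],
    [6, 1, 4, 9, 8, 5, 3, 10], [6, 7, 4, 9, 2, 5, 3, 10], [6, 1, 10, 3, 8, 5, 3, 10],
    [6, 7, 4, 9, 2, 5, 9, 4], [6, 1, 10, 3, 8, 5, 9, 4]]

def wds3 : List (List ℕ) :=
  [[6, 7, 2, 5, 3, 2, 7, 10], [6, 7, 2, 5, 3, 8, 1, 10], [6, 1, 8, 5, 9, 8, 1, 4],
    [6, 7, 2, 5, 9, 8, 1, 4], [6, 1, 8, 5, 3, 8, 1, 10], [6, 1, 8, 5, 9, 2, 7, 4],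
    [6, 1, 8, 5, 3, 2, 7, 10], [6, 7, 2, 5, 9, 2, 7, 4]]

/-- the label word is in the list, the slots are between `lo` and `hi` -/
def Wt (wds : List (List ℕ)) (lo hi : List ℕ) (l : List (ℕ × ℕ)) : Bool :=
  decide (l.map Prod.snd ∈ wds ∧ List.Forall₂ (· ≤ ·) lo (l.map Prod.fst) ∧
    List.Forall₂ (· ≤ ·) (l.map Prod.fst) hi)

theorem w1 : ∀ x ∈ C1.QL, Wt wds1 [0, 0, 1, 1, 3, 3, 5] [0, 1, 2, 2, 4, 5, 5] (pat (upk x)) =
    true := by decide +kernel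

theorem w2 : ∀ x ∈ C2.QL, Wt wds2 [0, 0, 1, 1, 3, 3, 3, 5] [0, 1, 2, 2, 4, 4, 4, 5]
    (pat (upk x)) = true := by decide +kernel

theorem w3 : ∀ x ∈ C3.QL, Wt wds3 [0, 0, 1, 1, 1, 3, 3, 5] [0, 1, 2, 2, 2, 4, 5, 5]
    (pat (upk x)) = true := by decide +kernel

theorem wS : ∀ x ∈ CS.QL, Wt [[6, 1, 3, 3]] [0, 0, 1, 3] [0, 1, 2, 4] (pat (upk x)) = true := by
  decide +kernel

theorem any_mem {l : List ℕ} {x : ℕ} (h : anyR (fun y => Nat.beq y x) l = true) : x ∈ l := by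
  obtain ⟨y, hy, h1⟩ := anyR_iff.1 h
  rw [← Nat.eq_of_beq_eq_true h1]
  exact hy

/-! ### The labels and the palettes -/

variable {U : Fin 6 → Set ℂ} {T : ℂ → Set (Fin 6)} {z : ℂ} {a b c d e f : Fin 6} {p q : ℝ}
  {g1 g2 : Bool}

theorem ne_four (h4 : (T z).ncard = 4) {y : ℂ} {i j k : Fin 6} (h : T y = {i, j, k}) :
    T y ≠ T z := three_ne_z h4 h

theorem nd_ne (nd : [a, b, c, d, e, f].Nodup) : ({a, b, e} : Set (Fin 6)) ≠ {c, d, f} ∧
    ({a, b, e} : Set (Fin 6)) ≠ {a, b, f} ∧ ({a, b, e} : Set (Fin 6)) ≠ {c, d, e} ∧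
    ({c, d, f} : Set (Fin 6)) ≠ {a, b, f} ∧ ({c, d, f} : Set (Fin 6)) ≠ {c, d, e} ∧
    ({a, b, f} : Set (Fin 6)) ≠ {c, d, e} := by
  simp only [List.nodup_cons, List.mem_cons, List.not_mem_nil, or_false, not_or, List.nodup_nil,
    and_true, not_false_eq_true] at nd
  obtain ⟨⟨ab, ac, ad, ae, af⟩, ⟨bc, bd, be, bf⟩, ⟨cd, ce, cf⟩, ⟨de, df⟩, ef⟩ := nd
  refine ⟨fun h => ?_, fun h => ?_, fun h => ?_, fun h => ?_, fun h => ?_, fun h => ?_⟩
  · have : a ∈ ({c, d, f} : Set (Fin 6)) := by rw [← h]; simp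
    rcases this with h | h | h
    exacts [ac h, ad h, af h]
  · have : e ∈ ({a, b, f} : Set (Fin 6)) := by rw [← h]; simp
    rcases this with h | h | h
    exacts [ae h.symm, be h.symm, ef h]
  · have : a ∈ ({c, d, e} : Set (Fin 6)) := by rw [← h]; simp
    rcases this with h | h | h
    exacts [ac h, ad h, ae h]
  · have : c ∈ ({a, b, f} : Set (Fin 6)) := by rw [← h]; simp
    rcases this with h | h | h
    exacts [ac h.symm, bc h.symm, cf h]
  · have : f ∈ ({c, d, e} : Set (Fin 6)) := by rw [← h]; simp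
    rcases this with h | h | h
    exacts [cf h.symm, df h.symm, ef h.symm]
  · have : a ∈ ({c, d, e} : Set (Fin 6)) := by rw [← h]; simp
    rcases this with h | h | h
    exacts [ac h, ad h, ae h]

theorem ind4_iff {y : ℂ} : ind 4 (lbF g1 g2 T z a b c d e f y).val ≠ 0 ↔ T y = T z := by
  unfold lbF
  by_cases h1 : T y = T z
  · rw [if_pos h1]
    refine ⟨fun _ => h1, fun _ => ?_⟩
    split_ifs <;> decide
  · rw [if_neg h1]
    refine ⟨fun h2 => ?_, fun h2 => absurd h2 h1⟩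
    exfalso
    revert h2
    split_ifs <;> decide

theorem ind0_iff (h4 : (T z).ncard = 4) {y : ℂ} :
    ind 0 (lbF g1 g2 T z a b c d e f y).val ≠ 0 ↔ T y = {a, b, e} := by
  unfold lbF
  by_cases h2 : T y = {a, b, e}
  · rw [if_neg (ne_four h4 h2), if_pos h2]
    refine ⟨fun _ => h2, fun _ => ?_⟩
    split_ifs <;> decide
  · refine ⟨fun h3 => ?_, fun h3 => absurd h3 h2⟩
    exfalso
    rw [if_neg h2] at h3
    revert h3
    split_ifs <;> decide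

theorem ind3_iff (nd : [a, b, c, d, e, f].Nodup) (h4 : (T z).ncard = 4) {y : ℂ} :
    ind 3 (lbF g1 g2 T z a b c d e f y).val ≠ 0 ↔ T y = {c, d, f} := by
  unfold lbF
  by_cases h2 : T y = {c, d, f}
  · have h3 : T y ≠ {a, b, e} := by rw [h2]; exact (nd_ne nd).1.symm
    rw [if_neg (ne_four h4 h2), if_neg h3, if_pos h2]
    refine ⟨fun _ => h2, fun _ => ?_⟩
    split_ifs <;> decide
  · refine ⟨fun h3 => ?_, fun h3 => absurd h3 h2⟩
    exfalso
    rw [if_neg h2] at h3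
    revert h3
    split_ifs <;> decide

theorem ind1_iff (nd : [a, b, c, d, e, f].Nodup) (h4 : (T z).ncard = 4) {y : ℂ} :
    ind 1 (lbF g1 g2 T z a b c d e f y).val ≠ 0 ↔
      g1 = true ∧ T y = {a, b, f} ∧ y ∈ closure (Ex T z {a, b}) := by
  unfold lbF
  by_cases h2 : g1 = true ∧ T y = {a, b, f} ∧ y ∈ closure (Ex T z {a, b})
  · have h3 : T y ≠ {a, b, e} := by rw [h2.2.1]; exact (nd_ne nd).2.1.symm
    have h5 : T y ≠ {c, d, f} := by rw [h2.2.1]; exact (nd_ne nd).2.2.2.1.symm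
    rw [if_neg (ne_four h4 h2.2.1), if_neg h3, if_neg h5, if_pos h2]
    refine ⟨fun _ => h2, fun _ => ?_⟩
    split_ifs <;> decide
  · refine ⟨fun h3 => ?_, fun h3 => absurd h3 h2⟩
    exfalso
    rw [if_neg h2] at h3
    revert h3
    split_ifs <;> decide

theorem ind2_iff (nd : [a, b, c, d, e, f].Nodup) (h4 : (T z).ncard = 4) {y : ℂ} :
    ind 2 (lbF g1 g2 T z a b c d e f y).val ≠ 0 ↔
      g2 = true ∧ T y = {c, d, e} ∧ y ∈ closure (Ex T z {c, d}) := by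
  unfold lbF
  by_cases h2 : g2 = true ∧ T y = {c, d, e} ∧ y ∈ closure (Ex T z {c, d})
  · have h3 : T y ≠ {a, b, e} := by rw [h2.2.1]; exact (nd_ne nd).2.2.1.symm
    have h5 : T y ≠ {c, d, f} := by rw [h2.2.1]; exact (nd_ne nd).2.2.2.2.1.symm
    have h6 : ¬ (g1 = true ∧ T y = {a, b, f} ∧ y ∈ closure (Ex T z {a, b})) := by
      rintro ⟨-, h6, -⟩
      rw [h2.2.1] at h6
      exact (nd_ne nd).2.2.2.2.2 h6.symm
    rw [if_neg (ne_four h4 h2.2.1), if_neg h3, if_neg h5, if_neg h6, if_pos h2]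
    refine ⟨fun _ => h2, fun _ => ?_⟩
    split_ifs <;> decide
  · refine ⟨fun h3 => ?_, fun h3 => absurd h3 h2⟩
    exfalso
    rw [if_neg h2] at h3
    revert h3
    split_ifs <;> decide

/-- the numbers of the points of `S(z)` with the five kinds of palettes -/
structure Cnt (T : ℂ → Set (Fin 6)) (z : ℂ) (a b c d e f : Fin 6) (n0 n1 n2 n3 n4 : ℕ) : Prop where
  abe : {y | dist y z = 1 ∧ T y = {a, b, e}}.ncard = n0
  abf : {y | dist y z = 1 ∧ T y = {a, b, f} ∧ y ∈ closure (Ex T z {a, b})}.ncard = n1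
  cde : {y | dist y z = 1 ∧ T y = {c, d, e} ∧ y ∈ closure (Ex T z {c, d})}.ncard = n2
  cdf : {y | dist y z = 1 ∧ T y = {c, d, f}}.ncard = n3
  jj : {y | dist y z = 1 ∧ T y = T z}.ncard = n4

theorem Cnt.hn (nd : [a, b, c, d, e, f].Nodup) (h4 : (T z).ncard = 4) {n : Fin 5 → ℕ}
    (C : Cnt T z a b c d e f (n 0) (n 1) (n 2) (n 3) (n 4)) (i : Fin 5) :
    {y | dist y z = 1 ∧ ind i (lbF true true T z a b c d e f y).val ≠ 0}.ncard = n i := by
  fin_cases i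
  · show {y | dist y z = 1 ∧ ind 0 (lbF true true T z a b c d e f y).val ≠ 0}.ncard = n 0
    simp only [ind0_iff h4]
    exact C.abe
  · show {y | dist y z = 1 ∧ ind 1 (lbF true true T z a b c d e f y).val ≠ 0}.ncard = n 1
    simp only [ind1_iff nd h4, true_and]
    exact C.abf
  · show {y | dist y z = 1 ∧ ind 2 (lbF true true T z a b c d e f y).val ≠ 0}.ncard = n 2
    simp only [ind2_iff nd h4, true_and]
    exact C.cde
  · show {y | dist y z = 1 ∧ ind 3 (lbF true true T z a b c d e f y).val ≠ 0}.ncard = n 3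
    simp only [ind3_iff nd h4]
    exact C.cdf
  · show {y | dist y z = 1 ∧ ind 4 (lbF true true T z a b c d e f y).val ≠ 0}.ncard = n 4
    simp only [ind4_iff]
    exact C.jj

/-- the conclusion: the circular list `l` (directions from `p`, labels) of the labelled points -/
def Lst (g1 g2 : Bool) (T : ℂ → Set (Fin 6)) (z : ℂ) (a b c d e f : Fin 6) (p : ℝ)
    (wds : List (List ℕ)) (lo hi : List ℕ) (l : List (ℝ × ℕ)) : Prop :=
  (l.map Prod.fst).Pairwise (· < ·) ∧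
    (∀ x ∈ l, 0 ≤ x.1 ∧ x.1 < 6 ∧ x.2 ≠ 0 ∧
      (lbF g1 g2 T z a b c d e f (pt z (p + x.1))).val = x.2) ∧
    (∀ t, 0 ≤ t → t < 6 → lbF g1 g2 T z a b c d e f (pt z (p + t)) ≠ 0 → ∃ x ∈ l, x.1 = t) ∧
    l.map Prod.snd ∈ wds ∧ List.Forall₂ (· ≤ ·) lo (l.map fun x => ⌊x.1⌋₊) ∧
    List.Forall₂ (· ≤ ·) (l.map fun x => ⌊x.1⌋₊) hi

theorem lst_of {wds : List (List ℕ)} {lo hi : List ℕ} (h : ∃ l : List (ℝ × ℕ),
      (l.map Prod.fst).Pairwise (· < ·) ∧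
      (∀ x ∈ l, 0 ≤ x.1 ∧ x.1 < 6 ∧ x.2 ≠ 0 ∧
        (lbF g1 g2 T z a b c d e f (pt z (p + x.1))).val = x.2) ∧
      (∀ t, 0 ≤ t → t < 6 → lbF g1 g2 T z a b c d e f (pt z (p + t)) ≠ 0 → ∃ x ∈ l, x.1 = t) ∧
      Wt wds lo hi (l.map fun x => (⌊x.1⌋₊, x.2)) = true) :
    ∃ l, Lst g1 g2 T z a b c d e f p wds lo hi l := by
  obtain ⟨l, h1, h2, h3, h4⟩ := h
  unfold Wt at h4
  have h5 := of_decide_eq_true h4
  rw [List.map_map, List.map_map] at h5
  exact ⟨l, h1, h2, h3, h5.1, h5.2.1, h5.2.2⟩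

/-- **one J, all labels, `1, 2, 1, 2`** -/
theorem list1 (S : CzF true true U T z a b c d e f) (Z : Zn T z a b c d p q)
    (hfin : {y | dist y z = 1 ∧ lbF true true T z a b c d e f y ≠ 0}.Finite)
    (C : Cnt T z a b c d e f 1 2 1 2 1) (hJ : lbF true true T z a b c d e f (pt z p) = 6) :
    ∃ l, Lst true true T z a b c d e f p wds1 [0, 0, 1, 1, 3, 3, 5] [0, 1, 2, 2, 4, 5, 5] l :=
  lst_of (list_of S Z hfin labOK_F (fun _ => trivial) sys1 (fun x hx => w1 x (any_mem hx)) hJ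
    (Cnt.hn S.nd S.four (n := C1.P.tt) C))

/-- **two J's, all labels, `1, 1, 2, 2`** -/
theorem list2 (S : CzF true true U T z a b c d e f) (Z : Zn T z a b c d p q)
    (hfin : {y | dist y z = 1 ∧ lbF true true T z a b c d e f y ≠ 0}.Finite)
    (C : Cnt T z a b c d e f 1 1 2 2 2) (hJ : lbF true true T z a b c d e f (pt z p) = 6) :
    ∃ l, Lst true true T z a b c d e f p wds2 [0, 0, 1, 1, 3, 3, 3, 5] [0, 1, 2, 2, 4, 4, 4, 5] l :=
  lst_of (list_of S Z hfin labOK_F (fun _ => trivial) sys2 (fun x hx => w2 x (any_mem hx)) hJ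
    (Cnt.hn S.nd S.four (n := C2.P.tt) C))

/-- **two J's, all labels, `2, 2, 1, 1`** -/
theorem list3 (S : CzF true true U T z a b c d e f) (Z : Zn T z a b c d p q)
    (hfin : {y | dist y z = 1 ∧ lbF true true T z a b c d e f y ≠ 0}.Finite)
    (C : Cnt T z a b c d e f 2 2 1 1 2) (hJ : lbF true true T z a b c d e f (pt z p) = 6) :
    ∃ l, Lst true true T z a b c d e f p wds3 [0, 0, 1, 1, 1, 3, 3, 5] [0, 1, 2, 2, 2, 4, 5, 5] l :=
  lst_of (list_of S Z hfin labOK_F (fun _ => trivial) sys3 (fun x hx => w3 x (any_mem hx)) hJ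
    (Cnt.hn S.nd S.four (n := C3.P.tt) C))

/-- the labels `9`, `10` do not occur if the flag is `false` -/
theorem lbF_false (y : ℂ) : lbF true false T z a b c d e f y ≠ 9 ∧
    lbF true false T z a b c d e f y ≠ 10 := by
  unfold lbF
  by_cases h1 : T y = T z
  · rw [if_pos h1]; split_ifs <;> decide
  by_cases h2 : T y = {a, b, e}
  · rw [if_neg h1, if_pos h2]; split_ifs <;> decide
  by_cases h3 : T y = {c, d, f}
  · rw [if_neg h1, if_neg h2, if_pos h3]; split_ifs <;> decide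
  by_cases h4 : true = true ∧ T y = {a, b, f} ∧ y ∈ closure (Ex T z {a, b})
  · rw [if_neg h1, if_neg h2, if_neg h3, if_pos h4]; split_ifs <;> decide
  · rw [if_neg h1, if_neg h2, if_neg h3, if_neg h4, if_neg (by simp)]; decide

/-- **one J, no `{a, b, f}`, the points `{c, d, e}` not labelled, `1, 2`** -/
theorem listS (S : CzF true false U T z a b c d e f) (Z : Zn T z a b c d p q)
    (hfin : {y | dist y z = 1 ∧ lbF true false T z a b c d e f y ≠ 0}.Finite)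
    (nV : {y | dist y z = 1 ∧ T y = {a, b, e}}.ncard = 1)
    (nQ : {y | dist y z = 1 ∧ T y = {c, d, f}}.ncard = 2)
    (nJ : {y | dist y z = 1 ∧ T y = T z}.ncard = 1)
    (hno : ∀ y, dist y z = 1 → T y ≠ {a, b, f})
    (hJ : lbF true false T z a b c d e f (pt z p) = 6) :
    ∃ l, Lst true false T z a b c d e f p [[6, 1, 3, 3]] [0, 0, 1, 3] [0, 1, 2, 4] l := by
  refine lst_of (list_of S Z hfin labOK_S (fun y => lbF_false y) sysS
    (fun x hx => wS x (any_mem hx)) hJ fun i => ?_)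
  have nd := S.nd
  have h4 := S.four
  fin_cases i
  · show {y | dist y z = 1 ∧ ind 0 (lbF true false T z a b c d e f y).val ≠ 0}.ncard = 1
    simp only [ind0_iff h4]
    exact nV
  · show {y | dist y z = 1 ∧ ind 1 (lbF true false T z a b c d e f y).val ≠ 0}.ncard = 0
    simp only [ind1_iff nd h4, true_and]
    rw [show {y | dist y z = 1 ∧ T y = {a, b, f} ∧ y ∈ closure (Ex T z {a, b})} = ∅ from
      Set.eq_empty_iff_forall_notMem.2 fun y hy => hno y hy.1 hy.2.1]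
    exact Set.ncard_empty _
  · show {y | dist y z = 1 ∧ ind 2 (lbF true false T z a b c d e f y).val ≠ 0}.ncard = 0
    simp only [ind2_iff nd h4, Bool.false_eq_true, false_and, and_false]
    exact Set.ncard_empty _
  · show {y | dist y z = 1 ∧ ind 3 (lbF true false T z a b c d e f y).val ≠ 0}.ncard = 2
    simp only [ind3_iff nd h4]
    exact nQ
  · show {y | dist y z = 1 ∧ ind 4 (lbF true false T z a b c d e f y).val ≠ 0}.ncard = 1
    simp only [ind4_iff]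
    exact nJ

end Vale.Agent.P032.H546
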