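import Vale.Agent.P032.H546.FFin
import Vale.Agent.P032.H546.FDR

/-!
# P032: the words of a centre with one J-partner and one network, second orientation

`listT` : one J, no `{c,d,e}`, `2, 1` ends `{a,b,e}, {c,d,f}`, the points `{a,b,f}` not labelled.
-/

open Set Filter Topology Metric

noncomputable section

namespace Vale.Agent.P032.H546

open Vale.Agent.P032.Six Vale.Agent.P032.S5.H767 Vale.Agent.P032.S5.H349
open Vale.Agent.P032.H987 hiding lb
open Vale.Agent.P032.H460

theorem ccR : ∀ k, k < 4 → ckF evR wpR (zn k) (zn k) (FC (clR k)) = true := by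
  intro k hk
  have h4 : k = 0 ∨ k = 1 ∨ k = 2 ∨ k = 3 := by omega
  rcases h4 with rfl | rfl | rfl | rfl
  exacts [cclR0, cclR1, cclR2, cclR3]

theorem sysR : Sys CR.P evR wpR CR.Q clR where
  c01 := ⟨_, _, _, _, _, _, by norm_num, ⟨CR.pa01, CR.mi01, CR.pb01, CR.st01, CR.en01⟩⟩
  c11 := ⟨_, _, _, _, _, _, by norm_num, ⟨CR.pa11, CR.mi11, CR.pb11, CR.st11, CR.en11⟩⟩
  c21 := ⟨_, _, _, _, _, _, by norm_num, ⟨CR.pa21, CR.mi21, CR.pb21, CR.st21, CR.en21⟩⟩
  c10 := ⟨_, _, _, _, by norm_num, ⟨CR.ph10, CR.st10, CR.en10⟩⟩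
  c20 := ⟨_, _, _, _, by norm_num, ⟨CR.ph20, CR.st20, CR.en20⟩⟩
  mok := CR.mok
  bnd := by decide
  cc := ccR

theorem wR : ∀ x ∈ CR.QL, Wt [[6, 2, 2, 4]] [0, 1, 3, 5] [0, 2, 4, 5] (pat (upk x)) = true := by
  decide +kernel

variable {U : Fin 6 → Set ℂ} {T : ℂ → Set (Fin 6)} {z : ℂ} {a b c d e f : Fin 6} {p q : ℝ}
  {g1 g2 : Bool}

/-- the labels `7`, `8` do not occur if the flag is `false` -/
theorem lbF_falseR (y : ℂ) : lbF false true T z a b c d e f y ≠ 7 ∧
    lbF false true T z a b c d e f y ≠ 8 := by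
  unfold lbF
  by_cases h1 : T y = T z
  · rw [if_pos h1]; split_ifs <;> decide
  by_cases h2 : T y = {a, b, e}
  · rw [if_neg h1, if_pos h2]; split_ifs <;> decide
  by_cases h3 : T y = {c, d, f}
  · rw [if_neg h1, if_neg h2, if_pos h3]; split_ifs <;> decide
  rw [if_neg h1, if_neg h2, if_neg h3, if_neg (by simp)]
  by_cases h4 : true = true ∧ T y = {c, d, e} ∧ y ∈ closure (Ex T z {c, d})
  · rw [if_pos h4]; split_ifs <;> decide
  · rw [if_neg h4]; decide

/-- **one J, no `{c, d, e}`, the points `{a, b, f}` not labelled, `2, 1`** -/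
theorem listT (S : CzF false true U T z a b c d e f) (Z : Zn T z a b c d p q)
    (hfin : {y | dist y z = 1 ∧ lbF false true T z a b c d e f y ≠ 0}.Finite)
    (nV : {y | dist y z = 1 ∧ T y = {a, b, e}}.ncard = 2)
    (nQ : {y | dist y z = 1 ∧ T y = {c, d, f}}.ncard = 1)
    (nJ : {y | dist y z = 1 ∧ T y = T z}.ncard = 1)
    (hno : ∀ y, dist y z = 1 → T y ≠ {c, d, e})
    (hJ : lbF false true T z a b c d e f (pt z p) = 6) :
    ∃ l, Lst false true T z a b c d e f p [[6, 2, 2, 4]] [0, 1, 3, 5] [0, 2, 4, 5] l := by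
  refine lst_of (list_of S Z hfin labOK_R (fun y => lbF_falseR y) sysR
    (fun x hx => wR x (any_mem hx)) hJ fun i => ?_)
  have nd := S.nd
  have h4 := S.four
  fin_cases i
  · show {y | dist y z = 1 ∧ ind 0 (lbF false true T z a b c d e f y).val ≠ 0}.ncard = 2
    simp only [ind0_iff h4]
    exact nV
  · show {y | dist y z = 1 ∧ ind 1 (lbF false true T z a b c d e f y).val ≠ 0}.ncard = 0
    simp only [ind1_iff nd h4, Bool.false_eq_true, false_and, and_false]
    exact Set.ncard_empty _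
  · show {y | dist y z = 1 ∧ ind 2 (lbF false true T z a b c d e f y).val ≠ 0}.ncard = 0
    simp only [ind2_iff nd h4, true_and]
    rw [show {y | dist y z = 1 ∧ T y = {c, d, e} ∧ y ∈ closure (Ex T z {c, d})} = ∅ from
      Set.eq_empty_iff_forall_notMem.2 fun y hy => hno y hy.1 hy.2.1]
    exact Set.ncard_empty _
  · show {y | dist y z = 1 ∧ ind 3 (lbF false true T z a b c d e f y).val ≠ 0}.ncard = 1
    simp only [ind3_iff nd h4]
    exact nQ
  · show {y | dist y z = 1 ∧ ind 4 (lbF false true T z a b c d e f y).val ≠ 0}.ncard = 1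
    simp only [ind4_iff]
    exact nJ

end Vale.Agent.P032.H546
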