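import Vale.Agent.P032.H546.Tab

/-!
# P032: certificates for closed words with the labels of all types of ends

Labels `0 .. 10`.  `evF`, `evS` : the label of a pair (letter before, letter after), all types labelled /
the type `9, 10` not labelled.  `ckF` : the check of all pairs of columns.
A state is a class, a vector of remaining counts, a goal and the sequences of the labels in the six
slots.  `lk` : the check of one link: the alive states are closed under predecessors (`lk_al`), and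
the listed states are closed under alive successors (`lk_inv`).
-/

namespace Vale.Agent.P032.H546

/-! ### Pairs -/

/-- the label of a pair, all types labelled -/
def evF (p : ℕ) : ℕ := Nat.land (Nat.shiftRight 0x63950714800a200 (Nat.mul 4 p)) 15

/-- the label of a pair, `9, 10` not labelled -/
def evS (p : ℕ) : ℕ := Nat.land (Nat.shiftRight 0x630507148000200 (Nat.mul 4 p)) 15

/-- the weight of a pair, all types labelled -/
def wpF (p : ℕ) : ℕ := Nat.land (Nat.shiftRight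
  0x100000100000100100000000000010000010100000010000000000000100000010000000000
  (Nat.mul 20 p)) 1048575

/-- the weight of a pair, `9, 10` not labelled -/
def wpS (p : ℕ) : ℕ := Nat.land (Nat.shiftRight
  0x100000100000000100000000000010000010100000010000000000000000000010000000000
  (Nat.mul 20 p)) 1048575

/-- the weight of a label -/
def wtl (x : ℕ) : ℕ := match x with
  | 1 => 1 | 2 => 1 | 7 => 16 | 8 => 16 | 9 => 256 | 10 => 256 | 3 => 4096 | 4 => 4096
  | 5 => 65536 | 6 => 65536 | _ => 0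

theorem wpF_eq : ∀ p < 16, wpF p = wtl (evF p) := by decide
theorem wpS_eq : ∀ p < 16, wpS p = wtl (evS p) := by decide

/-- the code of an event vector, base sixteen -/
def ecF (lam : Fin 6 → Fin 11) : ℕ :=
  (lam 0).val + 16 * (lam 1).val + 256 * (lam 2).val + 4096 * (lam 3).val +
    65536 * (lam 4).val + 1048576 * (lam 5).val

/-- the weight of an event vector -/
def wF (lam : Fin 6 → Fin 11) : ℕ :=
  wtl (lam 0).val + wtl (lam 1).val + wtl (lam 2).val + wtl (lam 3).val + wtl (lam 4).val +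
    wtl (lam 5).val

def cE16 (ev : ℕ → ℕ) (p0 p1 p2 p3 p4 p5 : ℕ) : ℕ :=
  Nat.add (ev p0) (Nat.mul 16 (Nat.add (ev p1) (Nat.mul 16 (Nat.add (ev p2)
    (Nat.mul 16 (Nat.add (ev p3) (Nat.mul 16 (Nat.add (ev p4) (Nat.mul 16 (ev p5))))))))))

def cW (wp : ℕ → ℕ) (p0 p1 p2 p3 p4 p5 : ℕ) : ℕ :=
  Nat.add (Nat.add (Nat.add (Nat.add (Nat.add (wp p0) (wp p1)) (wp p2)) (wp p3)) (wp p4)) (wp p5)

/-- the check of all pairs of columns -/
noncomputable def ckF (ev wp : ℕ → ℕ) (zb za : Fin 6 → Bool) (F : ℕ → ℕ → ℕ → ℕ → Bool) : Bool :=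
  allR (fun p0 => allR (fun p1 => allR (fun p2 => allR (fun p3 => impR (opB p0 p3)
    (allR (fun p4 => impR (opB p1 p4) (allR (fun p5 => impR (opB p2 p5) (impR (adB p5 p0)
      (F (cA p0 p1 p2 p3 p4 p5) (cB p0 p1 p2 p3 p4 p5) (cE16 ev p0 p1 p2 p3 p4 p5)
        (cW wp p0 p1 p2 p3 p4 p5))))
    (nxt (zb 5) (za 5) p4))) (nxt (zb 4) (za 4) p3))) (nxt (zb 3) (za 3) p2))
    (nxt (zb 2) (za 2) p1)) (nxt (zb 1) (za 1) p0)) (PZ (zb 0) (za 0))

/-- two columns at the same time, `lam` the labels -/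
structure TpF (ev : ℕ → ℕ) (lam : Fin 6 → Fin 11) (h g : Fin 6 → Fin 4) : Prop where
  ct : ∀ j, (lam j).val = ev (4 * (h j).val + (g j).val)
  adj : ∀ j, h j ≠ h (j + 1)
  adj' : ∀ j, g j ≠ g (j + 1)
  noswap : ∀ j, h j ≠ g j → h j = g (j + 1) → g j ≠ h (j + 1)
  opp : ∀ j, (h j = 2 ∨ g j = 2) → (h (j + 3) = 3 ∨ g (j + 3) = 3) → False

theorem ckF_sound {ev wp : ℕ → ℕ} {zb za : Fin 6 → Bool} {F : ℕ → ℕ → ℕ → ℕ → Bool}
    (hw : ∀ p < 16, wp p = wtl (ev p)) (hc : ckF ev wp zb za F = true)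
    {h g : Fin 6 → Fin 4} {lam : Fin 6 → Fin 11}
    (hb : ∀ j, ZL (zb j) (h j)) (ha : ∀ j, ZL (za j) (g j)) (t : TpF ev lam h g) :
    F (cod h) (cod g) (ecF lam) (wF lam) = true := by
  have ad : adB (cp (h 5) (g 5)) (cp (h 0) (g 0)) = true :=
    adB_of _ _ _ _ (t.adj 5) (t.adj' 5) (t.noswap 5)
  have op : ∀ j, opB (cp (h j) (g j)) (cp (h (j + 3)) (g (j + 3))) = true := fun j => by
    refine opB_of _ _ _ _ (t.opp j) fun h1 h2 => t.opp (j + 3) h1 ?_
    have e : j + 3 + 3 = j := by rw [add_assoc]; exact add_zero j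
    rwa [e]
  have mm : ∀ j, cp (h (j + 1)) (g (j + 1)) ∈ nxt (zb (j + 1)) (za (j + 1)) (cp (h j) (g j)) :=
    fun j => mem_nxt _ _ _ _ _ _ (hb _) (ha _) (t.adj j) (t.adj' j) (t.noswap j)
  have k0 := allR_iff.1 hc _ (mem_PZ _ _ _ _ (hb 0) (ha 0))
  have k1 := allR_iff.1 k0 _ (mm 0)
  have k2 := allR_iff.1 k1 _ (mm 1)
  have k3 := impR_mp (allR_iff.1 k2 _ (mm 2)) (op 0)
  have k4 := impR_mp (allR_iff.1 k3 _ (mm 3)) (op 1)
  have k5 := impR_mp (impR_mp (allR_iff.1 k4 _ (mm 4)) (op 2)) ad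
  have e1 : cA (cp (h 0) (g 0)) (cp (h 1) (g 1)) (cp (h 2) (g 2)) (cp (h 3) (g 3))
      (cp (h 4) (g 4)) (cp (h 5) (g 5)) = cod h := by
    unfold cA cod
    show _ / 4 + 4 * (_ / 4 + 4 * (_ / 4 + 4 * (_ / 4 + 4 * (_ / 4 + 4 * (_ / 4))))) = _
    simp only [cp_div]
    ring
  have e2 : cB (cp (h 0) (g 0)) (cp (h 1) (g 1)) (cp (h 2) (g 2)) (cp (h 3) (g 3))
      (cp (h 4) (g 4)) (cp (h 5) (g 5)) = cod g := by
    unfold cB cod
    show _ % 4 + 4 * (_ % 4 + 4 * (_ % 4 + 4 * (_ % 4 + 4 * (_ % 4 + 4 * (_ % 4))))) = _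
    simp only [cp_mod]
    ring
  have e3 : cE16 ev (cp (h 0) (g 0)) (cp (h 1) (g 1)) (cp (h 2) (g 2)) (cp (h 3) (g 3))
      (cp (h 4) (g 4)) (cp (h 5) (g 5)) = ecF lam := by
    unfold cE16 ecF
    rw [t.ct 0, t.ct 1, t.ct 2, t.ct 3, t.ct 4, t.ct 5]
    show _ + 16 * (_ + 16 * (_ + 16 * (_ + 16 * (_ + 16 * _)))) = _
    simp only [cp]
    ring
  have lt : ∀ j, cp (h j) (g j) < 16 := fun j => by
    unfold cp
    have := (h j).isLt
    have := (g j).isLt
    omega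
  have e4 : cW wp (cp (h 0) (g 0)) (cp (h 1) (g 1)) (cp (h 2) (g 2)) (cp (h 3) (g 3))
      (cp (h 4) (g 4)) (cp (h 5) (g 5)) = wF lam := by
    unfold cW wF
    rw [t.ct 0, t.ct 1, t.ct 2, t.ct 3, t.ct 4, t.ct 5, hw _ (lt 0), hw _ (lt 1), hw _ (lt 2),
      hw _ (lt 3), hw _ (lt 4), hw _ (lt 5)]
    rfl
  have k6 : F (cA (cp (h 0) (g 0)) (cp (h 1) (g 1)) (cp (h 2) (g 2)) (cp (h 3) (g 3))
      (cp (h 4) (g 4)) (cp (h 5) (g 5))) (cB (cp (h 0) (g 0)) (cp (h 1) (g 1)) (cp (h 2) (g 2))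
      (cp (h 3) (g 3)) (cp (h 4) (g 4)) (cp (h 5) (g 5))) (cE16 ev (cp (h 0) (g 0))
      (cp (h 1) (g 1)) (cp (h 2) (g 2)) (cp (h 3) (g 3)) (cp (h 4) (g 4)) (cp (h 5) (g 5)))
      (cW wp (cp (h 0) (g 0)) (cp (h 1) (g 1)) (cp (h 2) (g 2)) (cp (h 3) (g 3)) (cp (h 4) (g 4))
      (cp (h 5) (g 5))) = true := k5
  rw [e1, e2, e3, e4] at k6
  exact k6

/-! ### Counts -/

/-- indicator of the type of a label -/
def ind (i : Fin 5) (x : ℕ) : ℕ := if wtl x = 16 ^ i.val then 1 else 0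

/-- the counts of an event vector: `1, 2` ; `7, 8` ; `9, 10` ; `3, 4` ; `5, 6` -/
def cvF (τ : Fin 6 → Fin 11) (i : Fin 5) : ℕ :=
  ind i (τ 0).val + ind i (τ 1).val + ind i (τ 2).val + ind i (τ 3).val + ind i (τ 4).val +
    ind i (τ 5).val

/-- packed counts -/
def pk (r : Fin 5 → ℕ) : ℕ := r 0 + 16 * r 1 + 256 * r 2 + 4096 * r 3 + 65536 * r 4

theorem wtl_eq : ∀ x : Fin 11, wtl x.val = ind 0 x.val + 16 * ind 1 x.val + 256 * ind 2 x.val +
    4096 * ind 3 x.val + 65536 * ind 4 x.val := by decide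

theorem wF_eq (τ : Fin 6 → Fin 11) : wF τ = pk (cvF τ) := by
  unfold wF pk cvF
  rw [wtl_eq (τ 0), wtl_eq (τ 1), wtl_eq (τ 2), wtl_eq (τ 3), wtl_eq (τ 4), wtl_eq (τ 5)]
  ring

theorem pk_add (r s : Fin 5 → ℕ) : pk (r + s) = pk r + pk s := by
  unfold pk
  simp only [Pi.add_apply]
  ring

/-! ### Parameters -/

/-- bounds of the counts, multipliers of the index, number of indices, masks -/
structure Pr where
  t0 : ℕ
  t1 : ℕ
  t2 : ℕ
  t3 : ℕ
  t4 : ℕ
  m1 : ℕ
  m2 : ℕ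
  m3 : ℕ
  m4 : ℕ
  NL : ℕ
  M : List ℕ

/-- the bounds -/
def Pr.tv (P : Pr) : Fin 5 → ℕ := ![P.t0, P.t1, P.t2, P.t3, P.t4]

/-- the index of a vector of counts -/
def Pr.lin (P : Pr) (r : Fin 5 → ℕ) : ℕ := r 0 + P.m1 * r 1 + P.m2 * r 2 + P.m3 * r 3 + P.m4 * r 4

theorem Pr.lin_add (P : Pr) (r s : Fin 5 → ℕ) : P.lin (r + s) = P.lin r + P.lin s := by
  unfold Pr.lin
  simp only [Pi.add_apply]
  ring

/-- the digits of a packed vector, bounded; its index -/
noncomputable def dg (P : Pr) (w : ℕ) (K : ℕ → Bool) : Bool :=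
  frc (Nat.mod w 16) fun r0 => impR (Nat.ble r0 P.t0)
  (frc (Nat.mod (Nat.div w 16) 16) fun r1 => impR (Nat.ble r1 P.t1)
  (frc (Nat.mod (Nat.div w 256) 16) fun r2 => impR (Nat.ble r2 P.t2)
  (frc (Nat.mod (Nat.div w 4096) 16) fun r3 => impR (Nat.ble r3 P.t3)
  (frc (Nat.div w 65536) fun r4 => impR (Nat.ble r4 P.t4)
  (frc (Nat.add (Nat.add (Nat.add (Nat.add r0 (Nat.mul P.m1 r1)) (Nat.mul P.m2 r2))
    (Nat.mul P.m3 r3)) (Nat.mul P.m4 r4)) K)))))

theorem dg_mp {P : Pr} {r : Fin 5 → ℕ} {K : ℕ → Bool} (h : dg P (pk r) K = true)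
    (hr : ∀ i, r i ≤ P.tv i) (h15 : ∀ i, P.tv i ≤ 15) : K (P.lin r) = true := by
  have a0 := hr 0
  have a1 := hr 1
  have a2 := hr 2
  have a3 := hr 3
  have a4 := hr 4
  have b0 := h15 0
  have b1 := h15 1
  have b2 := h15 2
  have b3 := h15 3
  have e0 : Nat.mod (pk r) 16 = r 0 := by show pk r % 16 = _; unfold pk; omega
  have e1 : Nat.mod (Nat.div (pk r) 16) 16 = r 1 := by
    show pk r / 16 % 16 = _; unfold pk; omega
  have e2 : Nat.mod (Nat.div (pk r) 256) 16 = r 2 := by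
    show pk r / 256 % 16 = _; unfold pk; omega
  have e3 : Nat.mod (Nat.div (pk r) 4096) 16 = r 3 := by
    show pk r / 4096 % 16 = _; unfold pk; omega
  have e4 : Nat.div (pk r) 65536 = r 4 := by
    show pk r / 65536 = _; unfold pk; omega
  unfold dg at h
  rw [e0, e1, e2, e3, e4, frc_eq, frc_eq, frc_eq, frc_eq, frc_eq, frc_eq] at h
  exact impR_mp (impR_mp (impR_mp (impR_mp (impR_mp h (Nat.ble_eq_true_of_le a0))
    (Nat.ble_eq_true_of_le a1)) (Nat.ble_eq_true_of_le a2)) (Nat.ble_eq_true_of_le a3))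
    (Nat.ble_eq_true_of_le a4)

/-! ### Sequences of labels in the slots -/

/-- append a label -/
noncomputable def psh (b l : ℕ) : ℕ :=
  @Nat.rec (fun _ => ℕ) b (fun _ _ => Nat.add (Nat.mul 16 b) l) l

theorem psh_zero (b : ℕ) : psh b 0 = b := rfl
theorem psh_pos (b : ℕ) {l : ℕ} (h : l ≠ 0) : psh b l = 16 * b + l := by
  cases l with
  | zero => exact absurd rfl h
  | succ m => rfl

/-- packed sequences -/
def pk6 (s : Fin 6 → ℕ) : ℕ :=
  s 0 + 65536 * (s 1 + 65536 * (s 2 + 65536 * (s 3 + 65536 * (s 4 + 65536 * s 5))))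

/-- append an event vector -/
noncomputable def pIk (f e : ℕ) (K : ℕ → Bool) : Bool :=
  frc (psh (Nat.mod f 65536) (Nat.mod e 16)) fun n0 => andR (Nat.blt n0 65536)
  (frc (psh (Nat.mod (Nat.div f 65536) 65536) (Nat.mod (Nat.div e 16) 16)) fun n1 =>
    andR (Nat.blt n1 65536)
  (frc (psh (Nat.mod (Nat.div f 4294967296) 65536) (Nat.mod (Nat.div e 256) 16)) fun n2 =>
    andR (Nat.blt n2 65536)
  (frc (psh (Nat.mod (Nat.div f 281474976710656) 65536) (Nat.mod (Nat.div e 4096) 16)) fun n3 =>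
    andR (Nat.blt n3 65536)
  (frc (psh (Nat.mod (Nat.div f 18446744073709551616) 65536) (Nat.mod (Nat.div e 65536) 16))
    fun n4 => andR (Nat.blt n4 65536)
  (frc (psh (Nat.div f 1208925819614629174706176) (Nat.div e 1048576))
    fun n5 => andR (Nat.blt n5 65536)
  (frc (Nat.add n0 (Nat.mul 65536 (Nat.add n1 (Nat.mul 65536 (Nat.add n2 (Nat.mul 65536
    (Nat.add n3 (Nat.mul 65536 (Nat.add n4 (Nat.mul 65536 n5)))))))))) K))))))

theorem pIk_mp {s : Fin 6 → ℕ} {τ : Fin 6 → Fin 11} {K : ℕ → Bool} (hs : ∀ j, s j < 65536)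
    (h : pIk (pk6 s) (ecF τ) K = true) : (∀ j, psh (s j) (τ j).val < 65536) ∧
      K (pk6 fun j => psh (s j) (τ j).val) = true := by
  have s0 := hs 0
  have s1 := hs 1
  have s2 := hs 2
  have s3 := hs 3
  have s4 := hs 4
  have s5 := hs 5
  have l0 := (τ 0).isLt
  have l1 := (τ 1).isLt
  have l2 := (τ 2).isLt
  have l3 := (τ 3).isLt
  have l4 := (τ 4).isLt
  have l5 := (τ 5).isLt
  have e0 : Nat.mod (pk6 s) 65536 = s 0 := by show pk6 s % 65536 = _; unfold pk6; omega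
  have e1 : Nat.mod (Nat.div (pk6 s) 65536) 65536 = s 1 := by
    show pk6 s / 65536 % 65536 = _; unfold pk6; omega
  have e2 : Nat.mod (Nat.div (pk6 s) 4294967296) 65536 = s 2 := by
    show pk6 s / 4294967296 % 65536 = _; unfold pk6; omega
  have e3 : Nat.mod (Nat.div (pk6 s) 281474976710656) 65536 = s 3 := by
    show pk6 s / 281474976710656 % 65536 = _; unfold pk6; omega
  have e4 : Nat.mod (Nat.div (pk6 s) 18446744073709551616) 65536 = s 4 := by
    show pk6 s / 18446744073709551616 % 65536 = _; unfold pk6; omega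
  have e5 : Nat.div (pk6 s) 1208925819614629174706176 = s 5 := by
    show pk6 s / 1208925819614629174706176 = _; unfold pk6; omega
  have f0 : Nat.mod (ecF τ) 16 = (τ 0).val := by show ecF τ % 16 = _; unfold ecF; omega
  have f1 : Nat.mod (Nat.div (ecF τ) 16) 16 = (τ 1).val := by
    show ecF τ / 16 % 16 = _; unfold ecF; omega
  have f2 : Nat.mod (Nat.div (ecF τ) 256) 16 = (τ 2).val := by
    show ecF τ / 256 % 16 = _; unfold ecF; omega
  have f3 : Nat.mod (Nat.div (ecF τ) 4096) 16 = (τ 3).val := by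
    show ecF τ / 4096 % 16 = _; unfold ecF; omega
  have f4 : Nat.mod (Nat.div (ecF τ) 65536) 16 = (τ 4).val := by
    show ecF τ / 65536 % 16 = _; unfold ecF; omega
  have f5 : Nat.div (ecF τ) 1048576 = (τ 5).val := by
    show ecF τ / 1048576 = _; unfold ecF; omega
  unfold pIk at h
  rw [e0, e1, e2, e3, e4, e5, f0, f1, f2, f3, f4, f5] at h
  rw [frc_eq, andR_eq, frc_eq, andR_eq, frc_eq, andR_eq, frc_eq, andR_eq, frc_eq, andR_eq,
    frc_eq, andR_eq, frc_eq] at h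
  obtain ⟨h0, h1, h2, h3, h4, h5, h6⟩ := h
  have lt : ∀ {x y : ℕ}, Nat.blt x y = true → x < y := fun hh => by
    have := Nat.le_of_ble_eq_true hh
    omega
  refine ⟨fun j => ?_, h6⟩
  fin_cases j
  · exact lt h0
  · exact lt h1
  · exact lt h2
  · exact lt h3
  · exact lt h4
  · exact lt h5

/-! ### Links -/

noncomputable def getN (l : List ℕ) : ℕ → ℕ :=
  @List.rec ℕ (fun _ => ℕ → ℕ) (fun _ => 0)
    (fun a _ ih n => @Nat.rec (fun _ => ℕ) a (fun m _ => ih m) n) l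

/-- test of a bit -/
def tb (x i : ℕ) : Bool := Nat.beq (Nat.land (Nat.shiftRight x i) 1) 1

theorem tb_eq (x i : ℕ) : tb x i = x.testBit i := by
  unfold tb
  rw [Nat.testBit_eq_decide_div_mod_eq]
  have h1 : Nat.land (Nat.shiftRight x i) 1 = x / 2 ^ i % 2 := by
    show (x >>> i) &&& 1 = _
    rw [Nat.and_one_is_mod, Nat.shiftRight_eq_div_pow]
  rw [h1]
  by_cases h2 : x / 2 ^ i % 2 = 1
  · rw [h2]; rfl
  · have h3 : x / 2 ^ i % 2 = 0 := by omega
    rw [h3]; rfl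

/-- the state is alive -/
def Al (P : Pr) (A : List ℕ) (gi c : ℕ) (r : Fin 5 → ℕ) : Prop :=
  (getN A c).testBit (P.NL * gi + P.lin r) = true

/-- the code of a state -/
def key (gi : ℕ) (r : Fin 5 → ℕ) (s : Fin 6 → ℕ) : ℕ := gi + 32 * pk r + 33554432 * pk6 s

/-- the check of the successors of a listed state -/
noncomputable def sc (P : Pr) (x : ℕ) (J : List ℕ) (e w k : ℕ) : Bool :=
  frc (Nat.mod k 32) fun gi => frc (Nat.mod (Nat.div k 32) 1048576) fun R =>
    frc (Nat.sub R w) fun R' => impR (Nat.beq (Nat.add R' w) R) (dg P R' fun i =>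
      impR (tb x (Nat.add (Nat.mul P.NL gi) i)) (pIk (Nat.div k 33554432) e fun f =>
        frc (Nat.add (Nat.add gi (Nat.mul 32 R')) (Nat.mul 33554432 f)) fun k' =>
          anyR (fun y => Nat.beq y k') J))

/-- the check of one link -/
noncomputable def lk (P : Pr) (A : List ℕ) (I : List (List ℕ)) (A' : List ℕ) (I' : List (List ℕ))
    (c d e w : ℕ) : Bool :=
  dg P w fun s => frc (getN A' d) fun x =>
    andR (frc (Nat.shiftLeft (Nat.land x (getN P.M s)) s) fun X => Nat.beq (Nat.land X (getN A c)) X)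
      (allR (sc P x (getR I' d) e w) (getR I c))

theorem sc_mp {P : Pr} {x : ℕ} {J : List ℕ} {τ : Fin 6 → Fin 11} {gi : ℕ} {r : Fin 5 → ℕ}
    {s : Fin 6 → ℕ} (h : sc P x J (ecF τ) (wF τ) (key gi (cvF τ + r) s) = true) (hg : gi < 32)
    (hr : ∀ i, (cvF τ + r) i ≤ P.tv i) (h15 : ∀ i, P.tv i ≤ 15) (hs : ∀ j, s j < 65536)
    (hal : x.testBit (P.NL * gi + P.lin r) = true) :
    (∀ j, psh (s j) (τ j).val < 65536) ∧ key gi r (fun j => psh (s j) (τ j).val) ∈ J := by
  have hpk : pk (cvF τ + r) < 1048576 := by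
    have a0 := (hr 0).trans (h15 0)
    have a1 := (hr 1).trans (h15 1)
    have a2 := (hr 2).trans (h15 2)
    have a3 := (hr 3).trans (h15 3)
    have a4 := (hr 4).trans (h15 4)
    unfold pk
    omega
  have e1 : Nat.mod (key gi (cvF τ + r) s) 32 = gi := by
    show key gi (cvF τ + r) s % 32 = _; unfold key; omega
  have e2 : Nat.mod (Nat.div (key gi (cvF τ + r) s) 32) 1048576 = pk (cvF τ + r) := by
    show key gi (cvF τ + r) s / 32 % 1048576 = _; unfold key; omega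
  have e3 : Nat.div (key gi (cvF τ + r) s) 33554432 = pk6 s := by
    show key gi (cvF τ + r) s / 33554432 = _; unfold key; omega
  have e4 : Nat.sub (pk (cvF τ + r)) (wF τ) = pk r := by
    show pk (cvF τ + r) - wF τ = _
    rw [pk_add, wF_eq]; omega
  unfold sc at h
  rw [e1, frc_eq, e2, frc_eq, e3, e4, frc_eq] at h
  have h1 := impR_mp h (by
    have : Nat.add (pk r) (wF τ) = pk (cvF τ + r) := by
      show pk r + wF τ = _
      rw [pk_add, wF_eq]; omega
    rw [this]; exact Nat.beq_refl _)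
  have h2 := dg_mp h1 (fun i => le_trans (Nat.le_add_left _ _) (hr i)) h15
  have h3 := impR_mp h2 (by rw [tb_eq]; exact hal)
  obtain ⟨h4, h5⟩ := pIk_mp hs h3
  rw [frc_eq, anyR_iff] at h5
  obtain ⟨y, hy, h6⟩ := h5
  refine ⟨h4, ?_⟩
  have h7 := Nat.eq_of_beq_eq_true h6
  rw [h7] at hy
  exact hy

theorem lk_inv {P : Pr} {A A' : List ℕ} {I I' : List (List ℕ)} {c d : ℕ} {τ : Fin 6 → Fin 11}
    {gi : ℕ} {r : Fin 5 → ℕ} {s : Fin 6 → ℕ} (h : lk P A I A' I' c d (ecF τ) (wF τ) = true)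
    (hg : gi < 32) (hr : ∀ i, (cvF τ + r) i ≤ P.tv i) (h15 : ∀ i, P.tv i ≤ 15)
    (hs : ∀ j, s j < 65536) (hal : Al P A' gi d r) (hk : key gi (cvF τ + r) s ∈ getR I c) :
    (∀ j, psh (s j) (τ j).val < 65536) ∧
      key gi r (fun j => psh (s j) (τ j).val) ∈ getR I' d := by
  unfold lk at h
  rw [wF_eq] at h
  have h1 := dg_mp h (fun i => le_trans (Nat.le_add_right _ _) (hr i)) h15
  rw [frc_eq, andR_eq] at h1
  have h2 := allR_iff.1 h1.2 _ hk
  rw [← wF_eq] at h2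
  exact sc_mp h2 hg hr h15 hs hal

/-- the masks are right -/
def MOK (P : Pr) (G : ℕ) : Prop := ∀ gi < G, ∀ v r : Fin 5 → ℕ, (∀ i, (v + r) i ≤ P.tv i) →
  (getN P.M (P.lin v)).testBit (P.NL * gi + P.lin r) = true

theorem lk_al {P : Pr} {A A' : List ℕ} {I I' : List (List ℕ)} {c d : ℕ} {τ : Fin 6 → Fin 11}
    {gi G : ℕ} {r : Fin 5 → ℕ} (h : lk P A I A' I' c d (ecF τ) (wF τ) = true) (hM : MOK P G)
    (hg : gi < G) (hr : ∀ i, (cvF τ + r) i ≤ P.tv i) (h15 : ∀ i, P.tv i ≤ 15)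
    (hal : Al P A' gi d r) : Al P A gi c (cvF τ + r) := by
  unfold lk at h
  rw [wF_eq] at h
  have h1 := dg_mp h (fun i => le_trans (Nat.le_add_right _ _) (hr i)) h15
  rw [frc_eq, andR_eq, frc_eq] at h1
  have h2 := Nat.eq_of_beq_eq_true h1.1
  have h3 : (Nat.shiftLeft (Nat.land (getN A' d) (getN P.M (P.lin (cvF τ))))
      (P.lin (cvF τ))).testBit (P.NL * gi + P.lin (cvF τ + r)) = true := by
    show (((getN A' d) &&& (getN P.M (P.lin (cvF τ)))) <<< (P.lin (cvF τ))).testBit _ = true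
    rw [Nat.testBit_shiftLeft, P.lin_add]
    have e : P.NL * gi + (P.lin (cvF τ) + P.lin r) - P.lin (cvF τ) = P.NL * gi + P.lin r := by
      omega
    rw [e, Nat.testBit_and, hM gi hg _ _ hr]
    have h4 : (getN A' d).testBit (P.NL * gi + P.lin r) = true := hal
    rw [h4, decide_eq_true (show P.NL * gi + (P.lin (cvF τ) + P.lin r) ≥ P.lin (cvF τ) by omega)]
    rfl
  rw [← h2] at h3
  have h5 : ((Nat.shiftLeft (Nat.land (getN A' d) (getN P.M (P.lin (cvF τ))))
      (P.lin (cvF τ))) &&& (getN A c)).testBit (P.NL * gi + P.lin (cvF τ + r)) = true := h3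
  rw [Nat.testBit_and, Bool.and_eq_true] at h5
  exact h5.2

/-! ### The check of the masks -/

/-- `n, .., 0` -/
noncomputable def rg (n : ℕ) : List ℕ :=
  @Nat.rec (fun _ => List ℕ) [0] (fun m ih => Nat.succ m :: ih) n

theorem mem_rg {n x : ℕ} (h : x ≤ n) : x ∈ rg n := by
  induction n with
  | zero =>
    have : x = 0 := by omega
    subst this
    exact List.mem_cons_self
  | succ n ih =>
    have e : rg (n + 1) = (n + 1) :: rg n := rfl
    rw [e, List.mem_cons]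
    by_cases h1 : x = n + 1
    · exact Or.inl h1
    · exact Or.inr (ih (by omega))

noncomputable def mck (P : Pr) (G : ℕ) : Bool :=
  allR (fun v0 => allR (fun v1 => allR (fun v2 => allR (fun v3 => allR (fun v4 =>
    frc (Nat.add (Nat.add (Nat.add (Nat.add v0 (Nat.mul P.m1 v1)) (Nat.mul P.m2 v2))
      (Nat.mul P.m3 v3)) (Nat.mul P.m4 v4)) fun s => frc (getN P.M s) fun x =>
    allR (fun r0 => allR (fun r1 => allR (fun r2 => allR (fun r3 => allR (fun r4 =>
      frc (Nat.add (Nat.add (Nat.add (Nat.add r0 (Nat.mul P.m1 r1)) (Nat.mul P.m2 r2))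
        (Nat.mul P.m3 r3)) (Nat.mul P.m4 r4)) fun i =>
      allR (fun g => tb x (Nat.add (Nat.mul P.NL g) i)) (rg (Nat.pred G)))
      (rg (Nat.sub P.t4 v4))) (rg (Nat.sub P.t3 v3))) (rg (Nat.sub P.t2 v2)))
      (rg (Nat.sub P.t1 v1))) (rg (Nat.sub P.t0 v0)))
    (rg P.t4)) (rg P.t3)) (rg P.t2)) (rg P.t1)) (rg P.t0)

theorem mok_of {P : Pr} {G : ℕ} (h : mck P G = true) : MOK P G := by
  intro gi hg v r hr
  have a0 : v 0 + r 0 ≤ P.t0 := hr 0
  have a1 : v 1 + r 1 ≤ P.t1 := hr 1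
  have a2 : v 2 + r 2 ≤ P.t2 := hr 2
  have a3 : v 3 + r 3 ≤ P.t3 := hr 3
  have a4 : v 4 + r 4 ≤ P.t4 := hr 4
  have k0 := allR_iff.1 h (v 0) (mem_rg (by omega))
  have k1 := allR_iff.1 k0 (v 1) (mem_rg (by omega))
  have k2 := allR_iff.1 k1 (v 2) (mem_rg (by omega))
  have k3 := allR_iff.1 k2 (v 3) (mem_rg (by omega))
  have k4 := allR_iff.1 k3 (v 4) (mem_rg (by omega))
  rw [frc_eq, frc_eq] at k4
  have l0 := allR_iff.1 k4 (r 0) (mem_rg (by show r 0 ≤ P.t0 - v 0; omega))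
  have l1 := allR_iff.1 l0 (r 1) (mem_rg (by show r 1 ≤ P.t1 - v 1; omega))
  have l2 := allR_iff.1 l1 (r 2) (mem_rg (by show r 2 ≤ P.t2 - v 2; omega))
  have l3 := allR_iff.1 l2 (r 3) (mem_rg (by show r 3 ≤ P.t3 - v 3; omega))
  have l4 := allR_iff.1 l3 (r 4) (mem_rg (by show r 4 ≤ P.t4 - v 4; omega))
  rw [frc_eq] at l4
  have l5 := allR_iff.1 l4 gi (mem_rg (by show gi ≤ G - 1; omega))
  rw [tb_eq] at l5
  exact l5

/-! ### The checks of a phase, of the start, of the end -/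

/-- the class of a column: seven bits -/
def clT (C : ℕ) (c : ℕ) : ℕ := Nat.land (Nat.shiftRight C (Nat.mul 7 c)) 127

/-- the check of a pair of columns, `C`, `C'` the tables of the classes before and after -/
noncomputable def FL (P : Pr) (C C' : ℕ) (A : List ℕ) (I : List (List ℕ)) (A' : List ℕ)
    (I' : List (List ℕ)) (a b e w : ℕ) : Bool :=
  frc (clT C a) fun c => frc (clT C' b) fun d => frc e fun e => frc w fun w =>
    lk P A I A' I' c d e w

/-- the same in a phase: the class is constant if nothing happens -/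
noncomputable def FQ (P : Pr) (C : ℕ) (A : List ℕ) (I : List (List ℕ)) (a b e w : ℕ) : Bool :=
  frc (clT C a) fun c => frc (clT C b) fun d => frc e fun e => frc w fun w =>
    andR (impR (Nat.beq e 0) (Nat.beq c d)) (lk P A I A I c d e w)

/-- the index of a goal -/
def giT (GI : ℕ) (c : ℕ) : ℕ := Nat.land (Nat.shiftRight GI (Nat.mul 5 c)) 31

/-- the check at the time `0`; `C` the classes after, `C'` the classes of the goals, `TT` the packed
total -/
noncomputable def FB (P : Pr) (TT C C' GI G : ℕ) (A : List ℕ) (I : List (List ℕ))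
    (a b e w : ℕ) : Bool :=
  frc e fun e => frc w fun w => impR (Nat.beq (Nat.mod e 16) 6) (
    frc (clT C b) fun d => frc (giT GI (clT C' (rc a))) fun gi => andR (Nat.blt gi G) (
      frc (Nat.sub TT w) fun R' => impR (Nat.beq (Nat.add R' w) TT) (dg P R' fun i =>
        impR (tb (getN A d) (Nat.add (Nat.mul P.NL gi) i)) (pIk 0 e fun f =>
          frc (Nat.add (Nat.add gi (Nat.mul 32 R')) (Nat.mul 33554432 f)) fun k' =>
            anyR (fun y => Nat.beq y k') (getR I d)))))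

/-- the check at the end, for the goal classes `0, .., n` -/
noncomputable def FE (P : Pr) (GI G n : ℕ) (A : List ℕ) (I : List (List ℕ)) (Q : ℕ → Bool) : Bool :=
  allR (fun c => frc c fun c => frc (giT GI c) fun gi => impR (Nat.blt gi G) (
    andR (tb (getN A c) (Nat.mul P.NL gi)) (allR (fun k => impR (Nat.beq (Nat.mod k 33554432) gi)
      (frc (Nat.div k 33554432) Q)) (getR I c)))) (rg n)

end Vale.Agent.P032.H546
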