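import Vale.Agent.P032.H546.FFinR
import Vale.Agent.P032.H546.FDS2
import Vale.Agent.P032.H546.FDR2

/-!
# P032: two J-partners and only one network

`noS2` : two J's, no `{a,b,f}`, `2, 1` ends, the points `{c,d,e}` not labelled: impossible;
`noR2` : two J's, no `{c,d,e}`, `1, 2` ends, the points `{a,b,f}` not labelled: impossible.
-/

open Set Filter Topology Metric

noncomputable section

namespace Vale.Agent.P032.H546

open Vale.Agent.P032.Six Vale.Agent.P032.S5.H767 Vale.Agent.P032.S5.H349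
open Vale.Agent.P032.H987 hiding lb
open Vale.Agent.P032.H460

theorem sysS2 : Sys CS2.P evS wpS CS2.Q clS where
  c01 := ⟨_, _, _, _, _, _, by norm_num, ⟨CS2.pa01, CS2.mi01, CS2.pb01, CS2.st01, CS2.en01⟩⟩
  c11 := ⟨_, _, _, _, _, _, by norm_num, ⟨CS2.pa11, CS2.mi11, CS2.pb11, CS2.st11, CS2.en11⟩⟩
  c21 := ⟨_, _, _, _, _, _, by norm_num, ⟨CS2.pa21, CS2.mi21, CS2.pb21, CS2.st21, CS2.en21⟩⟩
  c10 := ⟨_, _, _, _, by norm_num, ⟨CS2.ph10, CS2.st10, CS2.en10⟩⟩
  c20 := ⟨_, _, _, _, by norm_num, ⟨CS2.ph20, CS2.st20, CS2.en20⟩⟩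
  mok := CS2.mok
  bnd := by decide
  cc := ccS

theorem sysR2 : Sys CR2.P evR wpR CR2.Q clR where
  c01 := ⟨_, _, _, _, _, _, by norm_num, ⟨CR2.pa01, CR2.mi01, CR2.pb01, CR2.st01, CR2.en01⟩⟩
  c11 := ⟨_, _, _, _, _, _, by norm_num, ⟨CR2.pa11, CR2.mi11, CR2.pb11, CR2.st11, CR2.en11⟩⟩
  c21 := ⟨_, _, _, _, _, _, by norm_num, ⟨CR2.pa21, CR2.mi21, CR2.pb21, CR2.st21, CR2.en21⟩⟩
  c10 := ⟨_, _, _, _, by norm_num, ⟨CR2.ph10, CR2.st10, CR2.en10⟩⟩
  c20 := ⟨_, _, _, _, by norm_num, ⟨CR2.ph20, CR2.st20, CR2.en20⟩⟩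
  mok := CR2.mok
  bnd := by decide
  cc := ccR

theorem wS2 : ∀ x ∈ CS2.QL, (fun _ : List (ℕ × ℕ) => false) (pat (upk x)) = true := by
  decide +kernel

theorem wR2 : ∀ x ∈ CR2.QL, (fun _ : List (ℕ × ℕ) => false) (pat (upk x)) = true := by
  decide +kernel

variable {U : Fin 6 → Set ℂ} {T : ℂ → Set (Fin 6)} {z : ℂ} {a b c d e f : Fin 6} {p q : ℝ}

/-- **two J's, no `{a, b, f}`, the points `{c, d, e}` not labelled, `2, 1`** -/
theorem noS2 (S : CzF true false U T z a b c d e f) (Z : Zn T z a b c d p q)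
    (hfin : {y | dist y z = 1 ∧ lbF true false T z a b c d e f y ≠ 0}.Finite)
    (nV : {y | dist y z = 1 ∧ T y = {a, b, e}}.ncard = 2)
    (nQ : {y | dist y z = 1 ∧ T y = {c, d, f}}.ncard = 1)
    (nJ : {y | dist y z = 1 ∧ T y = T z}.ncard = 2)
    (hno : ∀ y, dist y z = 1 → T y ≠ {a, b, f})
    (hJ : lbF true false T z a b c d e f (pt z p) = 6) : False := by
  suffices hn : ∀ i, {y | dist y z = 1 ∧ ind i (lbF true false T z a b c d e f y).val ≠ 0}.ncard =
      CS2.P.tt i by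
    obtain ⟨l, -, -, -, h⟩ := list_of S Z hfin labOK_S (fun y => lbF_false y) sysS2
      (W := fun _ => false) (fun x hx => wS2 x (any_mem hx)) hJ hn
    exact absurd h (by simp)
  intro i
  have nd := S.nd
  have h4 := S.four
  fin_cases i
  · show {y | dist y z = 1 ∧ ind 0 (lbF true false T z a b c d e f y).val ≠ 0}.ncard = 2
    simp only [ind0_iff h4]
    exact nV
  · show {y | dist y z = 1 ∧ ind 1 (lbF true false T z a b c d e f y).val ≠ 0}.ncard = 0
    simp only [ind1_iff nd h4, true_and]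
    rw [show {y | dist y z = 1 ∧ T y = {a, b, f} ∧ y ∈ closure (Ex T z {a, b})} = ∅ from
      Set.eq_empty_iff_forall_notMem.2 fun y hy => hno y hy.1 hy.2.1]
    exact Set.ncard_empty _
  · show {y | dist y z = 1 ∧ ind 2 (lbF true false T z a b c d e f y).val ≠ 0}.ncard = 0
    simp only [ind2_iff nd h4, Bool.false_eq_true, false_and, and_false]
    exact Set.ncard_empty _
  · show {y | dist y z = 1 ∧ ind 3 (lbF true false T z a b c d e f y).val ≠ 0}.ncard = 1
    simp only [ind3_iff nd h4]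
    exact nQ
  · show {y | dist y z = 1 ∧ ind 4 (lbF true false T z a b c d e f y).val ≠ 0}.ncard = 2
    simp only [ind4_iff]
    exact nJ

/-- **two J's, no `{c, d, e}`, the points `{a, b, f}` not labelled, `1, 2`** -/
theorem noR2 (S : CzF false true U T z a b c d e f) (Z : Zn T z a b c d p q)
    (hfin : {y | dist y z = 1 ∧ lbF false true T z a b c d e f y ≠ 0}.Finite)
    (nV : {y | dist y z = 1 ∧ T y = {a, b, e}}.ncard = 1)
    (nQ : {y | dist y z = 1 ∧ T y = {c, d, f}}.ncard = 2)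
    (nJ : {y | dist y z = 1 ∧ T y = T z}.ncard = 2)
    (hno : ∀ y, dist y z = 1 → T y ≠ {c, d, e})
    (hJ : lbF false true T z a b c d e f (pt z p) = 6) : False := by
  suffices hn : ∀ i, {y | dist y z = 1 ∧ ind i (lbF false true T z a b c d e f y).val ≠ 0}.ncard =
      CR2.P.tt i by
    obtain ⟨l, -, -, -, h⟩ := list_of S Z hfin labOK_R (fun y => lbF_falseR y) sysR2
      (W := fun _ => false) (fun x hx => wR2 x (any_mem hx)) hJ hn
    exact absurd h (by simp)
  intro i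
  have nd := S.nd
  have h4 := S.four
  fin_cases i
  · show {y | dist y z = 1 ∧ ind 0 (lbF false true T z a b c d e f y).val ≠ 0}.ncard = 1
    simp only [ind0_iff h4]
    exact nV
  · show {y | dist y z = 1 ∧ ind 1 (lbF false true T z a b c d e f y).val ≠ 0}.ncard = 0
    simp only [ind1_iff nd h4, Bool.false_eq_true, false_and, and_false]
    exact Set.ncard_empty _
  · show {y | dist y z = 1 ∧ ind 2 (lbF false true T z a b c d e f y).val ≠ 0}.ncard = 0
    simp only [ind2_iff nd h4, true_and]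
    rw [show {y | dist y z = 1 ∧ T y = {c, d, e} ∧ y ∈ closure (Ex T z {c, d})} = ∅ from
      Set.eq_empty_iff_forall_notMem.2 fun y hy => hno y hy.1 hy.2.1]
    exact Set.ncard_empty _
  · show {y | dist y z = 1 ∧ ind 3 (lbF false true T z a b c d e f y).val ≠ 0}.ncard = 2
    simp only [ind3_iff nd h4]
    exact nQ
  · show {y | dist y z = 1 ∧ ind 4 (lbF false true T z a b c d e f y).val ≠ 0}.ncard = 2
    simp only [ind4_iff]
    exact nJ

end Vale.Agent.P032.H546
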