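import Vale.Agent.P032.H546.Rec
import Vale.Agent.P032.H987.Inst

/-!
# P032: the events of a centre with complementary ends form a closed word

`CzE.clo` : the blocks (times in `[0, 1)`, base angle = zone line `p`) with the label vectors of 987's
class theorem form a closed word of the tables.
`dig_ec` : the digits of the code of a label vector.
-/

open Set Filter Topology Metric

noncomputable section

namespace Vale.Agent.P032.H546

open Vale.Agent.P032.Six
open Vale.Agent.P032.H987 hiding lb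

theorem dig_ec (τ : Fin 6 → Fin 7) (j : Fin 6) : dig (ec τ) j.val = (τ j).val := by
  have b0 := (τ 0).isLt
  have b1 := (τ 1).isLt
  have b2 := (τ 2).isLt
  have b3 := (τ 3).isLt
  have b4 := (τ 4).isLt
  have b5 := (τ 5).isLt
  unfold dig ec
  fin_cases j
  · show _ / 8 ^ 0 % 8 = (τ 0).val
    rw [show (8 : ℕ) ^ 0 = 1 by norm_num]; omega
  · show _ / 8 ^ 1 % 8 = (τ 1).val
    rw [show (8 : ℕ) ^ 1 = 8 by norm_num]; omega
  · show _ / 8 ^ 2 % 8 = (τ 2).val
    rw [show (8 : ℕ) ^ 2 = 64 by norm_num]; omega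
  · show _ / 8 ^ 3 % 8 = (τ 3).val
    rw [show (8 : ℕ) ^ 3 = 512 by norm_num]; omega
  · show _ / 8 ^ 4 % 8 = (τ 4).val
    rw [show (8 : ℕ) ^ 4 = 4096 by norm_num]; omega
  · show _ / 8 ^ 5 % 8 = (τ 5).val
    rw [show (8 : ℕ) ^ 5 = 32768 by norm_num]; omega

theorem ec_ne {τ : Fin 6 → Fin 7} {j : Fin 6} (h : τ j ≠ 0) : ec τ ≠ 0 := by
  intro h0
  have h1 := dig_ec τ j
  rw [h0] at h1
  have h2 : dig 0 j.val = 0 := by unfold dig; simp
  rw [h2] at h1
  exact h (Fin.ext h1.symm)

theorem le_cV {τ : Fin 6 → Fin 7} {j : Fin 6} (h : τ j = 1 ∨ τ j = 2) : 1 ≤ cV (ec τ) := by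
  have h1 : isV (dig (ec τ) j.val) = 1 := by
    rw [dig_ec]
    rcases h with h | h <;> rw [h] <;> rfl
  unfold cV
  fin_cases j
  all_goals
    first
      | (have h2 : isV (dig (ec τ) 0) = 1 := h1; omega)
      | (have h2 : isV (dig (ec τ) 1) = 1 := h1; omega)
      | (have h2 : isV (dig (ec τ) 2) = 1 := h1; omega)
      | (have h2 : isV (dig (ec τ) 3) = 1 := h1; omega)
      | (have h2 : isV (dig (ec τ) 4) = 1 := h1; omega)
      | (have h2 : isV (dig (ec τ) 5) = 1 := h1; omega)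

theorem le_cQ {τ : Fin 6 → Fin 7} {j : Fin 6} (h : τ j = 3 ∨ τ j = 4) : 1 ≤ cQ (ec τ) := by
  have h1 : isQ (dig (ec τ) j.val) = 1 := by
    rw [dig_ec]
    rcases h with h | h <;> rw [h] <;> rfl
  unfold cQ
  fin_cases j
  all_goals
    first
      | (have h2 : isQ (dig (ec τ) 0) = 1 := h1; omega)
      | (have h2 : isQ (dig (ec τ) 1) = 1 := h1; omega)
      | (have h2 : isQ (dig (ec τ) 2) = 1 := h1; omega)
      | (have h2 : isQ (dig (ec τ) 3) = 1 := h1; omega)
      | (have h2 : isQ (dig (ec τ) 4) = 1 := h1; omega)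
      | (have h2 : isQ (dig (ec τ) 5) = 1 := h1; omega)

/-! ### Columns -/

theorem ctL_evp : ∀ (x : Fin 7) (l m : Fin 4), CtL x l m → x.val = evp (4 * l.val + m.val) := by
  decide

theorem tp_of {τ : Fin 6 → Fin 7} {h h' : Fin 6 → Fin 4} (t : EvL τ h h') : Tp τ h h' :=
  ⟨fun j => ctL_evp _ _ _ (t.ct j), t.adj, t.adj', t.noswap, t.opp⟩

theorem tp_of_tie {h h' : Fin 6 → Fin 4} (t : Tie (fun _ => 0) h h') : Tp (fun _ => 0) h h' where
  ct := fun j => ctL_evp 0 _ _ (t.ct j)
  adj := t.adj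
  adj' := t.adj'
  noswap := fun j h1 h2 h3 => by
    have := (t.noswap j h1 h2 h3).1
    exact absurd this (by decide)
  opp := t.opp

theorem zl_of {k : ℕ} {h : Fin 6 → Fin 4} (z : Zok k h) (j : Fin 6) : ZL (zn k j) (h j) := by
  obtain ⟨h1, h2⟩ := z j
  constructor
  · intro h3
    have h4 : Nat.ble (j.val % 3 + 1) k = true := h3
    exact h1 (Nat.le_of_ble_eq_true h4)
  · intro h3
    refine h2 ?_
    by_contra hcon
    have h4 : Nat.ble (j.val % 3 + 1) k = true := Nat.ble_eq_true_of_le (by omega)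
    have h5 : zn k j = true := h4
    rw [h3] at h5
    exact Bool.noConfusion h5

theorem zl_rot {k : ℕ} {h : Fin 6 → Fin 4} (z : Zok k fun j => h (j + 1)) (j : Fin 6) :
    ZL (zr k j) (h j) := by
  have h1 := zl_of z (j + 5)
  have e : j + 5 + 1 = j := by rw [add_assoc]; exact add_zero j
  have h2 : ZL (zn k (j + 5)) (h (j + 5 + 1)) := h1
  rw [e] at h2
  exact h2

theorem rc_cod (h : Fin 6 → Fin 4) : rc (cod h) = cod fun j => h (j + 1) := by
  have b0 := (h 0).isLt
  show (cod h) / 4 + 1024 * ((cod h) % 4) = (h 1).val + 4 * (h 2).val + 16 * (h 3).val +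
    64 * (h 4).val + 256 * (h 5).val + 1024 * (h 0).val
  unfold cod
  omega

/-- one step of a phase -/
theorem step {k : ℕ} (hk : k ≤ 3) {τ : Fin 6 → Fin 7} {g g' : Fin 6 → Fin 4} (t : Tp τ g g')
    (z : Zok k g) (z' : Zok k g') : FT k (cod g) (cod g') (ec τ) = true := by
  have h4 : k = 0 ∨ k = 1 ∨ k = 2 ∨ k = 3 := by omega
  rcases h4 with rfl | rfl | rfl | rfl
  · exact ck_sound chk_t0 (zl_of z) (zl_of z') t
  · exact ck_sound chk_t1 (zl_of z) (zl_of z') t
  · exact ck_sound chk_t2 (zl_of z) (zl_of z') t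
  · exact ck_sound chk_t3 (zl_of z) (zl_of z') t

theorem step_mem {k : ℕ} (hk : k ≤ 3) {τ : Fin 6 → Fin 7} {g g' : Fin 6 → Fin 4} (t : Tp τ g g')
    (z : Zok k g) (z' : Zok k g') :
    memT (trT k) (lb k (cod g)) (ec τ) (lb k (cod g')) = true := by
  have h1 := step hk t z z'
  unfold FT at h1
  rw [frc_eq, frc_eq, frc_eq, andR_eq] at h1
  exact h1.1

theorem hcl3 {k : ℕ} (hk : k ≤ 3) {h h' : Fin 6 → Fin 4} (z : Zok k h) (z' : Zok k h')
    (t : Tie (fun _ => 0) h h') : lb k (cod h) = lb k (cod h') := by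
  have h1 := step hk (tp_of_tie t) z z'
  unfold FT at h1
  rw [frc_eq, frc_eq, frc_eq, andR_eq] at h1
  have h2 : ec (fun _ => (0 : Fin 7)) = 0 := rfl
  have h3 := impR_mp h1.2 (by rw [h2]; rfl)
  exact Nat.eq_of_beq_eq_true h3

/-- the class function is constant under ties without events -/
theorem hcl (k : ℕ) (h h' : Fin 6 → Fin 4) (z : Zok k h) (z' : Zok k h')
    (t : Tie (fun _ => 0) h h') : lb k (cod h) = lb k (cod h') := by
  rcases Nat.lt_or_ge 3 k with h1 | h1
  · obtain ⟨m, rfl⟩ : ∃ m, k = m + 3 := ⟨k - 3, by omega⟩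
    have w : ∀ {g : Fin 6 → Fin 4}, Zok (m + 3) g → Zok 3 g := by
      intro g hg j
      have hj : j.val % 3 < 3 := Nat.mod_lt _ (by norm_num)
      exact ⟨fun _ => (hg j).1 (by omega), fun h2 => by omega⟩
    exact hcl3 le_rfl (w z) (w z') t
  · exact hcl3 h1 z z' t

theorem zchL_start {σ : Type} {k : ℕ} {cl : (Fin 6 → Fin 4) → σ} {l : List (Fin 6 → Fin 7)}
    {h h' : Fin 6 → Fin 4} (c : ZChL k cl l h h') : Zok k h := by
  cases l with
  | nil => exact c.1
  | cons τ l =>
    obtain ⟨g, g', h1, -, -⟩ := c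
    exact h1.1

theorem zchL_end {σ : Type} {k : ℕ} {cl : (Fin 6 → Fin 4) → σ} {l : List (Fin 6 → Fin 7)} :
    ∀ {h h' : Fin 6 → Fin 4}, ZChL k cl l h h' → Zok k h' := by
  induction l with
  | nil => intro h h' c; exact c.2.1
  | cons τ l ih =>
    rintro h h' ⟨g, g', -, -, h3⟩
    exact ih h3

/-- the chain of classes is a run -/
theorem rn_of {k : ℕ} (hk : k ≤ 3) {l : List (Fin 6 → Fin 7)} :
    ∀ {h h' : Fin 6 → Fin 4}, ZChL k (fun g => lb k (cod g)) l h h' →
      Rn (trT k) (l.map ec) (lb k (cod h)) (lb k (cod h')) := by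
  induction l with
  | nil => intro h h' c; exact c.2.2
  | cons τ l ih =>
    rintro h h' ⟨g, g', ⟨-, z, e⟩, t, h3⟩
    refine ⟨lb k (cod g'), ?_, ih h3⟩
    have e : lb k (cod h) = lb k (cod g) := e
    rw [e]
    exact step_mem hk (tp_of t) z (zchL_start h3)

/-- inside a phase there are no events `5`, `6` -/
theorem cnt_of {k : ℕ} {l : List (Fin 6 → Fin 7)} :
    ∀ {h h' : Fin 6 → Fin 4}, ZChL k (fun g => lb k (cod g)) l h h' → (∀ τ ∈ l, ∃ j, τ j ≠ 0) →
      ∀ e ∈ l.map ec, 1 ≤ cV e + cQ e := by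
  induction l with
  | nil => intro h h' _ _ e he; exact absurd he List.not_mem_nil
  | cons τ l ih =>
    rintro h h' ⟨g, g', ⟨-, z, -⟩, t, h3⟩ hn e he
    rw [List.map_cons, List.mem_cons] at he
    rcases he with rfl | he
    · obtain ⟨j, hj⟩ := hn τ List.mem_cons_self
      have z' := zchL_start h3
      have key : ∀ (x : Fin 7) (l m : Fin 4) (b : Bool), CtL x l m → ZL b l → ZL b m → x ≠ 0 →
          (x = 1 ∨ x = 2) ∨ x = 3 ∨ x = 4 := by decide
      rcases key _ _ _ _ (t.ct j) (zl_of z j) (zl_of z' j) hj with h4 | h4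
      · have := le_cV h4; omega
      · have := le_cQ h4; omega
    · exact ih h3 (fun τ' hτ => hn τ' (List.mem_cons_of_mem _ hτ)) e he

variable {U : Fin 6 → Set ℂ} {T : ℂ → Set (Fin 6)} {z : ℂ} {a b c d e f : Fin 6} {p q : ℝ}

/-- **the events of a centre form a closed word** -/
theorem CzE.clo (S : CzE U T z a b c d e f) (Z : Zn T z a b c d p q)
    (hfin : {y | dist y z = 1 ∧ H987.lb T z a b c d e f y ≠ 0}.Finite) :
    ∃ L : List ℝ, L.Pairwise (· < ·) ∧ (∀ u ∈ L, 0 ≤ u ∧ u < 1) ∧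
      (∀ u, 0 ≤ u → u < 1 → (∃ j, lam T z a b c d e f p u j ≠ 0) → u ∈ L) ∧
      Clo (L.map fun u => ec (lam T z a b c d e f p u)) := by
  have hcomp : ∀ l : List ℝ, (l.map fun u => ec (lam T z a b c d e f p u)) =
      (l.map (lam T z a b c d e f p)).map ec := fun l => by rw [List.map_map]; rfl
  have hmp : ∀ {k : ℕ} {l : List ℝ} {h h' : Fin 6 → Fin 4},
      (∀ u ∈ l, ∃ j, lam T z a b c d e f p u j ≠ 0) →
      ZChL k (fun g => lb k (cod g)) (l.map (lam T z a b c d e f p)) h h' →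
      (∀ e' ∈ l.map (fun u => ec (lam T z a b c d e f p u)), e' ≠ 0) ∧
      ∀ e' ∈ l.map (fun u => ec (lam T z a b c d e f p u)), 1 ≤ cV e' + cQ e' := by
    intro k l h h' hl hz
    constructor
    · intro e' he'
      obtain ⟨u, hu, rfl⟩ := List.mem_map.1 he'
      obtain ⟨j, hj⟩ := hl u hu
      exact ec_ne hj
    · rw [hcomp]
      refine cnt_of hz fun τ hτ => ?_
      obtain ⟨u, hu, rfl⟩ := List.mem_map.1 hτ
      exact hl u hu
  obtain ⟨j0, s, hj0, hs0, hs1, hq, h1 | h1⟩ := S.zpath Z hfin (cl := fun k g => lb k (cod g)) hcl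
  · obtain ⟨rfl, hpos, l, h, h', hp, hl, hev, hz⟩ := h1
    obtain ⟨c1, c2⟩ := hmp (fun u hu => ((hl u).1 hu).2) hz
    refine ⟨0 :: l, ?_, ?_, ?_, ?_⟩
    · rw [List.pairwise_cons]
      exact ⟨fun u hu => ((hl u).1 hu).1.1, hp⟩
    · intro u hu
      rcases List.mem_cons.1 hu with rfl | hu
      · exact ⟨le_rfl, one_pos⟩
      · exact ⟨((hl u).1 hu).1.1.le, ((hl u).1 hu).1.2⟩
    · intro u hu0 hu1 hj
      rcases hu0.eq_or_lt with h2 | h2
      · rw [← h2]; exact List.mem_cons_self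
      · exact List.mem_cons_of_mem _ ((hl u).2 ⟨⟨h2, hu1⟩, hj⟩)
    · left
      refine ⟨j0, _, _, by omega, List.map_cons, c1, c2, lb j0 (cod h'),
        lb j0 (cod fun j => h (j + 1)), ?_, ?_⟩
      · have hz1 := zl_rot (zchL_end hz)
        have hz2 := zchL_start hz
        have h5 : j0 = 1 ∨ j0 = 2 := by omega
        rcases h5 with rfl | rfl
        · have h6 := ck_sound chk_s10 hz1 (zl_of hz2) (tp_of hev)
          unfold FS at h6
          rw [frc_eq, frc_eq, frc_eq, rc_cod] at h6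
          exact h6
        · have h6 := ck_sound chk_s20 hz1 (zl_of hz2) (tp_of hev)
          unfold FS at h6
          rw [frc_eq, frc_eq, frc_eq, rc_cod] at h6
          exact h6
      · rw [hcomp]
        exact rn_of (by omega) hz
  · obtain ⟨hpos, l, l', h, h', g, g', hp, hp', hl, hl', hev, hz, hev', hz'⟩ := h1
    obtain ⟨c1, c2⟩ := hmp (fun u hu => ((hl u).1 hu).2) hz
    obtain ⟨c1', c2'⟩ := hmp (fun u hu => ((hl' u).1 hu).2) hz'
    refine ⟨0 :: (l ++ s :: l'), ?_, ?_, ?_, ?_⟩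
    · rw [List.pairwise_cons, List.pairwise_append, List.pairwise_cons]
      refine ⟨fun u hu => ?_, hp, ⟨fun u hu => ((hl' u).1 hu).1.1, hp'⟩, fun u hu v hv => ?_⟩
      · rcases List.mem_append.1 hu with hu | hu
        · exact ((hl u).1 hu).1.1
        · rcases List.mem_cons.1 hu with rfl | hu
          · exact hpos
          · exact hpos.trans ((hl' u).1 hu).1.1
      · have h2 := ((hl u).1 hu).1.2
        rcases List.mem_cons.1 hv with rfl | hv
        · exact h2
        · exact h2.trans ((hl' v).1 hv).1.1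
    · intro u hu
      rcases List.mem_cons.1 hu with rfl | hu
      · exact ⟨le_rfl, one_pos⟩
      rcases List.mem_append.1 hu with hu | hu
      · exact ⟨((hl u).1 hu).1.1.le, ((hl u).1 hu).1.2.trans hs1⟩
      rcases List.mem_cons.1 hu with rfl | hu
      · exact ⟨hpos.le, hs1⟩
      · exact ⟨(hpos.trans ((hl' u).1 hu).1.1).le, ((hl' u).1 hu).1.2⟩
    · intro u hu0 hu1 hj
      rcases hu0.eq_or_lt with h2 | h2
      · rw [← h2]; exact List.mem_cons_self
      refine List.mem_cons_of_mem _ ?_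
      rcases lt_trichotomy u s with h3 | h3 | h3
      · exact List.mem_append_left _ ((hl u).2 ⟨⟨h2, h3⟩, hj⟩)
      · rw [h3]; exact List.mem_append_right _ List.mem_cons_self
      · exact List.mem_append_right _ (List.mem_cons_of_mem _ ((hl' u).2 ⟨⟨h3, hu1⟩, hj⟩))
    · right
      refine ⟨j0, _, _, _, _, hj0, by rw [List.map_cons, List.map_append, List.map_cons],
        c1, c2, c1', c2', lb (j0 + 1) (cod h'), lb j0 (cod fun j => h (j + 1)),
        lb (j0 + 1) (cod g), lb j0 (cod g'), ?_, ?_, ?_, ?_⟩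
      · have hz1 := zl_rot (zchL_end hz')
        have hz2 := zchL_start hz
        have h5 : j0 = 0 ∨ j0 = 1 ∨ j0 = 2 := by omega
        rcases h5 with rfl | rfl | rfl
        · have h6 := ck_sound chk_s01 hz1 (zl_of hz2) (tp_of hev)
          unfold FS at h6
          rw [frc_eq, frc_eq, frc_eq, rc_cod] at h6
          exact h6
        · have h6 := ck_sound chk_s11 hz1 (zl_of hz2) (tp_of hev)
          unfold FS at h6
          rw [frc_eq, frc_eq, frc_eq, rc_cod] at h6
          exact h6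
        · have h6 := ck_sound chk_s21 hz1 (zl_of hz2) (tp_of hev)
          unfold FS at h6
          rw [frc_eq, frc_eq, frc_eq, rc_cod] at h6
          exact h6
      · rw [hcomp]
        exact rn_of (by omega) hz
      · have hz1 := zchL_end hz
        have hz2 := zchL_start hz'
        have h5 : j0 = 0 ∨ j0 = 1 ∨ j0 = 2 := by omega
        rcases h5 with rfl | rfl | rfl
        · have h6 := ck_sound chk_m0 (zl_of hz1) (zl_of hz2) (tp_of hev')
          unfold FM at h6
          rw [frc_eq, frc_eq, frc_eq] at h6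
          exact h6
        · have h6 := ck_sound chk_m1 (zl_of hz1) (zl_of hz2) (tp_of hev')
          unfold FM at h6
          rw [frc_eq, frc_eq, frc_eq] at h6
          exact h6
        · have h6 := ck_sound chk_m2 (zl_of hz1) (zl_of hz2) (tp_of hev')
          unfold FM at h6
          rw [frc_eq, frc_eq, frc_eq] at h6
          exact h6
      · rw [hcomp]
        exact rn_of (by omega) hz'

end Vale.Agent.P032.H546
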