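import Vale.Agent.P032.H546.FKrn
import Vale.Agent.P032.H546.RecG
import Vale.Agent.P032.H987.LabF

/-!
# P032: soundness of the certificates

`cert0`, `cert1` : a closed chain of columns with the label `6` in the slot `0` at the time `0` and the
total counts of the certificate has sequences of labels in the slots which pass the test `Q`.
-/

noncomputable section

namespace Vale.Agent.P032.H546

open Vale.Agent.P032.H987 hiding lb

/-! ### Columns -/

theorem ctF_evF : ∀ (x : Fin 11) (l m : Fin 4), CtF true true x l m →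
    x.val = evF (4 * l.val + m.val) := by decide

/-- the flags, the labels which occur, the label of a pair -/
def LabOK (g1 g2 : Bool) (X : Fin 11 → Prop) (ev wp : ℕ → ℕ) : Prop :=
  (∀ (x : Fin 11) (l m : Fin 4), X x → CtF g1 g2 x l m → x.val = ev (4 * l.val + m.val)) ∧
    (∀ p < 16, wp p = wtl (ev p)) ∧ X 0

theorem labOK_F : LabOK true true (fun _ => True) evF wpF :=
  ⟨fun x l m _ => ctF_evF x l m, wpF_eq, trivial⟩

theorem ctF_evS : ∀ (x : Fin 11) (l m : Fin 4), (x ≠ 9 ∧ x ≠ 10) → CtF true false x l m →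
    x.val = evS (4 * l.val + m.val) := by decide

theorem labOK_S : LabOK true false (fun x => x ≠ 9 ∧ x ≠ 10) evS wpS :=
  ⟨ctF_evS, wpS_eq, by decide⟩

variable {g1 g2 : Bool} {X : Fin 11 → Prop} {ev wp : ℕ → ℕ}

theorem tpF_of (hL : LabOK g1 g2 X ev wp) {τ : Fin 6 → Fin 11} {h h' : Fin 6 → Fin 4}
    (t : EvF g1 g2 τ h h') (hX : ∀ j, X (τ j)) : TpF ev τ h h' :=
  ⟨fun j => hL.1 _ _ _ (hX j) (t.ct j), t.adj, t.adj', t.noswap, t.opp⟩

theorem zchF_start {σ : Type} {k : ℕ} {cl : (Fin 6 → Fin 4) → σ} {l : List (Fin 6 → Fin 11)}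
    {h h' : Fin 6 → Fin 4} (c : ZChF g1 g2 k cl l h h') : Zok k h := by
  cases l with
  | nil => exact c.1
  | cons τ l =>
    obtain ⟨g, g', h1, -, -⟩ := c
    exact h1.1

theorem zchF_end {σ : Type} {k : ℕ} {cl : (Fin 6 → Fin 4) → σ} {l : List (Fin 6 → Fin 11)} :
    ∀ {h h' : Fin 6 → Fin 4}, ZChF g1 g2 k cl l h h' → Zok k h' := by
  induction l with
  | nil => intro h h' c; exact c.2.1
  | cons τ l ih =>
    rintro h h' ⟨g, g', -, -, h3⟩
    exact ih h3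

/-! ### Counts and sequences of a word -/

/-- the counts of a word -/
def scv (l : List (Fin 6 → Fin 11)) : Fin 5 → ℕ := (l.map cvF).sum

theorem scv_nil : scv [] = 0 := rfl
theorem scv_cons (τ : Fin 6 → Fin 11) (l : List (Fin 6 → Fin 11)) : scv (τ :: l) = cvF τ + scv l := by
  unfold scv; rw [List.map_cons, List.sum_cons]
theorem scv_append (l l' : List (Fin 6 → Fin 11)) : scv (l ++ l') = scv l + scv l' := by
  unfold scv; rw [List.map_append, List.sum_append]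

/-- the sequences of the labels in the slots, after the word -/
def psl (s : Fin 6 → ℕ) (l : List (Fin 6 → Fin 11)) : Fin 6 → ℕ :=
  l.foldl (fun s τ j => psh (s j) (τ j).val) s

theorem psl_nil (s : Fin 6 → ℕ) : psl s [] = s := rfl
theorem psl_cons (s : Fin 6 → ℕ) (τ : Fin 6 → Fin 11) (l : List (Fin 6 → Fin 11)) :
    psl s (τ :: l) = psl (fun j => psh (s j) (τ j).val) l := rfl
theorem psl_append (s : Fin 6 → ℕ) (l l' : List (Fin 6 → Fin 11)) :
    psl s (l ++ l') = psl (psl s l) l' := List.foldl_append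

/-! ### One phase -/

/-- the checks of a phase -/
def PhC (P : Pr) (k C : ℕ) (A : List ℕ) (I : List (List ℕ)) (ev wp : ℕ → ℕ) : Prop :=
  ckF ev wp (zn k) (zn k) (FQ P C A I) = true

theorem PhC.link (hL : LabOK g1 g2 X ev wp) {P : Pr} {k C : ℕ} {A : List ℕ} {I : List (List ℕ)}
    (hc : PhC P k C A I ev wp) {τ : Fin 6 → Fin 11} {g g' : Fin 6 → Fin 4} (z : Zok k g)
    (z' : Zok k g') (t : EvF g1 g2 τ g g') (hX : ∀ j, X (τ j)) :
    (ecF τ = 0 → clT C (cod g) = clT C (cod g')) ∧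
      lk P A I A I (clT C (cod g)) (clT C (cod g')) (ecF τ) (wF τ) = true := by
  have h1 := ckF_sound hL.2.1 hc (zl_of z) (zl_of z') (tpF_of hL t hX)
  unfold FQ at h1
  rw [frc_eq, frc_eq, frc_eq, frc_eq, andR_eq] at h1
  refine ⟨fun h0 => ?_, h1.2⟩
  exact Nat.eq_of_beq_eq_true (impR_mp h1.1 (by rw [h0]; rfl))

theorem PhC.hcl (hL : LabOK g1 g2 X ev wp) {P : Pr} {k C : ℕ} {A : List ℕ} {I : List (List ℕ)}
    (hc : PhC P k C A I ev wp) {h h' : Fin 6 → Fin 4} (z : Zok k h) (z' : Zok k h')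
    (t : EvF g1 g2 (fun _ => 0) h h') : clT C (cod h) = clT C (cod h') :=
  (hc.link hL z z' t fun _ => hL.2.2).1 rfl

/-- alive states are closed under predecessors -/
theorem PhC.bwd (hL : LabOK g1 g2 X ev wp) {P : Pr} {k C G : ℕ} {A : List ℕ} {I : List (List ℕ)}
    (hc : PhC P k C A I ev wp) (hM : MOK P G) (h15 : ∀ i, P.tv i ≤ 15) {gi : ℕ} (hg : gi < G)
    {l : List (Fin 6 → Fin 11)} (hX : ∀ τ ∈ l, ∀ j, X (τ j)) {r : Fin 5 → ℕ} :
    ∀ {h h' : Fin 6 → Fin 4}, ZChF g1 g2 k (fun c => clT C (cod c)) l h h' →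
      (∀ i, (scv l + r) i ≤ P.tv i) → Al P A gi (clT C (cod h')) r →
      Al P A gi (clT C (cod h)) (scv l + r) := by
  induction l with
  | nil =>
    intro h h' c hr hal
    have e : clT C (cod h) = clT C (cod h') := c.2.2
    rw [scv_nil, zero_add, e]
    exact hal
  | cons τ l ih =>
    rintro h h' ⟨g, g', ⟨-, z, e⟩, t, h3⟩ hr hal
    have e : clT C (cod h) = clT C (cod g) := e
    rw [scv_cons, add_assoc] at hr ⊢
    rw [e]
    have h4 := ih (fun τ' hτ => hX τ' (List.mem_cons_of_mem _ hτ)) h3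
      (fun i => le_trans (Nat.le_add_left _ _) (hr i)) hal
    exact lk_al (hc.link hL z (zchF_start h3) t (hX τ List.mem_cons_self)).2 hM hg hr h15 h4

/-- listed states are closed under alive successors -/
theorem PhC.fwd (hL : LabOK g1 g2 X ev wp) {P : Pr} {k C G : ℕ} {A : List ℕ} {I : List (List ℕ)}
    (hc : PhC P k C A I ev wp) (hM : MOK P G) (hG : G ≤ 32) (h15 : ∀ i, P.tv i ≤ 15) {gi : ℕ}
    (hg : gi < G) {l : List (Fin 6 → Fin 11)} (hX : ∀ τ ∈ l, ∀ j, X (τ j)) {r : Fin 5 → ℕ} :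
    ∀ {s : Fin 6 → ℕ} {h h' : Fin 6 → Fin 4}, ZChF g1 g2 k (fun c => clT C (cod c)) l h h' →
      (∀ i, (scv l + r) i ≤ P.tv i) → Al P A gi (clT C (cod h')) r → (∀ j, s j < 65536) →
      key gi (scv l + r) s ∈ getR I (clT C (cod h)) →
      (∀ j, psl s l j < 65536) ∧ key gi r (psl s l) ∈ getR I (clT C (cod h')) := by
  induction l with
  | nil =>
    intro s h h' c hr hal hs hk
    have e : clT C (cod h) = clT C (cod h') := c.2.2
    rw [scv_nil, zero_add, e] at hk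
    exact ⟨hs, hk⟩
  | cons τ l ih =>
    rintro s h h' ⟨g, g', ⟨-, z, e⟩, t, h3⟩ hr hal hs hk
    have e : clT C (cod h) = clT C (cod g) := e
    rw [scv_cons, add_assoc] at hr hk
    rw [e] at hk
    have hr' : ∀ i, (scv l + r) i ≤ P.tv i := fun i => le_trans (Nat.le_add_left _ _) (hr i)
    have hX' : ∀ τ' ∈ l, ∀ j, X (τ' j) := fun τ' hτ => hX τ' (List.mem_cons_of_mem _ hτ)
    have h4 := hc.bwd hL hM h15 hg hX' h3 hr' hal
    obtain ⟨h5, h6⟩ := lk_inv (hc.link hL z (zchF_start h3) t (hX τ List.mem_cons_self)).2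
      (by omega) hr h15 hs h4 hk
    rw [psl_cons]
    exact ih hX' h3 hr' hal h5 h6

/-! ### Start and end -/

/-- the total counts -/
def Pr.tt (P : Pr) : Fin 5 → ℕ := ![P.t0, P.t1, P.t2, P.t3, P.t4 + 1]

/-- the check of the start, the phase after the time `0` is `k1`, the phase before is `j0` -/
def StC (P : Pr) (k1 j0 C C' GI G : ℕ) (A : List ℕ) (I : List (List ℕ)) (ev wp : ℕ → ℕ) : Prop :=
  ckF ev wp (zr j0) (zn k1) (FB P (pk P.tt) C C' GI G A I) = true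

theorem key_zero (s : Fin 6 → ℕ) (hs : s = fun _ => 0) : pk6 s = 0 := by rw [hs]; rfl

theorem StC.start (hL : LabOK g1 g2 X ev wp) {P : Pr} {k1 j0 C C' GI G : ℕ} {A : List ℕ}
    {I : List (List ℕ)} (hc : StC P k1 j0 C C' GI G A I ev wp) (h15 : ∀ i, P.tv i ≤ 15)
    {τ : Fin 6 → Fin 11} {h h' : Fin 6 → Fin 4} (z : Zok j0 fun j => h (j + 1)) (z' : Zok k1 h')
    (t : EvF g1 g2 τ h h') (hX : ∀ j, X (τ j)) (hJ : τ 0 = 6) {r : Fin 5 → ℕ}
    (hr : cvF τ + r = P.tt)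
    (hle : ∀ i, r i ≤ P.tv i) :
    giT GI (clT C' (cod fun j => h (j + 1))) < G ∧
      (Al P A (giT GI (clT C' (cod fun j => h (j + 1)))) (clT C (cod h')) r →
        (∀ j, psl (fun _ => 0) [τ] j < 65536) ∧
        key (giT GI (clT C' (cod fun j => h (j + 1)))) r (psl (fun _ => 0) [τ]) ∈
          getR I (clT C (cod h'))) := by
  have h1 := ckF_sound hL.2.1 hc (zl_rot z) (zl_of z') (tpF_of hL t hX)
  unfold FB at h1
  rw [frc_eq, frc_eq] at h1
  have e0 : Nat.beq (Nat.mod (ecF τ) 16) 6 = true := by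
    have : Nat.mod (ecF τ) 16 = 6 := by
      show ecF τ % 16 = 6
      have h0 : (τ 0).val = 6 := by rw [hJ]; rfl
      unfold ecF
      omega
    rw [this]; rfl
  have h2 := impR_mp h1 e0
  rw [frc_eq, frc_eq, andR_eq, rc_cod] at h2
  obtain ⟨h3, h4⟩ := h2
  have h3' : giT GI (clT C' (cod fun j => h (j + 1))) < G := by
    have := Nat.le_of_ble_eq_true h3
    omega
  refine ⟨h3', fun hal => ?_⟩
  rw [frc_eq] at h4
  have e1 : Nat.sub (pk P.tt) (wF τ) = pk r := by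
    show pk P.tt - wF τ = _
    rw [← hr, pk_add, wF_eq]; omega
  rw [e1] at h4
  have h5 := impR_mp h4 (by
    have : Nat.add (pk r) (wF τ) = pk P.tt := by
      show pk r + wF τ = _
      rw [← hr, pk_add, wF_eq]; omega
    rw [this]; exact Nat.beq_refl _)
  have h6 := dg_mp h5 hle h15
  have h7 := impR_mp h6 (by rw [tb_eq]; exact hal)
  have e2 : (0 : ℕ) = pk6 (fun _ => 0) := rfl
  rw [e2] at h7
  obtain ⟨h8, h9⟩ := pIk_mp (s := fun _ => 0) (fun _ => by norm_num) h7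
  rw [frc_eq, anyR_iff] at h9
  obtain ⟨y, hy, h10⟩ := h9
  have h11 := Nat.eq_of_beq_eq_true h10
  rw [h11] at hy
  exact ⟨h8, hy⟩

/-- the check of the end -/
def EnC (P : Pr) (GI G n : ℕ) (A : List ℕ) (I : List (List ℕ)) (Q : ℕ → Bool) : Prop :=
  FE P GI G n A I Q = true

theorem EnC.alive {P : Pr} {GI G n : ℕ} {A : List ℕ} {I : List (List ℕ)} {Q : ℕ → Bool}
    (h : EnC P GI G n A I Q) {c : ℕ} (hc : c ≤ n) (hg : giT GI c < G) :
    Al P A (giT GI c) c 0 := by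
  have h1 := allR_iff.1 h c (mem_rg hc)
  rw [frc_eq, frc_eq] at h1
  have h2 := impR_mp h1 (Nat.ble_eq_true_of_le hg)
  rw [andR_eq, tb_eq] at h2
  have h3 := h2.1
  unfold Al
  have e : P.lin 0 = 0 := by unfold Pr.lin; simp
  rw [e, add_zero]
  exact h3

theorem EnC.test {P : Pr} {GI G n : ℕ} {A : List ℕ} {I : List (List ℕ)} {Q : ℕ → Bool}
    (h : EnC P GI G n A I Q) {c : ℕ} (hc : c ≤ n) (hg : giT GI c < G) (hG : G ≤ 32)
    {s : Fin 6 → ℕ} (hk : key (giT GI c) 0 s ∈ getR I c) : Q (pk6 s) = true := by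
  have h1 := allR_iff.1 h c (mem_rg hc)
  rw [frc_eq, frc_eq] at h1
  have h2 := impR_mp h1 (Nat.ble_eq_true_of_le hg)
  rw [andR_eq] at h2
  have h3 := allR_iff.1 h2.2 _ hk
  have e0 : pk 0 = 0 := rfl
  have e1 : Nat.mod (key (giT GI c) 0 s) 33554432 = giT GI c := by
    show key (giT GI c) 0 s % 33554432 = _
    unfold key; rw [e0]; omega
  have e2 : Nat.div (key (giT GI c) 0 s) 33554432 = pk6 s := by
    show key (giT GI c) 0 s / 33554432 = _
    unfold key; rw [e0]; omega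
  rw [e1, e2, frc_eq] at h3
  exact impR_mp h3 (Nat.beq_refl _)

theorem clT_le (C c : ℕ) : clT C c ≤ 127 := by
  unfold clT
  exact Nat.and_le_right

/-! ### The certificates -/

/-- second zone line at the time `0` -/
structure Cert0 (P : Pr) (j0 C GI G : ℕ) (A : List ℕ) (I : List (List ℕ)) (ev wp : ℕ → ℕ)
    (Q : ℕ → Bool) : Prop where
  ph : PhC P j0 C A I ev wp
  st : StC P j0 j0 C C GI G A I ev wp
  en : EnC P GI G 127 A I Q

theorem cert0 (hL : LabOK g1 g2 X ev wp) {P : Pr} {j0 C GI G : ℕ} {A : List ℕ} {I : List (List ℕ)}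
    {Q : ℕ → Bool} (c : Cert0 P j0 C GI G A I ev wp Q) (hM : MOK P G) (hG : G ≤ 32)
    (h15 : ∀ i, P.tv i ≤ 15) {τ : Fin 6 → Fin 11} {l : List (Fin 6 → Fin 11)}
    {h h' : Fin 6 → Fin 4} (hX : ∀ τ' ∈ τ :: l, ∀ j, X (τ' j)) (t : EvF g1 g2 τ h h')
    (hJ : τ 0 = 6) (w : ZChF g1 g2 j0 (fun c => clT C (cod c)) l h' (fun j => h (j + 1)))
    (hn : scv (τ :: l) = P.tt) : Q (pk6 (psl (fun _ => 0) (τ :: l))) = true ∧
      ∀ j, psl (fun _ => 0) (τ :: l) j < 65536 := by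
  rw [scv_cons] at hn
  have h4 : 1 ≤ cvF τ 4 := by
    have h0 : (τ 0).val = 6 := by rw [hJ]; rfl
    unfold cvF
    rw [h0]
    have : ind 4 6 = 1 := by decide
    omega
  have hle : ∀ i, scv l i ≤ P.tv i := by
    intro i
    have h5 := congrFun hn i
    have h5 : cvF τ i + scv l i = P.tt i := h5
    fin_cases i
    · have h6 : cvF τ 0 + scv l 0 = P.t0 := h5
      show scv l 0 ≤ P.t0; omega
    · have h6 : cvF τ 1 + scv l 1 = P.t1 := h5
      show scv l 1 ≤ P.t1; omega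
    · have h6 : cvF τ 2 + scv l 2 = P.t2 := h5
      show scv l 2 ≤ P.t2; omega
    · have h6 : cvF τ 3 + scv l 3 = P.t3 := h5
      show scv l 3 ≤ P.t3; omega
    · have h6 : cvF τ 4 + scv l 4 = P.t4 + 1 := h5
      show scv l 4 ≤ P.t4; omega
  have hXl : ∀ τ' ∈ l, ∀ j, X (τ' j) := fun τ' hτ => hX τ' (List.mem_cons_of_mem _ hτ)
  obtain ⟨h5, h6⟩ := c.st.start hL h15 (zchF_end w) (zchF_start w) t (hX τ List.mem_cons_self)
    hJ hn hle
  have h7 := c.en.alive (clT_le _ _) h5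
  have h8 := c.ph.bwd hL hM h15 h5 hXl w (by rw [add_zero]; exact hle) h7
  rw [add_zero] at h8
  obtain ⟨h9, h10⟩ := h6 h8
  obtain ⟨h11, h12⟩ := c.ph.fwd hL hM hG h15 h5 hXl w (by rw [add_zero]; exact hle) h7 h9
    (by rw [add_zero]; exact h10)
  have e : psl (fun _ => 0) (τ :: l) = psl (psl (fun _ => 0) [τ]) l := rfl
  rw [e]
  exact ⟨c.en.test (clT_le _ _) h5 hG h12, h11⟩

/-- second zone line at a positive time -/
structure Cert1 (P : Pr) (j0 C1 C2 GI G : ℕ) (A1 : List ℕ) (I1 : List (List ℕ)) (A2 : List ℕ)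
    (I2 : List (List ℕ)) (ev wp : ℕ → ℕ) (Q : ℕ → Bool) : Prop where
  ph1 : PhC P (j0 + 1) C1 A1 I1 ev wp
  mid : ckF ev wp (zn (j0 + 1)) (zn j0) (FL P C1 C2 A1 I1 A2 I2) = true
  ph2 : PhC P j0 C2 A2 I2 ev wp
  st : StC P (j0 + 1) j0 C1 C2 GI G A1 I1 ev wp
  en : EnC P GI G 127 A2 I2 Q

theorem cert1 (hL : LabOK g1 g2 X ev wp) {P : Pr} {j0 C1 C2 GI G : ℕ} {A1 A2 : List ℕ}
    {I1 I2 : List (List ℕ)} {Q : ℕ → Bool}
    (c : Cert1 P j0 C1 C2 GI G A1 I1 A2 I2 ev wp Q) (hM : MOK P G) (hG : G ≤ 32)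
    (h15 : ∀ i, P.tv i ≤ 15) {τ σ : Fin 6 → Fin 11} {l l' : List (Fin 6 → Fin 11)}
    {h h' g g' : Fin 6 → Fin 4} (hX : ∀ τ' ∈ τ :: (l ++ σ :: l'), ∀ j, X (τ' j))
    (t : EvF g1 g2 τ h h') (hJ : τ 0 = 6)
    (w : ZChF g1 g2 (j0 + 1) (fun c => clT C1 (cod c)) l h' g) (t' : EvF g1 g2 σ g g')
    (w' : ZChF g1 g2 j0 (fun c => clT C2 (cod c)) l' g' (fun j => h (j + 1)))
    (hn : scv (τ :: (l ++ σ :: l')) = P.tt) :
    Q (pk6 (psl (fun _ => 0) (τ :: (l ++ σ :: l')))) = true ∧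
      ∀ j, psl (fun _ => 0) (τ :: (l ++ σ :: l')) j < 65536 := by
  rw [scv_cons, scv_append, scv_cons] at hn
  have h4 : 1 ≤ cvF τ 4 := by
    have h0 : (τ 0).val = 6 := by rw [hJ]; rfl
    unfold cvF
    rw [h0]
    have : ind 4 6 = 1 := by decide
    omega
  have hle : ∀ i, (scv l + (cvF σ + scv l')) i ≤ P.tv i := by
    intro i
    have h5 := congrFun hn i
    have h5 : cvF τ i + (scv l + (cvF σ + scv l')) i = P.tt i := h5
    generalize scv l + (cvF σ + scv l') = y at h5 ⊢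
    fin_cases i
    · have h6 : cvF τ 0 + y 0 = P.t0 := h5
      show y 0 ≤ P.t0; omega
    · have h6 : cvF τ 1 + y 1 = P.t1 := h5
      show y 1 ≤ P.t1; omega
    · have h6 : cvF τ 2 + y 2 = P.t2 := h5
      show y 2 ≤ P.t2; omega
    · have h6 : cvF τ 3 + y 3 = P.t3 := h5
      show y 3 ≤ P.t3; omega
    · have h6 : cvF τ 4 + y 4 = P.t4 + 1 := h5
      show y 4 ≤ P.t4; omega
  have hle2 : ∀ i, (cvF σ + scv l') i ≤ P.tv i := fun i =>
    le_trans (Nat.le_add_left _ _) (hle i)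
  have hle3 : ∀ i, scv l' i ≤ P.tv i := fun i => le_trans (Nat.le_add_left _ _) (hle2 i)
  have hX0 := hX τ List.mem_cons_self
  have hXl : ∀ τ' ∈ l, ∀ j, X (τ' j) := fun τ' hτ =>
    hX τ' (List.mem_cons_of_mem _ (List.mem_append_left _ hτ))
  have hXs : ∀ j, X (σ j) :=
    hX σ (List.mem_cons_of_mem _ (List.mem_append_right _ List.mem_cons_self))
  have hXl' : ∀ τ' ∈ l', ∀ j, X (τ' j) := fun τ' hτ =>
    hX τ' (List.mem_cons_of_mem _ (List.mem_append_right _ (List.mem_cons_of_mem _ hτ)))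
  obtain ⟨h5, h6⟩ := c.st.start hL h15 (zchF_end w') (zchF_start w) t hX0 hJ hn hle
  have h7 := c.en.alive (clT_le _ _) h5
  have h8 := c.ph2.bwd hL hM h15 h5 hXl' w' (by rw [add_zero]; exact hle3) h7
  rw [add_zero] at h8
  have hlk : lk P A1 I1 A2 I2 (clT C1 (cod g)) (clT C2 (cod g')) (ecF σ) (wF σ) = true := by
    have h1 := ckF_sound hL.2.1 c.mid (zl_of (zchF_end w)) (zl_of (zchF_start w'))
      (tpF_of hL t' hXs)
    unfold FL at h1
    rw [frc_eq, frc_eq, frc_eq, frc_eq] at h1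
    exact h1
  have h9 := lk_al hlk hM h5 hle2 h15 h8
  have h10 := c.ph1.bwd hL hM h15 h5 hXl w hle h9
  obtain ⟨h11, h12⟩ := h6 h10
  obtain ⟨h13, h14⟩ := c.ph1.fwd hL hM hG h15 h5 hXl w hle h9 h11 h12
  obtain ⟨h15', h16⟩ := lk_inv hlk (by omega) hle2 h15 h13 h8 h14
  obtain ⟨h17, h18⟩ := c.ph2.fwd hL hM hG h15 h5 hXl' w' (by rw [add_zero]; exact hle3) h7 h15'
    (by rw [add_zero]; exact h16)
  have e : psl (fun _ => 0) (τ :: (l ++ σ :: l')) =
      psl (fun j => psh (psl (psl (fun _ => 0) [τ]) l j) (σ j).val) l' := by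
    rw [psl_cons, psl_append, psl_cons]
    rfl
  rw [e]
  exact ⟨c.en.test (clT_le _ _) h5 hG h18, h17⟩

end Vale.Agent.P032.H546
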