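import Vale.Agent.P032.H546.Rec

/-!
# P032: closed words with one `V` and one `Q`

`P11` : exactly one event `5, 6`, and it is more than 60 degrees from the event `1, 2` and from the
event `3, 4`.
-/

namespace Vale.Agent.P032.H546

/-- not within 60 degrees: `(t1, j1)`, `(t2, j2)` block and slot -/
def farB (t1 j1 t2 j2 : ℕ) : Bool :=
  let d := (j1 + 6 - j2) % 6
  if t1 = t2 then d != 0 && d != 1 && d != 5
  else if t2 < t1 then d != 0 && d != 5
  else d != 0 && d != 1

/-- the ends of a reversed word: (block, slot, label) -/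
def endsR : List ℕ → List (ℕ × ℕ × ℕ)
  | [] => []
  | e :: w => ([0, 1, 2, 3, 4, 5].filterMap fun j =>
      if dig e j = 0 then none else some (w.length, j, dig e j)) ++ endsR w

/-- the test -/
def P11 (b : List ℕ) : Bool :=
  if sV b = 1 ∧ sQ b = 1 then
    sJ b == 1 && (endsR b).all fun x => if x.2.2 = 5 ∨ x.2.2 = 6 then
      (endsR b).all fun y => y.2.2 == 5 || y.2.2 == 6 || farB x.1 x.2.1 y.1 y.2.1 else true
  else true

theorem all11 : AllB (fun _ => true) P11 1 1 := by
  refine ⟨⟨?_, ?_⟩, ?_, ?_, ?_⟩ <;> decide +kernel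

end Vale.Agent.P032.H546
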