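import Vale.Agent.P032.H546.RecG
import Vale.Agent.P032.H546.Far
import Vale.Agent.P032.H460.Inst11
import Vale.Agent.P032.H460.ParQ
import Vale.Agent.P032.H987.Sign
import Vale.Agent.P032.H533.Two22

/-!
# P032: a centre with one end of each of two complementary palettes

`far11` : exactly one point of its circle has its palette, and it is further than one from both ends.
-/

open Set Filter Topology Metric

noncomputable section

namespace Vale.Agent.P032.H546

open Vale.Agent.P032.Six Vale.Agent.P032.S5.H767 Vale.Agent.P032.S5.H349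
open Vale.Agent.P032.H987 hiding lb
open Vale.Agent.P032.H460 Vale.Agent.P032.H533

/-! ### Coordinates on the circle -/

theorem exists_co {z y : ℂ} (hy : dist y z = 1) (p : ℝ) :
    ∃ u : ℝ, ∃ j : Fin 6, 0 ≤ u ∧ u < 1 ∧ y = qj z p u j := by
  obtain ⟨s, ⟨h1, h2⟩, rfl⟩ := exists_pt_Ico hy p
  have h3 : 0 ≤ ⌊s - p⌋ := Int.floor_nonneg.2 (by linarith)
  have h4 : ⌊s - p⌋ < 6 := by
    rw [Int.floor_lt]
    push_cast
    linarith
  have h5 : ((⌊s - p⌋.toNat : ℕ) : ℤ) = ⌊s - p⌋ := Int.toNat_of_nonneg h3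
  refine ⟨Int.fract (s - p), ⟨⌊s - p⌋.toNat, by omega⟩, Int.fract_nonneg _, Int.fract_lt_one _, ?_⟩
  unfold qj
  congr 1
  have h6 : ((⌊s - p⌋.toNat : ℕ) : ℝ) = (⌊s - p⌋ : ℝ) := by exact_mod_cast h5
  show s = p + Int.fract (s - p) + ((⌊s - p⌋.toNat : ℕ) : ℝ)
  rw [h6]
  have h7 := Int.self_sub_floor (s - p)
  rw [← h7]
  ring

theorem co_inj {z : ℂ} {p u u' : ℝ} {j j' : Fin 6} (h0 : 0 ≤ u) (h1 : u < 1) (h0' : 0 ≤ u')
    (h1' : u' < 1) (h : qj z p u j = qj z p u' j') : u = u' ∧ j = j' := by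
  unfold qj at h
  obtain ⟨n, hn⟩ := pt_inj460 h
  have h2 : u - u' = (((j'.val : ℤ) - (j.val : ℤ) + n * 6 : ℤ) : ℝ) := by
    push_cast
    linarith
  have h3 : ((j'.val : ℤ) - (j.val : ℤ) + n * 6 : ℤ) = 0 := by
    have h4 : (((j'.val : ℤ) - (j.val : ℤ) + n * 6 : ℤ) : ℝ) < ((1 : ℤ) : ℝ) := by
      rw [← h2]; push_cast; linarith
    have h5 : (((-1 : ℤ)) : ℝ) < (((j'.val : ℤ) - (j.val : ℤ) + n * 6 : ℤ) : ℝ) := by
      rw [← h2]; push_cast; linarith
    have h6 := Int.cast_lt.1 h4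
    have h7 := Int.cast_lt.1 h5
    omega
  rw [h3] at h2
  refine ⟨by push_cast at h2; linarith, ?_⟩
  have b := j.isLt
  have b' := j'.isLt
  exact Fin.ext (by omega)

theorem one_lt_dist_pt {z : ℂ} {s t : ℝ} (h1 : 1 < |s - t|) (h2 : |s - t| < 5) :
    1 < dist (pt z s) (pt z t) := by
  have hpi := Real.pi_pos
  have key : ∀ x : ℝ, 1 < x → x < 5 → Real.cos (x * (Real.pi / 3)) < 1 / 2 := by
    intro x hx hx'
    rw [← Real.cos_pi_div_three]
    rcases le_or_gt x 3 with h3 | h3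
    · exact Real.cos_lt_cos_of_nonneg_of_le_pi (by positivity) (by nlinarith) (by nlinarith)
    · rw [show Real.cos (x * (Real.pi / 3)) = Real.cos (2 * Real.pi - x * (Real.pi / 3)) by
        rw [Real.cos_two_pi_sub]]
      exact Real.cos_lt_cos_of_nonneg_of_le_pi (by positivity) (by nlinarith) (by nlinarith)
  have h3 : Real.cos ((s - t) * (Real.pi / 3)) < 1 / 2 := by
    rcases le_or_gt 0 (s - t) with h4 | h4
    · rw [abs_of_nonneg h4] at h1 h2
      exact key _ h1 h2
    · rw [abs_of_neg h4] at h1 h2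
      rw [show (s - t) * (Real.pi / 3) = -(-(s - t) * (Real.pi / 3)) by ring, Real.cos_neg]
      exact key _ h1 h2
  have h4 : dist (pt z s) (pt z t) ^ 2 = 2 - 2 * Real.cos ((s - t) * (Real.pi / 3)) := by
    unfold pt
    rw [dist_eq_norm, show z + cis (s * (Real.pi / 3)) - (z + cis (t * (Real.pi / 3))) =
      cis (s * (Real.pi / 3)) - cis (t * (Real.pi / 3)) by ring, ← Complex.normSq_eq_norm_sq]
    unfold cis
    rw [Complex.normSq_apply]
    simp only [Complex.sub_re, Complex.sub_im, Complex.exp_re, Complex.exp_im, Complex.mul_re,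
      Complex.mul_im, Complex.ofReal_re, Complex.ofReal_im, Complex.I_re, Complex.I_im]
    have e1 := Real.cos_sq_add_sin_sq (s * (Real.pi / 3))
    have e2 := Real.cos_sq_add_sin_sq (t * (Real.pi / 3))
    rw [show (s - t) * (Real.pi / 3) = s * (Real.pi / 3) - t * (Real.pi / 3) by ring,
      Real.cos_sub]
    norm_num
    nlinarith
  have h5 : 0 ≤ dist (pt z s) (pt z t) := dist_nonneg
  nlinarith

/-- the meaning of `farB` -/
theorem far_dist {z : ℂ} {p : ℝ} {L : List ℝ} (hL : L.Pairwise (· < ·)) {t1 t2 : ℕ} {u1 u2 : ℝ}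
    (h1 : L[t1]? = some u1) (h2 : L[t2]? = some u2) (b1 : 0 ≤ u1 ∧ u1 < 1) (b2 : 0 ≤ u2 ∧ u2 < 1)
    {j1 j2 : Fin 6} (hf : farB t1 j1.val t2 j2.val = true) :
    1 < dist (qj z p u1 j1) (qj z p u2 j2) := by
  have c1 := j1.isLt
  have c2 := j2.isLt
  obtain ⟨l1, e1⟩ := List.getElem?_eq_some_iff.1 h1
  obtain ⟨l2, e2⟩ := List.getElem?_eq_some_iff.1 h2
  unfold farB at hf
  unfold qj
  have fin : ∀ D : ℤ, D = (j1.val : ℤ) - (j2.val : ℤ) →
      ((1 < (D : ℝ) + (u1 - u2) ∧ (D : ℝ) + (u1 - u2) < 5) ∨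
        (-5 < (D : ℝ) + (u1 - u2) ∧ (D : ℝ) + (u1 - u2) < -1)) →
      1 < dist (pt z (p + u1 + (j1.val : ℝ))) (pt z (p + u2 + (j2.val : ℝ))) := by
    intro D hD h
    have e : p + u1 + (j1.val : ℝ) - (p + u2 + (j2.val : ℝ)) = (D : ℝ) + (u1 - u2) := by
      rw [hD]; push_cast; ring
    apply one_lt_dist_pt
    · rw [e, lt_abs]
      rcases h with h | h
      · left; exact h.1
      · right; linarith [h.2]
    · rw [e, abs_lt]
      rcases h with h | h
      · constructor <;> linarith [h.1, h.2]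
      · constructor <;> linarith [h.1, h.2]
  have lt : ∀ {s s' : ℕ} (k : s < L.length) (k' : s' < L.length), s < s' → L[s] < L[s'] :=
    fun k k' hs => List.pairwise_iff_getElem.1 hL _ _ k k' hs
  rcases lt_trichotomy t1 t2 with h | h | h
  · have hlt : u1 < u2 := by rw [← e1, ← e2]; exact lt l1 l2 h
    rw [if_neg (by omega), if_neg (by omega)] at hf
    simp only [Bool.and_eq_true, bne_iff_ne, ne_eq] at hf
    have h3 : (2 ≤ (j1.val : ℤ) - j2.val) ∨ (-4 ≤ (j1.val : ℤ) - j2.val ∧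
        (j1.val : ℤ) - j2.val ≤ -1) := by omega
    refine fin _ rfl ?_
    rcases h3 with h3 | ⟨h3, h4⟩
    · left
      have h5 : (2 : ℝ) ≤ ((j1.val : ℤ) - (j2.val : ℤ) : ℤ) := by exact_mod_cast h3
      have h6 : (((j1.val : ℤ) - (j2.val : ℤ) : ℤ) : ℝ) ≤ 5 := by
        have : (j1.val : ℤ) - (j2.val : ℤ) ≤ 5 := by omega
        exact_mod_cast this
      constructor <;> linarith [b1.1, b2.2]
    · right
      have h5 : (-4 : ℝ) ≤ ((j1.val : ℤ) - (j2.val : ℤ) : ℤ) := by exact_mod_cast h3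
      have h6 : (((j1.val : ℤ) - (j2.val : ℤ) : ℤ) : ℝ) ≤ -1 := by exact_mod_cast h4
      constructor <;> linarith [b1.1, b2.2]
  · subst h
    have he : u1 = u2 := by rw [← e1, ← e2]
    rw [if_pos rfl] at hf
    simp only [Bool.and_eq_true, bne_iff_ne, ne_eq] at hf
    have h3 : (2 ≤ (j1.val : ℤ) - j2.val ∧ (j1.val : ℤ) - j2.val ≤ 4) ∨
        (-4 ≤ (j1.val : ℤ) - j2.val ∧ (j1.val : ℤ) - j2.val ≤ -2) := by omega
    refine fin _ rfl ?_
    rcases h3 with ⟨h3, h4⟩ | ⟨h3, h4⟩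
    · left
      have h5 : (2 : ℝ) ≤ ((j1.val : ℤ) - (j2.val : ℤ) : ℤ) := by exact_mod_cast h3
      have h6 : (((j1.val : ℤ) - (j2.val : ℤ) : ℤ) : ℝ) ≤ 4 := by exact_mod_cast h4
      constructor <;> linarith
    · right
      have h5 : (-4 : ℝ) ≤ ((j1.val : ℤ) - (j2.val : ℤ) : ℤ) := by exact_mod_cast h3
      have h6 : (((j1.val : ℤ) - (j2.val : ℤ) : ℤ) : ℝ) ≤ -2 := by exact_mod_cast h4
      constructor <;> linarith
  · have hlt : u2 < u1 := by rw [← e1, ← e2]; exact lt l2 l1 h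
    rw [if_neg (by omega), if_pos h] at hf
    simp only [Bool.and_eq_true, bne_iff_ne, ne_eq] at hf
    have h3 : (1 ≤ (j1.val : ℤ) - j2.val ∧ (j1.val : ℤ) - j2.val ≤ 4) ∨
        (-5 ≤ (j1.val : ℤ) - j2.val ∧ (j1.val : ℤ) - j2.val ≤ -2) := by omega
    refine fin _ rfl ?_
    rcases h3 with ⟨h3, h4⟩ | ⟨h3, h4⟩
    · left
      have h5 : (1 : ℝ) ≤ ((j1.val : ℤ) - (j2.val : ℤ) : ℤ) := by exact_mod_cast h3
      have h6 : (((j1.val : ℤ) - (j2.val : ℤ) : ℤ) : ℝ) ≤ 4 := by exact_mod_cast h4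
      constructor <;> linarith [b1.2, b2.1]
    · right
      have h5 : (-5 : ℝ) ≤ ((j1.val : ℤ) - (j2.val : ℤ) : ℤ) := by exact_mod_cast h3
      have h6 : (((j1.val : ℤ) - (j2.val : ℤ) : ℤ) : ℝ) ≤ -2 := by exact_mod_cast h4
      constructor <;> linarith [b1.2, b2.1]

/-! ### Sums over blocks and slots -/

/-- blocks and slots -/
def prs (L : List ℝ) : List (ℝ × Fin 6) := L ×ˢ List.finRange 6

theorem mem_prs {L : List ℝ} {x : ℝ × Fin 6} : x ∈ prs L ↔ x.1 ∈ L := by
  unfold prs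
  rw [show x = (x.1, x.2) from rfl, List.mem_product]
  exact ⟨fun h => h.1, fun h => ⟨h, List.mem_finRange _⟩⟩

theorem nodup_prs {L : List ℝ} (hL : L.Nodup) : (prs L).Nodup := hL.product (List.nodup_finRange 6)

theorem sum6 (g : ℕ → ℕ) (τ : Fin 6 → Fin 7) :
    g (dig (ec τ) 0) + g (dig (ec τ) 1) + g (dig (ec τ) 2) + g (dig (ec τ) 3) +
      g (dig (ec τ) 4) + g (dig (ec τ) 5) = ((List.finRange 6).map fun j => g (τ j).val).sum := by
  have h0 : dig (ec τ) 0 = (τ 0).val := dig_ec τ 0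
  have h1 : dig (ec τ) 1 = (τ 1).val := dig_ec τ 1
  have h2 : dig (ec τ) 2 = (τ 2).val := dig_ec τ 2
  have h3 : dig (ec τ) 3 = (τ 3).val := dig_ec τ 3
  have h4 : dig (ec τ) 4 = (τ 4).val := dig_ec τ 4
  have h5 : dig (ec τ) 5 = (τ 5).val := dig_ec τ 5
  rw [h0, h1, h2, h3, h4, h5]
  have e : List.finRange 6 = [0, 1, 2, 3, 4, 5] := by decide
  rw [e]
  simp only [List.map_cons, List.map_nil, List.sum_cons, List.sum_nil]
  omega

theorem sum_prs (g : ℕ → ℕ) (τ : ℝ → Fin 6 → Fin 7) (L : List ℝ) :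
    ((L.map fun u => ec (τ u)).map fun e => g (dig e 0) + g (dig e 1) + g (dig e 2) +
      g (dig e 3) + g (dig e 4) + g (dig e 5)).sum =
      ((prs L).map fun x => g (τ x.1 x.2).val).sum := by
  induction L with
  | nil => rfl
  | cons u L ih =>
    have e : prs (u :: L) = (List.finRange 6).map (fun j => (u, j)) ++ prs L := by
      unfold prs; exact List.product_cons _ _ _
    rw [e, List.map_cons, List.map_cons, List.sum_cons, ih, List.map_append, List.sum_append,
      List.map_map, sum6]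
    rfl

theorem sum_ex {α : Type} {l : List α} {g : α → ℕ} (h : 1 ≤ (l.map g).sum) :
    ∃ x ∈ l, g x ≠ 0 := by
  by_contra hcon
  push Not at hcon
  have : (l.map g).sum = 0 := by
    rw [List.sum_eq_zero_iff]
    intro n hn
    obtain ⟨x, hx, rfl⟩ := List.mem_map.1 hn
    exact hcon x hx
  omega

theorem sum_pos {α : Type} {l : List α} {g : α → ℕ} {x : α} (hx : x ∈ l) (h : g x ≠ 0) :
    1 ≤ (l.map g).sum := by
  by_contra hcon
  have h1 : (l.map g).sum = 0 := by omega
  rw [List.sum_eq_zero_iff] at h1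
  exact h (h1 _ (List.mem_map_of_mem hx))

theorem sum_two {α : Type} {l : List α} (hl : l.Nodup) {g : α → ℕ} {x y : α} (hx : x ∈ l)
    (hy : y ∈ l) (hxy : x ≠ y) (gx : g x ≠ 0) (gy : g y ≠ 0) : 2 ≤ (l.map g).sum := by
  classical
  rw [← List.sum_toFinset g hl]
  have h1 : ∑ a ∈ ({x, y} : Finset α), g a ≤ ∑ a ∈ l.toFinset, g a := by
    apply Finset.sum_le_sum_of_subset
    intro a ha
    rw [Finset.mem_insert, Finset.mem_singleton] at ha
    rcases ha with rfl | rfl
    · exact List.mem_toFinset.2 hx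
    · exact List.mem_toFinset.2 hy
  rw [Finset.sum_pair hxy] at h1
  show 2 ≤ ∑ a ∈ l.toFinset, g a
  omega

theorem sum_le_one {α : Type} {l : List α} (hl : l.Nodup) {g : α → ℕ} (hg : ∀ x, g x ≤ 1)
    (h : ∀ x ∈ l, ∀ y ∈ l, g x ≠ 0 → g y ≠ 0 → x = y) : (l.map g).sum ≤ 1 := by
  classical
  by_cases h0 : ∃ x ∈ l, g x ≠ 0
  · obtain ⟨x, hx, gx⟩ := h0
    rw [← List.sum_toFinset g hl, Finset.sum_eq_single x]
    · exact hg x
    · intro y hy hne
      by_contra hy0
      exact hne (h y (List.mem_toFinset.1 hy) x hx hy0 gx)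
    · intro hx'
      exact absurd (List.mem_toFinset.2 hx) hx'
  · push Not at h0
    have : (l.map g).sum = 0 := by
      rw [List.sum_eq_zero_iff]
      intro n hn
      obtain ⟨x, hx, rfl⟩ := List.mem_map.1 hn
      exact h0 x hx
    omega

theorem isJ_56 : ∀ k : Fin 7, isJ k.val ≠ 0 → k.val = 5 ∨ k.val = 6 := by decide

theorem isV_le (d : ℕ) : isV d ≤ 1 := by unfold isV; split <;> omega
theorem isQ_le (d : ℕ) : isQ d ≤ 1 := by unfold isQ; split <;> omega
theorem isJ_le (d : ℕ) : isJ d ≤ 1 := by unfold isJ; split <;> omega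

theorem sV_reverse (b : List ℕ) : sV b.reverse = sV b := by
  unfold sV; rw [List.map_reverse, List.sum_reverse]
theorem sQ_reverse (b : List ℕ) : sQ b.reverse = sQ b := by
  unfold sQ; rw [List.map_reverse, List.sum_reverse]
theorem sJ_reverse (b : List ℕ) : sJ b.reverse = sJ b := by
  unfold sJ; rw [List.map_reverse, List.sum_reverse]

/-- the ends of a word -/
theorem mem_endsR {b : List ℕ} {t j e : ℕ} (h : b[t]? = some e) (hj : j < 6)
    (hd : dig e j ≠ 0) : (t, j, dig e j) ∈ endsR b.reverse := by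
  induction b using List.reverseRecOn with
  | nil => simp at h
  | append_singleton b e' ih =>
    rw [List.reverse_append, List.reverse_singleton, List.singleton_append]
    unfold endsR
    rw [List.mem_append]
    rcases lt_or_ge t b.length with h1 | h1
    · right
      rw [List.getElem?_append_left h1] at h
      exact ih h
    · left
      rw [List.getElem?_append_right h1] at h
      have h2 : t - b.length = 0 := by
        by_contra h3
        rw [List.getElem?_eq_none (by simp; omega)] at h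
        exact absurd h (by simp)
      rw [h2] at h
      simp only [List.getElem?_cons_zero, Option.some.injEq] at h
      subst h
      have h3 : t = b.length := by omega
      subst h3
      rw [List.mem_filterMap]
      refine ⟨j, ?_, ?_⟩
      · interval_cases j <;> simp
      · rw [if_neg hd, List.length_reverse]

/-! ### The theorem -/

variable {U : Fin 6 → Set ℂ} {T : ℂ → Set (Fin 6)} {z w v q : ℂ} {a b c d e f : Fin 6} {p r : ℝ}

theorem isV_lb {y : ℂ} (h : isV (H987.lb T z a b c d e f y).val ≠ 0) : T y = {a, b, e} := by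
  rcases lb_cases460 T z y a b c d e f with h1 | h1 | h1 | h1 | h1 | h1 | h1
  · exact h1.2
  · exact h1.2
  all_goals
    rw [h1.1] at h
    exact absurd rfl h

theorem isQ_lb {y : ℂ} (h : isQ (H987.lb T z a b c d e f y).val ≠ 0) : T y = {c, d, f} := by
  rcases lb_cases460 T z y a b c d e f with h1 | h1 | h1 | h1 | h1 | h1 | h1
  · rw [h1.1] at h
    exact absurd rfl h
  · rw [h1.1] at h
    exact absurd rfl h
  · exact h1.2
  · exact h1.2
  all_goals
    rw [h1.1] at h
    exact absurd rfl h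

theorem isJ_lb {y : ℂ} (h : isJ (H987.lb T z a b c d e f y).val ≠ 0) : T y = T z := by
  rcases lb_cases460 T z y a b c d e f with h1 | h1 | h1 | h1 | h1 | h1 | h1
  · rw [h1.1] at h
    exact absurd rfl h
  · rw [h1.1] at h
    exact absurd rfl h
  · rw [h1.1] at h
    exact absurd rfl h
  · rw [h1.1] at h
    exact absurd rfl h
  · exact h1.2
  · exact h1.2
  · rw [h1.1] at h
    exact absurd rfl h

theorem lb_isV (S : CzE U T z a b c d e f) {y : ℂ} (h : T y = {a, b, e}) :
    isV (H987.lb T z a b c d e f y).val ≠ 0 := by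
  rw [lb_V460 S h]
  split_ifs
  · exact one_ne_zero
  · exact one_ne_zero

theorem lb_isQ (S : CzE U T z a b c d e f) {y : ℂ} (h : T y = {c, d, f}) :
    isQ (H987.lb T z a b c d e f y).val ≠ 0 := by
  rw [lb_Q460 S h]
  split_ifs
  · exact one_ne_zero
  · exact one_ne_zero

theorem lb_isJ {y : ℂ} (h : T y = T z) : isJ (H987.lb T z a b c d e f y).val ≠ 0 := by
  unfold H987.lb
  rw [if_pos h]
  split_ifs
  · exact one_ne_zero
  · exact one_ne_zero

/-- **one `V` and one `Q` : exactly one J, far from both** -/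
theorem far11 (h : Irr U T) (w0 : ∀ y, dist y w = 1 → (T y).ncard ≤ 3 ∨ T y = T w)
    (h5 : ∀ x y, dist x y = 1 → 5 ≤ (T x).ncard → 4 ≤ (T y).ncard → False) (O : Is11 T w v q) :
    ∃ y, dist y w = 1 ∧ T y = T w ∧ (∀ x, dist x w = 1 → T x = T w → x = y) ∧
      1 < dist y v ∧ 1 < dist y q := by
  obtain ⟨a, b, c, d, e, f, p, p', r, r', -, Z, S, hfin, Tv, Tq⟩ := inst460 h w0 h5 O.ev O.eq O.c
  obtain ⟨L, hL, hL1, hLc, hclo⟩ := CzE.clo S Z hfin
  have hnd : L.Nodup := hL.imp fun h1 => h1.ne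
  have hpn := nodup_prs hnd
  -- every labelled point is in the list
  have hmem : ∀ x, dist x w = 1 → H987.lb T w a b c d e f x ≠ 0 →
      ∃ y ∈ prs L, x = qj w p y.1 y.2 := by
    intro x hx hl
    obtain ⟨u, j, hu0, hu1, rfl⟩ := exists_co hx p
    exact ⟨(u, j), mem_prs.2 (hLc u hu0 hu1 ⟨j, hl⟩), rfl⟩
  have hinj : ∀ x ∈ prs L, ∀ y ∈ prs L, qj w p x.1 x.2 = qj w p y.1 y.2 → x = y := by
    intro x hx y hy hxy
    have b1 := hL1 _ (mem_prs.1 hx)
    have b2 := hL1 _ (mem_prs.1 hy)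
    obtain ⟨e1, e2⟩ := co_inj b1.1 b1.2 b2.1 b2.2 hxy
    exact Prod.ext e1 e2
  have hdist : ∀ x : ℝ × Fin 6, dist (qj w p x.1 x.2) w = 1 := fun x => dist_pt _ _
  -- the counts
  have eV : sV (L.map fun u => ec (lam T w a b c d e f p u)) =
      ((prs L).map fun x => isV (lam T w a b c d e f p x.1 x.2).val).sum := sum_prs isV _ L
  have eQ : sQ (L.map fun u => ec (lam T w a b c d e f p u)) =
      ((prs L).map fun x => isQ (lam T w a b c d e f p x.1 x.2).val).sum := sum_prs isQ _ L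
  have eJ : sJ (L.map fun u => ec (lam T w a b c d e f p u)) =
      ((prs L).map fun x => isJ (lam T w a b c d e f p x.1 x.2).val).sum := sum_prs isJ _ L
  have nV : ∀ y, isV (H987.lb T w a b c d e f y).val ≠ 0 → H987.lb T w a b c d e f y ≠ 0 :=
    fun y hy h0 => by rw [h0] at hy; exact hy rfl
  have nQ : ∀ y, isQ (H987.lb T w a b c d e f y).val ≠ 0 → H987.lb T w a b c d e f y ≠ 0 :=
    fun y hy h0 => by rw [h0] at hy; exact hy rfl
  have nJ : ∀ y, isJ (H987.lb T w a b c d e f y).val ≠ 0 → H987.lb T w a b c d e f y ≠ 0 :=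
    fun y hy h0 => by rw [h0] at hy; exact hy rfl
  obtain ⟨xv, hxv, exv⟩ := hmem v O.ev.dist (nV _ (lb_isV S Tv))
  obtain ⟨xq, hxq, exq⟩ := hmem q O.eq.dist (nQ _ (lb_isQ S Tq))
  have sv1 : sV (L.map fun u => ec (lam T w a b c d e f p u)) = 1 := by
    rw [eV]
    apply le_antisymm
    · refine sum_le_one hpn (fun x => isV_le _) ?_
      intro x hx y hy gx gy
      have h1 := O.uv _ (hdist x) ((isV_lb gx).trans Tv.symm)
      have h2 := O.uv _ (hdist y) ((isV_lb gy).trans Tv.symm)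
      exact hinj x hx y hy (h1.trans h2.symm)
    · refine sum_pos hxv ?_
      have := lb_isV S Tv
      rw [exv] at this
      exact this
  have sq1 : sQ (L.map fun u => ec (lam T w a b c d e f p u)) = 1 := by
    rw [eQ]
    apply le_antisymm
    · refine sum_le_one hpn (fun x => isQ_le _) ?_
      intro x hx y hy gx gy
      have h1 := O.uq _ (hdist x) ((isQ_lb gx).trans Tq.symm)
      have h2 := O.uq _ (hdist y) ((isQ_lb gy).trans Tq.symm)
      exact hinj x hx y hy (h1.trans h2.symm)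
    · refine sum_pos hxq ?_
      have := lb_isQ S Tq
      rw [exq] at this
      exact this
  have hP := clo_test all11 hclo sv1.le sq1.le fun _ _ _ => rfl
  unfold P11 at hP
  rw [sV_reverse, sQ_reverse, if_pos ⟨sv1, sq1⟩, Bool.and_eq_true, beq_iff_eq, sJ_reverse,
    List.all_eq_true] at hP
  obtain ⟨hJ1, hall⟩ := hP
  obtain ⟨x, hx, gx⟩ := sum_ex (by rw [← eJ, hJ1] : 1 ≤
    ((prs L).map fun x => isJ (lam T w a b c d e f p x.1 x.2).val).sum)
  -- elements of the list of ends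
  have hend : ∀ y ∈ prs L, lam T w a b c d e f p y.1 y.2 ≠ 0 → ∃ t, L[t]? = some y.1 ∧
      (t, y.2.val, (lam T w a b c d e f p y.1 y.2).val) ∈
        endsR (L.map fun u => ec (lam T w a b c d e f p u)).reverse := by
    intro y hy hy0
    obtain ⟨t, ht⟩ := List.mem_iff_getElem?.1 (mem_prs.1 hy)
    refine ⟨t, ht, ?_⟩
    have h1 : (L.map fun u => ec (lam T w a b c d e f p u))[t]? =
        some (ec (lam T w a b c d e f p y.1)) := by rw [List.getElem?_map, ht]; rfl
    have h2 := mem_endsR h1 y.2.isLt (by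
      rw [dig_ec]
      intro h3
      exact hy0 (Fin.ext h3))
    rw [dig_ec] at h2
    exact h2
  have TJ : T (qj w p x.1 x.2) = T w := isJ_lb gx
  obtain ⟨tx, htx, mx⟩ := hend x hx (nJ _ gx)
  have h6 := hall _ mx
  have h56 : (lam T w a b c d e f p x.1 x.2).val = 5 ∨ (lam T w a b c d e f p x.1 x.2).val = 6 := by
    have h1 : isJ (lam T w a b c d e f p x.1 x.2).val ≠ 0 := gx
    exact isJ_56 _ h1
  simp only [h56, if_true, List.all_eq_true] at h6
  have hfar : ∀ y ∈ prs L, ∀ n : ℕ, (lam T w a b c d e f p y.1 y.2).val = n → n ≠ 0 → n ≠ 5 →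
      n ≠ 6 → 1 < dist (qj w p x.1 x.2) (qj w p y.1 y.2) := by
    intro y hy n hn n0 n5 n6
    obtain ⟨ty, hty, my⟩ := hend y hy (by
      intro h0
      rw [h0] at hn
      exact n0 hn.symm)
    have h7 := h6 _ my
    rw [hn] at h7
    simp only [Bool.or_eq_true, beq_iff_eq] at h7
    have h8 : farB tx x.2.val ty y.2.val = true := by
      rcases h7 with (h7 | h7) | h7
      · exact absurd h7 n5
      · exact absurd h7 n6
      · exact h7
    exact far_dist hL htx hty (hL1 _ (mem_prs.1 hx)) (hL1 _ (mem_prs.1 hy)) h8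
  refine ⟨qj w p x.1 x.2, hdist x, TJ, ?_, ?_, ?_⟩
  · intro y hy Ty
    obtain ⟨y', hy', rfl⟩ := hmem y hy (nJ _ (lb_isJ Ty))
    by_contra hne
    have hne' : x ≠ y' := fun h0 => hne (by rw [h0])
    have h7 := sum_two (g := fun x => isJ (lam T w a b c d e f p x.1 x.2).val) hpn hx hy' hne' gx
      (lb_isJ Ty)
    rw [← eJ, hJ1] at h7
    omega
  · rw [exv]
    have h7 : isV (lam T w a b c d e f p xv.1 xv.2).val ≠ 0 := by
      have := lb_isV S Tv
      rw [exv] at this
      exact this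
    refine hfar xv hxv _ rfl ?_ ?_ ?_
    all_goals
      intro h0
      rw [h0] at h7
      exact h7 rfl
  · rw [exq]
    have h7 : isQ (lam T w a b c d e f p xq.1 xq.2).val ≠ 0 := by
      have := lb_isQ S Tq
      rw [exq] at this
      exact this
    refine hfar xq hxq _ rfl ?_ ?_ ?_
    all_goals
      intro h0
      rw [h0] at h7
      exact h7 rfl

end Vale.Agent.P032.H546
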