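import Vale.Agent.P032.H546.FSnd
import Vale.Agent.P032.H546.FarT

/-!
# P032: the circular list of the labelled points

`circ τ L` : the labelled directions (time `u` in the slot `j` is the direction `j + u`) with their
labels, in increasing order.  `pat s` : the list of (slot, label) of the sequences `s`.
`CzF.words` : the circular list of a centre, with the closed word of 987.
-/

open Set Filter Topology Metric

noncomputable section

namespace Vale.Agent.P032.H546

open Vale.Agent.P032.Six Vale.Agent.P032.S5.H767 Vale.Agent.P032.S5.H349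
open Vale.Agent.P032.H987 hiding lb
open Vale.Agent.P032.H460

/-! ### Decoding -/

/-- the labels of a sequence with at most four labels -/
def dcd4 (b : ℕ) : List ℕ := [b / 4096 % 16, b / 256 % 16, b / 16 % 16, b % 16].filter (· != 0)

theorem dcd4_psh {b l : ℕ} (hl : l < 16) (h : psh b l < 65536) :
    dcd4 (psh b l) = dcd4 b ++ (if l = 0 then [] else [l]) := by
  by_cases h0 : l = 0
  · subst h0
    rw [psh_zero, if_pos rfl, List.append_nil]
  · rw [psh_pos b h0] at h ⊢
    rw [if_neg h0]
    unfold dcd4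
    have e0 : b / 4096 % 16 = 0 := by omega
    have e1 : (16 * b + l) / 4096 % 16 = b / 256 % 16 := by omega
    have e2 : (16 * b + l) / 256 % 16 = b / 16 % 16 := by omega
    have e3 : (16 * b + l) / 16 % 16 = b % 16 := by omega
    have e4 : (16 * b + l) % 16 = l := by omega
    rw [e0, e1, e2, e3, e4]
    have h1 : (l != 0) = true := by simpa using h0
    simp only [List.filter_cons, List.filter_nil, h1, bne_self_eq_false, if_true, Bool.false_eq_true,
      if_false]
    split_ifs <;> rfl

/-- packed sequences, unpacked -/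
def upk (f : ℕ) (j : Fin 6) : ℕ := f / 65536 ^ j.val % 65536

theorem upk_pk6 {s : Fin 6 → ℕ} (hs : ∀ j, s j < 65536) : upk (pk6 s) = s := by
  have s0 := hs 0
  have s1 := hs 1
  have s2 := hs 2
  have s3 := hs 3
  have s4 := hs 4
  have s5 := hs 5
  funext j
  fin_cases j
  · show pk6 s / 1 % 65536 = s 0
    unfold pk6; omega
  · show pk6 s / 65536 % 65536 = s 1
    unfold pk6; omega
  · show pk6 s / 4294967296 % 65536 = s 2
    unfold pk6; omega
  · show pk6 s / 281474976710656 % 65536 = s 3
    unfold pk6; omega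
  · show pk6 s / 18446744073709551616 % 65536 = s 4
    unfold pk6; omega
  · show pk6 s / 1208925819614629174706176 % 65536 = s 5
    unfold pk6; omega

/-- (slot, label) -/
def pat (s : Fin 6 → ℕ) : List (ℕ × ℕ) :=
  (List.finRange 6).flatMap fun j => (dcd4 (s j)).map fun x => (j.val, x)

/-! ### The circular list -/

/-- the directions and the labels -/
def circ (τ : ℝ → Fin 6 → Fin 11) (L : List ℝ) : List (ℝ × ℕ) :=
  (List.finRange 6).flatMap fun j =>
    (L.filter fun u => (τ u j).val != 0).map fun u => ((j.val : ℝ) + u, (τ u j).val)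

theorem mem_circ {τ : ℝ → Fin 6 → Fin 11} {L : List ℝ} {x : ℝ × ℕ} : x ∈ circ τ L ↔
    ∃ j : Fin 6, ∃ u ∈ L, τ u j ≠ 0 ∧ x = ((j.val : ℝ) + u, (τ u j).val) := by
  unfold circ
  rw [List.mem_flatMap]
  constructor
  · rintro ⟨j, -, hx⟩
    obtain ⟨u, hu, rfl⟩ := List.mem_map.1 hx
    rw [List.mem_filter] at hu
    refine ⟨j, u, hu.1, ?_, rfl⟩
    intro h0
    have := hu.2
    rw [h0] at this
    exact absurd this (by simp)
  · rintro ⟨j, u, hu, h0, rfl⟩
    refine ⟨j, List.mem_finRange j, List.mem_map.2 ⟨u, List.mem_filter.2 ⟨hu, ?_⟩, rfl⟩⟩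
    simp only [bne_iff_ne, ne_eq]
    exact fun h1 => h0 (Fin.ext h1)

theorem circ_sorted {τ : ℝ → Fin 6 → Fin 11} {L : List ℝ} (hL : L.Pairwise (· < ·))
    (hL1 : ∀ u ∈ L, 0 ≤ u ∧ u < 1) : ((circ τ L).map Prod.fst).Pairwise (· < ·) := by
  rw [List.pairwise_map]
  unfold circ
  rw [List.pairwise_flatMap]
  constructor
  · intro j _
    rw [List.pairwise_map]
    exact (hL.filter _).imp fun {u v} h => by show (j.val : ℝ) + u < (j.val : ℝ) + v; linarith
  · refine (List.pairwise_lt_finRange 6).imp fun {i j} hij x hx y hy => ?_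
    obtain ⟨u, hu, rfl⟩ := List.mem_map.1 hx
    obtain ⟨v, hv, rfl⟩ := List.mem_map.1 hy
    have h1 := hL1 u (List.mem_of_mem_filter hu)
    have h2 := hL1 v (List.mem_of_mem_filter hv)
    have h3 : (i.val : ℝ) + 1 ≤ (j.val : ℝ) := by exact_mod_cast hij
    show (i.val : ℝ) + u < (j.val : ℝ) + v
    linarith [h1.2, h2.1]

theorem psl_apply (l : List (Fin 6 → Fin 11)) : ∀ (s : Fin 6 → ℕ) (j : Fin 6),
    psl s l j = (l.map fun τ => (τ j).val).foldl psh (s j) := by
  induction l with
  | nil => intro s j; rfl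
  | cons τ l ih =>
    intro s j
    rw [psl_cons, ih, List.map_cons, List.foldl_cons]

theorem psh_le (b l : ℕ) : b ≤ psh b l := by
  by_cases h0 : l = 0
  · rw [h0, psh_zero]
  · rw [psh_pos b h0]; omega

theorem foldl_le (l : List ℕ) : ∀ b, b ≤ l.foldl psh b := by
  induction l with
  | nil => intro b; exact le_rfl
  | cons x l ih => intro b; exact (psh_le b x).trans (ih _)

theorem dcd4_foldl {l : List ℕ} (hl : ∀ x ∈ l, x < 16) : ∀ b, l.foldl psh b < 65536 →
    dcd4 (l.foldl psh b) = dcd4 b ++ l.filter (· != 0) := by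
  induction l with
  | nil => intro b _; simp
  | cons x l ih =>
    intro b h
    rw [List.foldl_cons] at h ⊢
    have h1 : psh b x < 65536 := lt_of_le_of_lt (foldl_le l _) h
    rw [ih (fun y hy => hl y (List.mem_cons_of_mem _ hy)) _ h, dcd4_psh (hl x List.mem_cons_self) h1,
      List.append_assoc]
    congr 1
    by_cases h0 : x = 0
    · subst h0
      rw [if_pos rfl, List.nil_append, List.filter_cons_of_neg (by simp)]
    · rw [if_neg h0, List.filter_cons_of_pos (by simpa using h0)]
      rfl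

/-- **the (slot, label) list of the circular list** -/
theorem circ_pat {τ : ℝ → Fin 6 → Fin 11} {L : List ℝ} (hL1 : ∀ u ∈ L, 0 ≤ u ∧ u < 1)
    (hb : ∀ j, psl (fun _ => 0) (L.map τ) j < 65536) :
    ((circ τ L).map fun x => (⌊x.1⌋₊, x.2)) = pat (psl (fun _ => 0) (L.map τ)) := by
  unfold circ pat
  rw [List.map_flatMap]
  congr 1
  funext j
  have h1 := hb j
  rw [psl_apply] at h1 ⊢
  have e0 : dcd4 0 = [] := by decide
  rw [dcd4_foldl (by
    intro x hx
    obtain ⟨σ, -, rfl⟩ := List.mem_map.1 hx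
    have := (σ j).isLt
    omega) _ h1, e0, List.nil_append, List.map_map, List.map_map]
  have e1 : ((L.map ((fun σ : Fin 6 → Fin 11 => (σ j).val) ∘ τ)).filter (· != 0)) =
      (L.filter fun u => (τ u j).val != 0).map fun u => (τ u j).val := by
    rw [List.filter_map]
    rfl
  rw [e1, List.map_map]
  apply List.map_congr_left
  intro u hu
  have h2 := hL1 u (List.mem_of_mem_filter hu)
  show (⌊(j.val : ℝ) + u⌋₊, (τ u j).val) = (j.val, (τ u j).val)
  have h3 : ⌊(j.val : ℝ) + u⌋₊ = j.val := by
    rw [Nat.floor_eq_iff (by have : (0 : ℝ) ≤ j.val := Nat.cast_nonneg _; linarith [h2.1])]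
    constructor
    · linarith [h2.1]
    · linarith [h2.2]
  rw [h3]

/-! ### Counts -/

theorem scv_prs (τ : ℝ → Fin 6 → Fin 11) (L : List ℝ) (i : Fin 5) :
    scv (L.map τ) i = ((prs L).map fun x => ind i (τ x.1 x.2).val).sum := by
  induction L with
  | nil => rfl
  | cons u L ih =>
    have e : prs (u :: L) = (List.finRange 6).map (fun j => (u, j)) ++ prs L := by
      unfold prs; exact List.product_cons _ _ _
    rw [e, List.map_cons, scv_cons, List.map_append, List.sum_append, ← ih, List.map_map]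
    show cvF (τ u) i + _ = _
    congr 1
    have e2 : List.finRange 6 = [0, 1, 2, 3, 4, 5] := by decide
    rw [e2]
    unfold cvF
    simp only [List.map_cons, List.map_nil, List.sum_cons, List.sum_nil, Function.comp_apply]
    omega

theorem ind_le (i : Fin 5) (x : ℕ) : ind i x ≤ 1 := by unfold ind; split_ifs <;> omega

/-- sum of an indicator over a list without repetition -/
theorem sum_ind {α : Type} {l : List α} (hl : l.Nodup) {g : α → ℕ} (hg : ∀ x, g x ≤ 1)
    {β : Type} {φ : α → β} (hφ : ∀ x ∈ l, ∀ y ∈ l, φ x = φ y → x = y) {S : Set β}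
    (hS : ∀ b, b ∈ S ↔ ∃ x ∈ l, g x ≠ 0 ∧ φ x = b) : (l.map g).sum = S.ncard := by
  classical
  have h1 : S = (((l.filter fun x => g x != 0).map φ).toFinset : Set β) := by
    ext b
    rw [hS b, Finset.mem_coe, List.mem_toFinset, List.mem_map]
    constructor
    · rintro ⟨x, hx, h0, rfl⟩
      exact ⟨x, List.mem_filter.2 ⟨hx, by simpa using h0⟩, rfl⟩
    · rintro ⟨x, hx, rfl⟩
      rw [List.mem_filter] at hx
      exact ⟨x, hx.1, by simpa using hx.2, rfl⟩
  have h2 : ((l.filter fun x => g x != 0).map φ).Nodup := by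
    refine List.Nodup.map_on (fun x hx y hy hxy => ?_) (hl.filter _)
    exact hφ x (List.mem_of_mem_filter hx) y (List.mem_of_mem_filter hy) hxy
  rw [h1, Set.ncard_coe_finset, List.toFinset_card_of_nodup h2, List.length_map]
  clear h1 h2 hS hφ hl
  induction l with
  | nil => rfl
  | cons a l ih =>
    rw [List.map_cons, List.sum_cons, ih]
    by_cases h0 : g a = 0
    · rw [List.filter_cons_of_neg (by simp [h0]), h0, zero_add]
    · have h1 : g a = 1 := by have := hg a; omega
      rw [List.filter_cons_of_pos (by simp [h0]), List.length_cons, h1]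
      omega

variable {U : Fin 6 → Set ℂ} {T : ℂ → Set (Fin 6)} {z : ℂ} {a b c d e f : Fin 6} {p q : ℝ}
  {g1 g2 : Bool}

/-- the counts of the word are the numbers of the points -/
theorem scv_ncard {L : List ℝ} (hL : L.Pairwise (· < ·)) (hL1 : ∀ u ∈ L, 0 ≤ u ∧ u < 1)
    (hLc : ∀ u, 0 ≤ u → u < 1 → (∃ j, lamF g1 g2 T z a b c d e f p u j ≠ 0) → u ∈ L)
    (i : Fin 5) : scv (L.map (lamF g1 g2 T z a b c d e f p)) i =
      {y | dist y z = 1 ∧ ind i (lbF g1 g2 T z a b c d e f y).val ≠ 0}.ncard := by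
  have hnd : L.Nodup := hL.imp fun h1 => h1.ne
  rw [scv_prs]
  refine sum_ind (nodup_prs hnd) (fun x => ind_le i _) (φ := fun x => qj z p x.1 x.2) ?_ ?_
  · intro x hx y hy hxy
    have b1 := hL1 _ (mem_prs.1 hx)
    have b2 := hL1 _ (mem_prs.1 hy)
    obtain ⟨e1, e2⟩ := co_inj b1.1 b1.2 b2.1 b2.2 hxy
    exact Prod.ext e1 e2
  · intro y
    constructor
    · rintro ⟨hy, h0⟩
      obtain ⟨u, j, hu0, hu1, rfl⟩ := exists_co hy p
      refine ⟨(u, j), mem_prs.2 (hLc u hu0 hu1 ⟨j, ?_⟩), h0, rfl⟩
      intro h1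
      have h2 : lbF g1 g2 T z a b c d e f (qj z p u j) = 0 := h1
      rw [h2] at h0
      revert h0
      revert i
      decide
    · rintro ⟨x, hx, h0, rfl⟩
      exact ⟨dist_pt _ _, h0⟩

end Vale.Agent.P032.H546
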