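import Vale.Agent.P032.H546.FW
import Vale.Agent.P032.H546.FCl

/-!
# P032: words of a centre with all labels

`words_of` : with a system of certificates `Sys`, the events of a centre with a `J`-partner in the
direction of the zone line `p` (label `6`) and the counts of the certificate pass the test `Q`.
`list_of` : the same for the circular list.
-/

open Set Filter Topology Metric

noncomputable section

namespace Vale.Agent.P032.H546

open Vale.Agent.P032.Six Vale.Agent.P032.S5.H767 Vale.Agent.P032.S5.H349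
open Vale.Agent.P032.H987 hiding lb
open Vale.Agent.P032.H460

/-- a system of certificates -/
structure Sys (P : Pr) (ev wp : ℕ → ℕ) (Q : ℕ → Bool) (cl : ℕ → ℕ) : Prop where
  c01 : ∃ GI G A1 I1 A2 I2, G ≤ 17 ∧ Cert1 P 0 (cl 1) (cl 0) GI G A1 I1 A2 I2 ev wp Q
  c11 : ∃ GI G A1 I1 A2 I2, G ≤ 17 ∧ Cert1 P 1 (cl 2) (cl 1) GI G A1 I1 A2 I2 ev wp Q
  c21 : ∃ GI G A1 I1 A2 I2, G ≤ 17 ∧ Cert1 P 2 (cl 3) (cl 2) GI G A1 I1 A2 I2 ev wp Q
  c10 : ∃ GI G A I, G ≤ 17 ∧ Cert0 P 1 (cl 1) GI G A I ev wp Q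
  c20 : ∃ GI G A I, G ≤ 17 ∧ Cert0 P 2 (cl 2) GI G A I ev wp Q
  mok : mck P 17 = true
  bnd : ∀ i, P.tv i ≤ 15
  cc : ∀ k, k < 4 → ckF ev wp (zn k) (zn k) (FC (cl k)) = true

theorem MOK.mono {P : Pr} {G G' : ℕ} (h : MOK P G) (hG : G' ≤ G) : MOK P G' :=
  fun gi hg => h gi (lt_of_lt_of_le hg hG)

variable {g1 g2 : Bool} {X : Fin 11 → Prop} {ev wp : ℕ → ℕ}

theorem cc_eq (hL : LabOK g1 g2 X ev wp) {k C : ℕ}
    (hc : ckF ev wp (zn k) (zn k) (FC C) = true) {h h' : Fin 6 → Fin 4} (z : Zok k h)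
    (z' : Zok k h') (t : EvF g1 g2 (fun _ => 0) h h') : clT C (cod h) = clT C (cod h') := by
  have h1 := ckF_sound hL.2.1 hc (zl_of z) (zl_of z') (tpF_of hL t fun _ => hL.2.2)
  unfold FC at h1
  have h2 := impR_mp h1 rfl
  rw [frc_eq, frc_eq] at h2
  exact Nat.eq_of_beq_eq_true h2

theorem zok_up {m : ℕ} {g : Fin 6 → Fin 4} (hg : Zok (m + 3) g) : Zok 3 g := by
  intro j
  have hj : j.val % 3 < 3 := Nat.mod_lt _ (by norm_num)
  exact ⟨fun _ => (hg j).1 (by omega), fun h2 => by omega⟩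

variable {U : Fin 6 → Set ℂ} {T : ℂ → Set (Fin 6)} {z : ℂ} {a b c d e f : Fin 6} {p q : ℝ}

theorem words_of (S : CzF g1 g2 U T z a b c d e f) (Z : Zn T z a b c d p q)
    (hfin : {y | dist y z = 1 ∧ lbF g1 g2 T z a b c d e f y ≠ 0}.Finite)
    (hL : LabOK g1 g2 X ev wp) (hX : ∀ y, X (lbF g1 g2 T z a b c d e f y)) {P : Pr} {Q : ℕ → Bool}
    {cl : ℕ → ℕ} (Y : Sys P ev wp Q cl) (hJ : lbF g1 g2 T z a b c d e f (pt z p) = 6)
    (hn : ∀ i, {y | dist y z = 1 ∧ ind i (lbF g1 g2 T z a b c d e f y).val ≠ 0}.ncard = P.tt i) :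
    ∃ L : List ℝ, L.Pairwise (· < ·) ∧ (∀ u ∈ L, 0 ≤ u ∧ u < 1) ∧
      (∀ u, 0 ≤ u → u < 1 → (∃ j, lamF g1 g2 T z a b c d e f p u j ≠ 0) → u ∈ L) ∧
      Q (pk6 (psl (fun _ => 0) (L.map (lamF g1 g2 T z a b c d e f p)))) = true ∧
      ∀ j, psl (fun _ => 0) (L.map (lamF g1 g2 T z a b c d e f p)) j < 65536 := by
  have hM := mok_of Y.mok
  have hJ0 : lamF g1 g2 T z a b c d e f p 0 0 = 6 := by
    show lbF g1 g2 T z a b c d e f (pt z (p + 0 + ((0 : ℕ) : ℝ))) = 6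
    rw [add_zero, Nat.cast_zero, add_zero]
    exact hJ
  have hXl : ∀ (l : List ℝ), ∀ τ ∈ l.map (lamF g1 g2 T z a b c d e f p), ∀ j, X (τ j) := by
    intro l τ hτ j
    obtain ⟨u, -, rfl⟩ := List.mem_map.1 hτ
    exact hX _
  have hsum : ∀ L : List ℝ, L.Pairwise (· < ·) → (∀ u ∈ L, 0 ≤ u ∧ u < 1) →
      (∀ u, 0 ≤ u → u < 1 → (∃ j, lamF g1 g2 T z a b c d e f p u j ≠ 0) → u ∈ L) →
      scv (L.map (lamF g1 g2 T z a b c d e f p)) = P.tt := by
    intro L h1 h2 h3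
    funext i
    rw [scv_ncard h1 h2 h3 i, hn i]
  obtain ⟨j0, s, hj0, hs0, hs1, hq, h1 | h1⟩ := S.zpath Z hfin
    (cl := fun k g => clT (cl (min k 3)) (cod g)) (by
      intro k h h' zk zk' t
      rcases Nat.lt_or_ge k 4 with hk | hk
      · have e : min k 3 = k := by omega
        show clT (cl (min k 3)) (cod h) = clT (cl (min k 3)) (cod h')
        rw [e]
        exact cc_eq hL (Y.cc k hk) zk zk' t
      · obtain ⟨m, rfl⟩ : ∃ m, k = m + 3 := ⟨k - 3, by omega⟩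
        have e : min (m + 3) 3 = 3 := by omega
        show clT (cl (min (m + 3) 3)) (cod h) = clT (cl (min (m + 3) 3)) (cod h')
        rw [e]
        exact cc_eq hL (Y.cc 3 (by omega)) (zok_up zk) (zok_up zk') t)
  · obtain ⟨rfl, hpos, l, h, h', hp, hl, hev, hz⟩ := h1
    have hz : ZChF g1 g2 j0 (fun g => clT (cl (min j0 3)) (cod g))
      (l.map (lamF g1 g2 T z a b c d e f p)) h' (fun j => h (j + 1)) := hz
    have e3 : min j0 3 = j0 := by omega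
    rw [e3] at hz
    have k1 : ((0 : ℝ) :: l).Pairwise (· < ·) := by
      rw [List.pairwise_cons]
      exact ⟨fun u hu => ((hl u).1 hu).1.1, hp⟩
    have k2 : ∀ u ∈ (0 : ℝ) :: l, 0 ≤ u ∧ u < 1 := by
      intro u hu
      rcases List.mem_cons.1 hu with rfl | hu
      · exact ⟨le_rfl, one_pos⟩
      · exact ⟨((hl u).1 hu).1.1.le, ((hl u).1 hu).1.2⟩
    have k3 : ∀ u, 0 ≤ u → u < 1 → (∃ j, lamF g1 g2 T z a b c d e f p u j ≠ 0) →
        u ∈ (0 : ℝ) :: l := by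
      intro u hu0 hu1 hj
      rcases hu0.eq_or_lt with h2 | h2
      · rw [← h2]; exact List.mem_cons_self
      · exact List.mem_cons_of_mem _ ((hl u).2 ⟨⟨h2, hu1⟩, hj⟩)
    have k4 := hsum _ k1 k2 k3
    refine ⟨0 :: l, k1, k2, k3, ?_⟩
    have hX' := hXl (0 :: l)
    rw [List.map_cons] at k4 hX' ⊢
    have h5 : j0 = 1 ∨ j0 = 2 := by omega
    rcases h5 with rfl | rfl
    · obtain ⟨GI, G, A, I, hG, C⟩ := Y.c10
      exact cert0 hL C (hM.mono hG) (by omega) Y.bnd hX' hev hJ0 hz k4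
    · obtain ⟨GI, G, A, I, hG, C⟩ := Y.c20
      exact cert0 hL C (hM.mono hG) (by omega) Y.bnd hX' hev hJ0 hz k4
  · obtain ⟨hpos, l, l', h, h', g, g', hp, hp', hl, hl', hev, hz, hev', hz'⟩ := h1
    have hz : ZChF g1 g2 (j0 + 1) (fun g => clT (cl (min (j0 + 1) 3)) (cod g))
      (l.map (lamF g1 g2 T z a b c d e f p)) h' g := hz
    have hz' : ZChF g1 g2 j0 (fun g => clT (cl (min j0 3)) (cod g))
      (l'.map (lamF g1 g2 T z a b c d e f p)) g' (fun j => h (j + 1)) := hz'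
    have e3 : min j0 3 = j0 := by omega
    have e4 : min (j0 + 1) 3 = j0 + 1 := by omega
    rw [e4] at hz
    rw [e3] at hz'
    have k1 : ((0 : ℝ) :: (l ++ s :: l')).Pairwise (· < ·) := by
      rw [List.pairwise_cons, List.pairwise_append, List.pairwise_cons]
      refine ⟨fun u hu => ?_, hp, ⟨fun u hu => ((hl' u).1 hu).1.1, hp'⟩, fun u hu v hv => ?_⟩
      · rcases List.mem_append.1 hu with hu | hu
        · exact ((hl u).1 hu).1.1
        · rcases List.mem_cons.1 hu with rfl | hu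
          · exact hpos
          · exact hpos.trans ((hl' u).1 hu).1.1
      · have h2 := ((hl u).1 hu).1.2
        rcases List.mem_cons.1 hv with rfl | hv
        · exact h2
        · exact h2.trans ((hl' v).1 hv).1.1
    have k2 : ∀ u ∈ (0 : ℝ) :: (l ++ s :: l'), 0 ≤ u ∧ u < 1 := by
      intro u hu
      rcases List.mem_cons.1 hu with rfl | hu
      · exact ⟨le_rfl, one_pos⟩
      rcases List.mem_append.1 hu with hu | hu
      · exact ⟨((hl u).1 hu).1.1.le, ((hl u).1 hu).1.2.trans hs1⟩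
      rcases List.mem_cons.1 hu with rfl | hu
      · exact ⟨hpos.le, hs1⟩
      · exact ⟨(hpos.trans ((hl' u).1 hu).1.1).le, ((hl' u).1 hu).1.2⟩
    have k3 : ∀ u, 0 ≤ u → u < 1 → (∃ j, lamF g1 g2 T z a b c d e f p u j ≠ 0) →
        u ∈ (0 : ℝ) :: (l ++ s :: l') := by
      intro u hu0 hu1 hj
      rcases hu0.eq_or_lt with h2 | h2
      · rw [← h2]; exact List.mem_cons_self
      refine List.mem_cons_of_mem _ ?_
      rcases lt_trichotomy u s with h3 | h3 | h3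
      · exact List.mem_append_left _ ((hl u).2 ⟨⟨h2, h3⟩, hj⟩)
      · rw [h3]; exact List.mem_append_right _ List.mem_cons_self
      · exact List.mem_append_right _ (List.mem_cons_of_mem _ ((hl' u).2 ⟨⟨h3, hu1⟩, hj⟩))
    have k4 := hsum _ k1 k2 k3
    refine ⟨0 :: (l ++ s :: l'), k1, k2, k3, ?_⟩
    have hX' := hXl (0 :: (l ++ s :: l'))
    rw [List.map_cons, List.map_append, List.map_cons] at k4 hX' ⊢
    have h5 : j0 = 0 ∨ j0 = 1 ∨ j0 = 2 := by omega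
    rcases h5 with rfl | rfl | rfl
    · obtain ⟨GI, G, A1, I1, A2, I2, hG, C⟩ := Y.c01
      exact cert1 hL C (hM.mono hG) (by omega) Y.bnd hX' hev hJ0 hz hev' hz' k4
    · obtain ⟨GI, G, A1, I1, A2, I2, hG, C⟩ := Y.c11
      exact cert1 hL C (hM.mono hG) (by omega) Y.bnd hX' hev hJ0 hz hev' hz' k4
    · obtain ⟨GI, G, A1, I1, A2, I2, hG, C⟩ := Y.c21
      exact cert1 hL C (hM.mono hG) (by omega) Y.bnd hX' hev hJ0 hz hev' hz' k4

/-- **the circular list of a centre** : directions `x.1` (from `p`, in units of 60 degrees), labels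
`x.2` -/
theorem list_of (S : CzF g1 g2 U T z a b c d e f) (Z : Zn T z a b c d p q)
    (hfin : {y | dist y z = 1 ∧ lbF g1 g2 T z a b c d e f y ≠ 0}.Finite)
    (hL : LabOK g1 g2 X ev wp) (hX : ∀ y, X (lbF g1 g2 T z a b c d e f y)) {P : Pr} {Q : ℕ → Bool}
    {cl : ℕ → ℕ} (Y : Sys P ev wp Q cl) {W : List (ℕ × ℕ) → Bool}
    (hW : ∀ x, Q x = true → W (pat (upk x)) = true)
    (hJ : lbF g1 g2 T z a b c d e f (pt z p) = 6)
    (hn : ∀ i, {y | dist y z = 1 ∧ ind i (lbF g1 g2 T z a b c d e f y).val ≠ 0}.ncard = P.tt i) :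
    ∃ l : List (ℝ × ℕ), (l.map Prod.fst).Pairwise (· < ·) ∧
      (∀ x ∈ l, 0 ≤ x.1 ∧ x.1 < 6 ∧ x.2 ≠ 0 ∧
        (lbF g1 g2 T z a b c d e f (pt z (p + x.1))).val = x.2) ∧
      (∀ t, 0 ≤ t → t < 6 → lbF g1 g2 T z a b c d e f (pt z (p + t)) ≠ 0 → ∃ x ∈ l, x.1 = t) ∧
      W (l.map fun x => (⌊x.1⌋₊, x.2)) = true := by
  obtain ⟨L, h1, h2, h3, h4, h5⟩ := words_of S Z hfin hL hX Y hJ hn
  have hpt : ∀ (u : ℝ) (j : Fin 6), qj z p u j = pt z (p + ((j.val : ℝ) + u)) := by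
    intro u j
    unfold qj
    congr 1
    ring
  refine ⟨circ (lamF g1 g2 T z a b c d e f p) L, circ_sorted h1 h2, ?_, ?_, ?_⟩
  · intro x hx
    obtain ⟨j, u, hu, h0, rfl⟩ := mem_circ.1 hx
    have h6 := h2 u hu
    have h7 : (j.val : ℝ) + 1 ≤ 6 := by exact_mod_cast j.isLt
    have h8 : (0 : ℝ) ≤ (j.val : ℝ) := Nat.cast_nonneg _
    refine ⟨by show 0 ≤ (j.val : ℝ) + u; linarith [h6.1], by
      show (j.val : ℝ) + u < 6; linarith [h6.2], fun h9 => h0 (Fin.ext h9), ?_⟩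
    show (lbF g1 g2 T z a b c d e f (pt z (p + ((j.val : ℝ) + u)))).val = _
    rw [← hpt]
    rfl
  · intro t ht0 ht1 ht
    have hj0 : ⌊t⌋₊ < 6 := by
      rw [Nat.floor_lt ht0]
      exact_mod_cast ht1
    have hf := Nat.floor_le ht0
    have hf' := Nat.lt_floor_add_one t
    have ee : ((⟨⌊t⌋₊, hj0⟩ : Fin 6).val : ℝ) + (t - (⌊t⌋₊ : ℝ)) = t := by
      show (⌊t⌋₊ : ℝ) + (t - (⌊t⌋₊ : ℝ)) = t
      ring
    have h6 : lamF g1 g2 T z a b c d e f p (t - (⌊t⌋₊ : ℝ)) ⟨⌊t⌋₊, hj0⟩ ≠ 0 := by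
      show lbF g1 g2 T z a b c d e f (qj z p _ _) ≠ 0
      rw [hpt, ee]
      exact ht
    refine ⟨(((⟨⌊t⌋₊, hj0⟩ : Fin 6).val : ℝ) + (t - (⌊t⌋₊ : ℝ)), _),
      mem_circ.2 ⟨⟨⌊t⌋₊, hj0⟩, t - (⌊t⌋₊ : ℝ), h3 _ (by linarith) (by linarith) ⟨_, h6⟩, h6, rfl⟩, ee⟩
  · rw [circ_pat h2 h5]
    have h6 := hW _ h4
    rw [upk_pk6 h5] at h6
    exact h6

end Vale.Agent.P032.H546
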