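import Vale.Agent.P032.H546.FarT
import Vale.Agent.P032.H460.HB
import Vale.Agent.P032.H471.Inst

/-!
# P032: hypotheses `hB`, `hC` of `no_22`, `no_11`

`hB546` : at every centre with one end of each of two complementary palettes.
`no11_of546` : only `hA` is left.
-/

open Set Filter Topology Metric

noncomputable section

namespace Vale.Agent.P032.H546

open Vale.Agent.P032.Six Vale.Agent.P032.S5.H767 Vale.Agent.P032.S5.H349
open Vale.Agent.P032.H460 Vale.Agent.P032.H533 Vale.Agent.P032.H471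

variable {U : Fin 6 → Set ℂ} {T : ℂ → Set (Fin 6)}

/-- hypothesis `hB` of `no_22`, at every `Is11` -/
theorem hB546 (h : Irr U T) (hJ : OnlyJC T)
    (h5 : ∀ x y, dist x y = 1 → 5 ≤ (T x).ncard → 4 ≤ (T y).ncard → False) (w v q : ℂ)
    (O : Is11 T w v q) : (∃ y, dist y w = 1 ∧ 4 ≤ (T y).ncard) ∧
      ∃ v1 v2 q1 q2, AA T w v v1 ∧ AA T w q q1 ∧ Is22 T w v1 v2 q1 q2 := by
  have w0 : ∀ y, dist y w = 1 → (T y).ncard ≤ 3 ∨ T y = T w := fun y hy =>
    hJ w v q y O.ev O.eq O.c hy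
  exact hB460 h w0 O (far11 h w0 h5 O)

/-- **no `Is22` and no `Is11`, from `hA`** -/
theorem no11_of546 (h : Irr U T) (hmin : Mn U T) (hJ : OnlyJC T)
    (h5 : ∀ x y, dist x y = 1 → 5 ≤ (T x).ncard → 4 ≤ (T y).ncard → False)
    (hA : ∀ z v v' q q', Is22 T z v v' q q' → Is11 T (v + q - z) v q ∧
      T (v + q - z) ∩ T q = T (v + q' - z) ∩ T q ∧ T (v + q - z) ∩ T v = T (v' + q - z) ∩ T v) :
    (∀ z v v' q q', ¬ Is22 T z v v' q q') ∧ ∀ w v q, ¬ Is11 T w v q := by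
  have h54 : ∀ x y, 5 ≤ (T x).ncard → 4 ≤ (T y).ncard → dist x y ≠ 1 := fun x y hx hy hd =>
    h5 x y hd hx hy
  have hB := hB546 h hJ h5
  refine ⟨no_22 h hmin h54 hA fun w v q N => hB w v q N.1, ?_⟩
  refine no_11 h hmin h54 hA (fun w v q N => hB w v q N.1) fun w v q O => ?_
  obtain ⟨-, v1, v2, q1, q2, -, -, I⟩ := hB w v q O
  exact ⟨v1, v2, q1, q2, I⟩

end Vale.Agent.P032.H546
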