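import Mathlib

/-!
# P032: functions which the kernel evaluates quickly, and the search of words

`allR, anyR, filR, getR` : by the recursor of lists; `frc` forces the value of a number.
`Rn T w c c'` : run of the word `w` through the table `T`; entries `(e, nV, nQ, d)`.
`dfs T G K n c w v q` : all words (without the event vector `0`) from the class `c` with at most `v`, `q`
events and at most `n` letters which end in a state with `G` pass the test `K`.
-/

namespace Vale.Agent.P032.H546

noncomputable def allR {α : Type} (p : α → Bool) (l : List α) : Bool :=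
  @List.rec α (fun _ => Bool) true (fun a _ ih => @Bool.rec (fun _ => Bool) false ih (p a)) l

noncomputable def anyR {α : Type} (p : α → Bool) (l : List α) : Bool :=
  @List.rec α (fun _ => Bool) false (fun a _ ih => @Bool.rec (fun _ => Bool) ih true (p a)) l

noncomputable def filR {α : Type} (p : α → Bool) (l : List α) : List α :=
  @List.rec α (fun _ => List α) [] (fun a _ ih => @Bool.rec (fun _ => List α) ih (a :: ih) (p a)) l

noncomputable def impR (b c : Bool) : Bool := @Bool.rec (fun _ => Bool) true c b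
noncomputable def andR (b c : Bool) : Bool := @Bool.rec (fun _ => Bool) false c b
noncomputable def orR (b c : Bool) : Bool := @Bool.rec (fun _ => Bool) c true b

noncomputable def getR {α : Type} (l : List (List α)) : ℕ → List α :=
  @List.rec (List α) (fun _ => ℕ → List α) (fun _ => [])
    (fun a _ ih n => @Nat.rec (fun _ => List α) a (fun m _ => ih m) n) l

/-- force the value of a number -/
noncomputable def frc (n : ℕ) (f : ℕ → Bool) : Bool :=
  @Nat.rec (fun _ => Bool) (f 0) (fun m _ => f (Nat.succ m)) n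

theorem frc_eq (n : ℕ) (f : ℕ → Bool) : frc n f = f n := by cases n <;> rfl

theorem impR_mp {b c : Bool} (h : impR b c = true) (hb : b = true) : c = true := by
  subst hb; exact h

theorem andR_eq {b c : Bool} : andR b c = true ↔ b = true ∧ c = true := by
  cases b <;> cases c <;> simp [andR]

theorem orR_eq {b c : Bool} : orR b c = true ↔ b = true ∨ c = true := by
  cases b <;> cases c <;> simp [orR]

theorem allR_iff {α : Type} {p : α → Bool} {l : List α} : allR p l = true ↔ ∀ x ∈ l, p x = true := by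
  induction l with
  | nil => exact ⟨fun _ x hx => absurd hx List.not_mem_nil, fun _ => rfl⟩
  | cons a l ih =>
    have e : allR p (a :: l) = @Bool.rec (fun _ => Bool) false (allR p l) (p a) := rfl
    rw [e]
    cases h : p a
    · constructor
      · intro h1; exact Bool.noConfusion (show false = true from h1)
      · intro h1; rw [h1 a List.mem_cons_self] at h; exact Bool.noConfusion h
    · show allR p l = true ↔ _
      rw [ih]
      constructor
      · intro h1 x hx
        rcases List.mem_cons.1 hx with rfl | h2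
        · exact h
        · exact h1 x h2
      · intro h1 x hx
        exact h1 x (List.mem_cons_of_mem _ hx)

theorem anyR_iff {α : Type} {p : α → Bool} {l : List α} : anyR p l = true ↔ ∃ x ∈ l, p x = true := by
  induction l with
  | nil => exact ⟨fun h => Bool.noConfusion (show false = true from h),
      fun ⟨x, hx, _⟩ => absurd hx List.not_mem_nil⟩
  | cons a l ih =>
    have e : anyR p (a :: l) = @Bool.rec (fun _ => Bool) (anyR p l) true (p a) := rfl
    rw [e]
    cases h : p a
    · show anyR p l = true ↔ _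
      rw [ih]
      constructor
      · rintro ⟨x, hx, h1⟩; exact ⟨x, List.mem_cons_of_mem _ hx, h1⟩
      · rintro ⟨x, hx, h1⟩
        rcases List.mem_cons.1 hx with rfl | h2
        · rw [h] at h1; exact absurd h1 (by decide)
        · exact ⟨x, h2, h1⟩
    · exact ⟨fun _ => ⟨a, List.mem_cons_self, h⟩, fun _ => rfl⟩

theorem mem_filR {α : Type} {p : α → Bool} {l : List α} {x : α} :
    x ∈ filR p l ↔ x ∈ l ∧ p x = true := by
  induction l with
  | nil => exact ⟨fun h => absurd h List.not_mem_nil, fun h => absurd h.1 List.not_mem_nil⟩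
  | cons a l ih =>
    have e : filR p (a :: l) = @Bool.rec (fun _ => List α) (filR p l) (a :: filR p l) (p a) := rfl
    rw [e]
    cases h : p a
    · show x ∈ filR p l ↔ _
      rw [ih, List.mem_cons]
      constructor
      · rintro ⟨h1, h2⟩; exact ⟨Or.inr h1, h2⟩
      · rintro ⟨rfl | h1, h2⟩
        · rw [h] at h2; exact absurd h2 (by decide)
        · exact ⟨h1, h2⟩
    · show x ∈ a :: filR p l ↔ _
      rw [List.mem_cons, ih, List.mem_cons]
      constructor
      · rintro (rfl | ⟨h1, h2⟩)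
        · exact ⟨Or.inl rfl, h⟩
        · exact ⟨Or.inr h1, h2⟩
      · rintro ⟨rfl | h1, h2⟩
        · exact Or.inl rfl
        · exact Or.inr ⟨h1, h2⟩

/-- the table `T` contains the event vector `e` from the class `c` to the class `d` -/
noncomputable def memT (T : List (List (ℕ × ℕ × ℕ × ℕ))) (c e d : ℕ) : Bool :=
  anyR (fun x => andR (Nat.beq x.1 e) (Nat.beq x.2.2.2 d)) (getR T c)

theorem memT_iff {T : List (List (ℕ × ℕ × ℕ × ℕ))} {c e d : ℕ} :
    memT T c e d = true ↔ ∃ x ∈ getR T c, x.1 = e ∧ x.2.2.2 = d := by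
  unfold memT
  rw [anyR_iff]
  constructor
  · rintro ⟨x, hx, h1⟩
    rw [andR_eq] at h1
    exact ⟨x, hx, Nat.eq_of_beq_eq_true h1.1, Nat.eq_of_beq_eq_true h1.2⟩
  · rintro ⟨x, hx, h1, h2⟩
    refine ⟨x, hx, ?_⟩
    rw [andR_eq, h1, h2]
    exact ⟨Nat.beq_refl e, Nat.beq_refl d⟩

theorem getR_sub {α : Type} {l : List (List α)} {n : ℕ} {x : α} (h : x ∈ getR l n) :
    ∃ r ∈ l, x ∈ r := by
  induction l generalizing n with
  | nil => exact absurd h List.not_mem_nil
  | cons a l ih =>
    cases n with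
    | zero => exact ⟨a, List.mem_cons_self, h⟩
    | succ m =>
      obtain ⟨r, hr, hx⟩ := ih (n := m) h
      exact ⟨r, List.mem_cons_of_mem _ hr, hx⟩

/-! ### Counting -/

/-- digits in base eight -/
def dig (e j : ℕ) : ℕ := (e / 8 ^ j) % 8

/-- one if the digit is `1` or `2` -/
def isV (d : ℕ) : ℕ := match d with | 1 => 1 | 2 => 1 | _ => 0
/-- one if the digit is `3` or `4` -/
def isQ (d : ℕ) : ℕ := match d with | 3 => 1 | 4 => 1 | _ => 0
/-- one if the digit is `5` or `6` -/
def isJ (d : ℕ) : ℕ := match d with | 5 => 1 | 6 => 1 | _ => 0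

def cV (e : ℕ) : ℕ := isV (dig e 0) + isV (dig e 1) + isV (dig e 2) + isV (dig e 3) +
  isV (dig e 4) + isV (dig e 5)
def cQ (e : ℕ) : ℕ := isQ (dig e 0) + isQ (dig e 1) + isQ (dig e 2) + isQ (dig e 3) +
  isQ (dig e 4) + isQ (dig e 5)
def cJ (e : ℕ) : ℕ := isJ (dig e 0) + isJ (dig e 1) + isJ (dig e 2) + isJ (dig e 3) +
  isJ (dig e 4) + isJ (dig e 5)

def sV (w : List ℕ) : ℕ := (w.map cV).sum
def sQ (w : List ℕ) : ℕ := (w.map cQ).sum
def sJ (w : List ℕ) : ℕ := (w.map cJ).sum

theorem sV_cons (e : ℕ) (w : List ℕ) : sV (e :: w) = cV e + sV w := by simp [sV]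
theorem sQ_cons (e : ℕ) (w : List ℕ) : sQ (e :: w) = cQ e + sQ w := by simp [sQ]

/-- the counts of a table are right -/
def Cok (T : List (List (ℕ × ℕ × ℕ × ℕ))) : Prop :=
  ∀ r ∈ T, ∀ x ∈ r, x.2.1 = cV x.1 ∧ x.2.2.1 = cQ x.1

instance (T : List (List (ℕ × ℕ × ℕ × ℕ))) : Decidable (Cok T) := by unfold Cok; infer_instance

/-! ### The search -/

/-- run of a word -/
def Rn (T : List (List (ℕ × ℕ × ℕ × ℕ))) : List ℕ → ℕ → ℕ → Prop
  | [], c, c' => c = c'
  | e :: w, c, c' => ∃ d, memT T c e d = true ∧ Rn T w d c'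

/-- the possible steps -/
noncomputable def opts (T : List (List (ℕ × ℕ × ℕ × ℕ))) (c v q : ℕ) : List (ℕ × ℕ × ℕ × ℕ) :=
  filR (fun x => andR (Nat.ble 1 x.1) (andR (Nat.ble x.2.1 v) (Nat.ble x.2.2.1 q))) (getR T c)

/-- a goal can be reached -/
noncomputable def al (T : List (List (ℕ × ℕ × ℕ × ℕ))) (G : ℕ → ℕ → ℕ → Bool) :
    ℕ → ℕ → ℕ → ℕ → Bool := fun n =>
  @Nat.rec (fun _ => ℕ → ℕ → ℕ → Bool) (fun c v q => G c v q)
    (fun _ ih c v q => orR (G c v q) (anyR (fun x => frc x.2.2.2 fun d =>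
      frc (Nat.sub v x.2.1) fun v' => frc (Nat.sub q x.2.2.1) fun q' => ih d v' q') (opts T c v q))) n

theorem al_succ {T : List (List (ℕ × ℕ × ℕ × ℕ))} {G : ℕ → ℕ → ℕ → Bool} (n c v q : ℕ) :
    al T G (n + 1) c v q = orR (G c v q) (anyR (fun x => al T G n x.2.2.2 (v - x.2.1) (q - x.2.2.1))
      (opts T c v q)) := by
  have e : (fun x : ℕ × ℕ × ℕ × ℕ => frc x.2.2.2 fun d =>
      frc (Nat.sub v x.2.1) fun v' => frc (Nat.sub q x.2.2.1) fun q' => al T G n d v' q') =
      fun x => al T G n x.2.2.2 (v - x.2.1) (q - x.2.2.1) := by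
    funext x
    rw [frc_eq, frc_eq, frc_eq]
    rfl
  rw [← e]
  rfl

/-- the steps after which a goal can be reached -/
noncomputable def optA (T : List (List (ℕ × ℕ × ℕ × ℕ))) (G : ℕ → ℕ → ℕ → Bool) (n c v q : ℕ) :
    List (ℕ × ℕ × ℕ × ℕ) :=
  filR (fun x => frc x.2.2.2 fun d =>
      frc (Nat.sub v x.2.1) fun v' => frc (Nat.sub q x.2.2.1) fun q' => al T G n d v' q')
    (opts T c v q)

/-- all words whose prefixes satisfy `F` pass the test; `w` = the earlier letters, reversed -/
noncomputable def dfs (T : List (List (ℕ × ℕ × ℕ × ℕ))) (F : List ℕ → Bool)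
    (G : ℕ → ℕ → ℕ → Bool) (K : ℕ → List ℕ → ℕ → ℕ → Bool) : ℕ → ℕ → List ℕ → ℕ → ℕ → Bool := fun n =>
  @Nat.rec (fun _ => ℕ → List ℕ → ℕ → ℕ → Bool) (fun c w v q => impR (G c v q) (K c w v q))
    (fun m ih c w v q => andR (impR (G c v q) (K c w v q)) (allR (fun x => frc x.2.2.2 fun d =>
      frc (Nat.sub v x.2.1) fun v' => frc (Nat.sub q x.2.2.1) fun q' => frc x.1 fun e =>
        impR (F (e :: w)) (ih d (e :: w) v' q')) (optA T G m c v q))) n

theorem dfs_succ {T : List (List (ℕ × ℕ × ℕ × ℕ))} {F : List ℕ → Bool} {G : ℕ → ℕ → ℕ → Bool}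
    {K : ℕ → List ℕ → ℕ → ℕ → Bool} (n c : ℕ) (w : List ℕ) (v q : ℕ) :
    dfs T F G K (n + 1) c w v q = andR (impR (G c v q) (K c w v q)) (allR (fun x =>
      impR (F (x.1 :: w)) (dfs T F G K n x.2.2.2 (x.1 :: w) (v - x.2.1) (q - x.2.2.1)))
      (optA T G n c v q)) := by
  have e : (fun x : ℕ × ℕ × ℕ × ℕ => frc x.2.2.2 fun d =>
      frc (Nat.sub v x.2.1) fun v' => frc (Nat.sub q x.2.2.1) fun q' => frc x.1 fun e =>
        impR (F (e :: w)) (dfs T F G K n d (e :: w) v' q')) =
      fun x => impR (F (x.1 :: w))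
        (dfs T F G K n x.2.2.2 (x.1 :: w) (v - x.2.1) (q - x.2.2.1)) := by
    funext x
    rw [frc_eq, frc_eq, frc_eq, frc_eq]
    rfl
  rw [← e]
  rfl

theorem mem_opts {T : List (List (ℕ × ℕ × ℕ × ℕ))} {c v q : ℕ} {x : ℕ × ℕ × ℕ × ℕ}
    (hx : x ∈ getR T c) (h0 : x.1 ≠ 0) (hv : x.2.1 ≤ v) (hq : x.2.2.1 ≤ q) :
    x ∈ opts T c v q := by
  unfold opts
  rw [mem_filR]
  refine ⟨hx, ?_⟩
  rw [andR_eq, andR_eq]
  refine ⟨Nat.ble_eq_true_of_le (by omega), Nat.ble_eq_true_of_le hv, Nat.ble_eq_true_of_le hq⟩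

theorem mem_optA {T : List (List (ℕ × ℕ × ℕ × ℕ))} {G : ℕ → ℕ → ℕ → Bool} {n c v q : ℕ}
    {x : ℕ × ℕ × ℕ × ℕ} (hx : x ∈ opts T c v q)
    (h : al T G n x.2.2.2 (v - x.2.1) (q - x.2.2.1) = true) : x ∈ optA T G n c v q := by
  unfold optA
  rw [mem_filR]
  refine ⟨hx, ?_⟩
  rw [frc_eq, frc_eq, frc_eq]
  exact h

theorem al_sound {T : List (List (ℕ × ℕ × ℕ × ℕ))} (hT : Cok T) {G : ℕ → ℕ → ℕ → Bool} :
    ∀ {n : ℕ} {u : List ℕ} {c v q c' : ℕ}, Rn T u c c' → (∀ e ∈ u, e ≠ 0) → sV u ≤ v → sQ u ≤ q →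
      u.length ≤ n → G c' (v - sV u) (q - sQ u) = true → al T G n c v q = true := by
  intro n
  induction n with
  | zero =>
    intro u c v q c' hr _ _ _ hn hG
    have : u = [] := List.length_eq_zero_iff.1 (by omega)
    subst this
    rw [show c = c' from hr]
    simpa [sV, sQ, al] using hG
  | succ n ih =>
    intro u c v q c' hr h0 hv hq hn hG
    rw [al_succ, orR_eq]
    cases u with
    | nil =>
      left
      rw [show c = c' from hr]
      simpa [sV, sQ] using hG
    | cons e u =>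
      right
      obtain ⟨d, hm, hr'⟩ := hr
      obtain ⟨x, hx, h1, h2⟩ := memT_iff.1 hm
      obtain ⟨r, hrT, hxr⟩ := getR_sub hx
      obtain ⟨e1, e2⟩ := hT r hrT x hxr
      rw [sV_cons] at hv hG
      rw [sQ_cons] at hq hG
      rw [h1] at e1 e2
      rw [anyR_iff]
      refine ⟨x, mem_opts hx (by rw [h1]; exact h0 e List.mem_cons_self) (by omega) (by omega), ?_⟩
      rw [h2]
      refine ih hr' (fun e' h => h0 e' (List.mem_cons_of_mem _ h)) (by omega) (by omega)
        (by simp only [List.length_cons] at hn; omega) ?_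
      rw [show v - x.2.1 - sV u = v - (cV e + sV u) by omega,
          show q - x.2.2.1 - sQ u = q - (cQ e + sQ u) by omega]
      exact hG

theorem dfs_sound {T : List (List (ℕ × ℕ × ℕ × ℕ))} (hT : Cok T) {F : List ℕ → Bool}
    {G : ℕ → ℕ → ℕ → Bool} {K : ℕ → List ℕ → ℕ → ℕ → Bool} :
    ∀ {n : ℕ} {u : List ℕ} {c v q c' : ℕ} {w : List ℕ}, dfs T F G K n c w v q = true →
      Rn T u c c' → (∀ e ∈ u, e ≠ 0) → sV u ≤ v → sQ u ≤ q → u.length ≤ n →
      (∀ s, s <+: u → s ≠ [] → F (s.reverse ++ w) = true) →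
      G c' (v - sV u) (q - sQ u) = true →
      K c' (u.reverse ++ w) (v - sV u) (q - sQ u) = true := by
  intro n
  induction n with
  | zero =>
    intro u c v q c' w hd hr _ _ _ hn _ hG
    have : u = [] := List.length_eq_zero_iff.1 (by omega)
    subst this
    have hr : c = c' := hr
    subst hr
    have hd : impR (G c v q) (K c w v q) = true := hd
    have h1 := impR_mp hd (by simpa [sV, sQ] using hG)
    simpa [sV, sQ] using h1
  | succ n ih =>
    intro u c v q c' w hd hr h0 hv hq hn hF hG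
    rw [dfs_succ, andR_eq] at hd
    cases u with
    | nil =>
      have hr : c = c' := hr
      subst hr
      have h1 := impR_mp hd.1 (by simpa [sV, sQ] using hG)
      simpa [sV, sQ] using h1
    | cons e u =>
      obtain ⟨d, hm, hr'⟩ := hr
      obtain ⟨x, hx, h1, h2⟩ := memT_iff.1 hm
      obtain ⟨r, hrT, hxr⟩ := getR_sub hx
      obtain ⟨e1, e2⟩ := hT r hrT x hxr
      rw [sV_cons] at hv hG
      rw [sQ_cons] at hq hG
      rw [h1] at e1 e2
      have h0' : ∀ e' ∈ u, e' ≠ 0 := fun e' h => h0 e' (List.mem_cons_of_mem _ h)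
      have hlen : u.length ≤ n := by simp only [List.length_cons] at hn; omega
      have hvu : sV u ≤ v - x.2.1 := by omega
      have hqu : sQ u ≤ q - x.2.2.1 := by omega
      have ev : v - x.2.1 - sV u = v - (cV e + sV u) := by omega
      have eq : q - x.2.2.1 - sQ u = q - (cQ e + sQ u) := by omega
      have hG' : G c' (v - x.2.1 - sV u) (q - x.2.2.1 - sQ u) = true := by rw [ev, eq]; exact hG
      have hmem : x ∈ optA T G n c v q := by
        refine mem_optA (mem_opts hx (by rw [h1]; exact h0 e List.mem_cons_self) (by omega)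
          (by omega)) ?_
        rw [h2]
        exact al_sound hT hr' h0' hvu hqu hlen hG'
      have h3 := allR_iff.1 hd.2 x hmem
      rw [h2, h1] at h3
      have hF1 : F (e :: w) = true := by
        have := hF [e] (by rw [List.cons_prefix_cons]; exact ⟨rfl, List.nil_prefix⟩) (by simp)
        simpa using this
      have h4 := ih (impR_mp h3 hF1) hr' h0' hvu hqu hlen (fun s hs hne => by
        have := hF (e :: s) (by rw [List.cons_prefix_cons]; exact ⟨rfl, hs⟩) (by simp)
        simpa using this) hG'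
      rw [sV_cons, sQ_cons, List.reverse_cons, List.append_assoc]
      rw [← ev, ← eq]
      exact h4

end Vale.Agent.P032.H546
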