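import Vale.Agent.P032.H546.Tab

/-!
# P032: closed words of a centre with complementary ends

`Clo b` : `b` (the event vectors of the blocks in time order, the first one is the time `0`) is a
closed word of the tables.
`allB F P V Q` : the search; `clo_test` : its soundness.
-/

namespace Vale.Agent.P032.H546

/-! ### The counts -/

theorem cok_t0 : Cok tr0 := by decide +kernel
theorem cok_t1 : Cok tr1 := by decide +kernel
theorem cok_t2 : Cok tr2 := by decide +kernel
theorem cok_t3 : Cok tr3 := by decide +kernel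
theorem cok_m0 : Cok mi0 := by decide +kernel
theorem cok_m1 : Cok mi1 := by decide +kernel
theorem cok_m2 : Cok mi2 := by decide +kernel
theorem cok_s01 : Cok st01 := by decide +kernel
theorem cok_s10 : Cok st10 := by decide +kernel
theorem cok_s11 : Cok st11 := by decide +kernel
theorem cok_s20 : Cok st20 := by decide +kernel
theorem cok_s21 : Cok st21 := by decide +kernel

theorem cok_t (k : ℕ) : Cok (trT k) := by
  match k with
  | 0 => exact cok_t0
  | 1 => exact cok_t1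
  | 2 => exact cok_t2
  | _ + 3 => exact cok_t3

theorem cok_m (k : ℕ) : Cok (miT k) := by
  match k with
  | 0 => exact cok_m0
  | 1 => exact cok_m1
  | _ + 2 => exact cok_m2

theorem cok_s (k : ℕ) (s : Bool) : Cok (stT k s) := by
  match k, s with
  | 0, true => exact cok_s01
  | 0, false => exact cok_s01
  | 1, true => exact cok_s11
  | 1, false => exact cok_s10
  | _ + 2, true => exact cok_s21
  | _ + 2, false => exact cok_s20

/-! ### Closed words -/

/-- closed words, the second zone line at the time `0` -/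
def CW0 (j0 e0 : ℕ) (w : List ℕ) : Prop :=
  ∃ c0 g, memT (stT j0 false) c0 e0 g = true ∧ Rn (trT j0) w c0 g

/-- closed words, the second zone line at a positive time -/
def CW1 (j0 e0 : ℕ) (w : List ℕ) (es : ℕ) (w' : List ℕ) : Prop :=
  ∃ c0 g c1 c2, memT (stT j0 true) c0 e0 g = true ∧ Rn (trT (j0 + 1)) w c0 c1 ∧
    memT (miT j0) c1 es c2 = true ∧ Rn (trT j0) w' c2 g

/-- closed words (event vectors of the blocks in time order) -/
def Clo (b : List ℕ) : Prop :=
  (∃ j0 e0 w, (j0 = 1 ∨ j0 = 2) ∧ b = e0 :: w ∧ (∀ e ∈ w, e ≠ 0) ∧ (∀ e ∈ w, 1 ≤ cV e + cQ e) ∧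
    CW0 j0 e0 w) ∨
  ∃ j0 e0 w es w', j0 < 3 ∧ b = e0 :: (w ++ es :: w') ∧ (∀ e ∈ w, e ≠ 0) ∧
    (∀ e ∈ w, 1 ≤ cV e + cQ e) ∧ (∀ e ∈ w', e ≠ 0) ∧ (∀ e ∈ w', 1 ≤ cV e + cQ e) ∧
    CW1 j0 e0 w es w'

/-- the search, second zone line at the time `0` -/
noncomputable def allB0 (F P : List ℕ → Bool) (V Q j0 : ℕ) : Bool :=
  frc V fun V => frc Q fun Q =>
  allR (fun c0 => allR (fun x => impR (andR (Nat.ble x.2.1 V) (Nat.ble x.2.2.1 Q))
    (frc x.1 fun e0 => impR (F [e0]) (frc x.2.2.2 fun g => frc (Nat.sub V x.2.1) fun v =>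
      frc (Nat.sub Q x.2.2.1) fun q =>
      dfs (trT j0) F (fun c _ _ => Nat.beq c g) (fun _ w _ _ => P w) (Nat.add v q) c0 [e0] v q)))
    (getR (stT j0 false) c0))
  [0, 1, 2, 3, 4, 5, 6, 7, 8, 9, 10, 11, 12, 13, 14, 15, 16, 17, 18, 19]

/-- the goal of the first phase -/
noncomputable def gl1 (j0 g : ℕ) : ℕ → ℕ → ℕ → Bool := fun c v q =>
  anyR (fun y => andR (Nat.ble y.2.1 v) (andR (Nat.ble y.2.2.1 q)
    (frc y.2.2.2 fun d => frc (Nat.sub v y.2.1) fun v' => frc (Nat.sub q y.2.2.1) fun q' =>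
      al (trT j0) (fun c _ _ => Nat.beq c g) (Nat.add v' q') d v' q'))) (getR (miT j0) c)

/-- the test at the end of the first phase -/
noncomputable def tst1 (F P : List ℕ → Bool) (j0 g : ℕ) : ℕ → List ℕ → ℕ → ℕ → Bool :=
  fun c w v q =>
  allR (fun y => impR (andR (Nat.ble y.2.1 v) (Nat.ble y.2.2.1 q))
    (frc y.2.2.2 fun d => frc (Nat.sub v y.2.1) fun v' => frc (Nat.sub q y.2.2.1) fun q' =>
      impR (al (trT j0) (fun c _ _ => Nat.beq c g) (Nat.add v' q') d v' q')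
      (frc y.1 fun es => impR (F (es :: w))
      (dfs (trT j0) F (fun c _ _ => Nat.beq c g) (fun _ w _ _ => P w) (Nat.add v' q') d (es :: w)
        v' q')))) (getR (miT j0) c)

/-- the search, second zone line at a positive time -/
noncomputable def allB1 (F P : List ℕ → Bool) (V Q j0 : ℕ) : Bool :=
  frc V fun V => frc Q fun Q =>
  allR (fun c0 => allR (fun x => impR (andR (Nat.ble x.2.1 V) (Nat.ble x.2.2.1 Q))
    (frc x.1 fun e0 => impR (F [e0]) (frc x.2.2.2 fun g => frc (Nat.sub V x.2.1) fun v =>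
      frc (Nat.sub Q x.2.2.1) fun q =>
      dfs (trT (Nat.succ j0)) F (gl1 j0 g) (tst1 F P j0 g) (Nat.add v q) c0 [e0] v q)))
    (getR (stT j0 true) c0))
  [0, 1, 2, 3, 4, 5, 6, 7, 8, 9, 10, 11, 12, 13, 14, 15, 16, 17, 18, 19]

theorem len_le {w : List ℕ} (h : ∀ e ∈ w, 1 ≤ cV e + cQ e) : w.length ≤ sV w + sQ w := by
  induction w with
  | nil => simp
  | cons e w ih =>
    have h1 := h e List.mem_cons_self
    have h2 := ih fun e' he => h e' (List.mem_cons_of_mem _ he)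
    rw [sV_cons, sQ_cons, List.length_cons]
    omega

theorem sV_append (w w' : List ℕ) : sV (w ++ w') = sV w + sV w' := by simp [sV]
theorem sQ_append (w w' : List ℕ) : sQ (w ++ w') = sQ w + sQ w' := by simp [sQ]

theorem st_len : ∀ k s, (stT k s).length ≤ 20 := by
  intro k s
  match k, s with
  | 0, true => decide +kernel
  | 0, false => decide +kernel
  | 1, true => decide +kernel
  | 1, false => decide +kernel
  | _ + 2, true => exact (show st21.length ≤ 20 by decide +kernel)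
  | _ + 2, false => exact (show st20.length ≤ 20 by decide +kernel)

theorem getR_len {α : Type} {l : List (List α)} {n : ℕ} {x : α} (h : x ∈ getR l n) :
    n < l.length := by
  induction l generalizing n with
  | nil => exact absurd h List.not_mem_nil
  | cons a l ih =>
    cases n with
    | zero => simp
    | succ m => have := ih (n := m) h; simp only [List.length_cons]; omega

theorem mem_range20 {c : ℕ} (h : c < 20) :
    c ∈ [0, 1, 2, 3, 4, 5, 6, 7, 8, 9, 10, 11, 12, 13, 14, 15, 16, 17, 18, 19] := by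
  have : [0, 1, 2, 3, 4, 5, 6, 7, 8, 9, 10, 11, 12, 13, 14, 15, 16, 17, 18, 19] = List.range 20 := by
    decide
  rw [this, List.mem_range]; exact h

theorem test0 {F P : List ℕ → Bool} {V Q j0 e0 : ℕ} {w : List ℕ} (hB : allB0 F P V Q j0 = true)
    (hc : CW0 j0 e0 w) (h0 : ∀ e ∈ w, e ≠ 0) (h1 : ∀ e ∈ w, 1 ≤ cV e + cQ e)
    (hV : sV (e0 :: w) ≤ V) (hQ : sQ (e0 :: w) ≤ Q)
    (hF : ∀ s, s <+: e0 :: w → s ≠ [] → F s.reverse = true) : P (e0 :: w).reverse = true := by
  obtain ⟨c0, g, hm, hr⟩ := hc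
  obtain ⟨x, hx, hx1, hx2⟩ := memT_iff.1 hm
  obtain ⟨r, hrT, hxr⟩ := getR_sub hx
  obtain ⟨e1, e2⟩ := cok_s j0 false r hrT x hxr
  rw [hx1] at e1 e2
  rw [sV_cons] at hV
  rw [sQ_cons] at hQ
  unfold allB0 at hB
  rw [frc_eq, frc_eq] at hB
  have k1 := allR_iff.1 (allR_iff.1 hB c0 (mem_range20 (lt_of_lt_of_le (getR_len hx)
    (st_len j0 false)))) x hx
  have k2 := impR_mp k1 (by
    rw [andR_eq]
    exact ⟨Nat.ble_eq_true_of_le (by omega), Nat.ble_eq_true_of_le (by omega)⟩)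
  rw [frc_eq, hx1] at k2
  have k3 := impR_mp k2 (by
    have := hF [e0] (by rw [List.cons_prefix_cons]; exact ⟨rfl, List.nil_prefix⟩) (by simp)
    simpa using this)
  rw [frc_eq, frc_eq, frc_eq, hx2] at k3
  have k4 := dfs_sound (cok_t j0) k3 hr h0 (by
      show sV w ≤ V - x.2.1; omega) (by show sQ w ≤ Q - x.2.2.1; omega) (by
      have := len_le h1
      show w.length ≤ V - x.2.1 + (Q - x.2.2.1); omega)
    (fun s hs hne => by
      have := hF (e0 :: s) (by rw [List.cons_prefix_cons]; exact ⟨rfl, hs⟩) (by simp)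
      simpa using this) (Nat.beq_refl g)
  simpa using k4

theorem test1 {F P : List ℕ → Bool} {V Q j0 e0 es : ℕ} {w w' : List ℕ}
    (hB : allB1 F P V Q j0 = true) (hc : CW1 j0 e0 w es w') (h0 : ∀ e ∈ w, e ≠ 0)
    (h1 : ∀ e ∈ w, 1 ≤ cV e + cQ e) (h0' : ∀ e ∈ w', e ≠ 0) (h1' : ∀ e ∈ w', 1 ≤ cV e + cQ e)
    (hV : sV (e0 :: (w ++ es :: w')) ≤ V) (hQ : sQ (e0 :: (w ++ es :: w')) ≤ Q)
    (hF : ∀ s, s <+: e0 :: (w ++ es :: w') → s ≠ [] → F s.reverse = true) :
    P (e0 :: (w ++ es :: w')).reverse = true := by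
  obtain ⟨c0, g, c1, c2, hm, hr, hm', hr'⟩ := hc
  obtain ⟨x, hx, hx1, hx2⟩ := memT_iff.1 hm
  obtain ⟨r, hrT, hxr⟩ := getR_sub hx
  obtain ⟨e1, e2⟩ := cok_s j0 true r hrT x hxr
  rw [hx1] at e1 e2
  obtain ⟨y, hy, hy1, hy2⟩ := memT_iff.1 hm'
  obtain ⟨r', hrT', hyr⟩ := getR_sub hy
  obtain ⟨e3, e4⟩ := cok_m j0 r' hrT' y hyr
  rw [hy1] at e3 e4
  rw [sV_cons, sV_append, sV_cons] at hV
  rw [sQ_cons, sQ_append, sQ_cons] at hQ
  unfold allB1 at hB
  rw [frc_eq, frc_eq] at hB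
  have k1 := allR_iff.1 (allR_iff.1 hB c0 (mem_range20 (lt_of_lt_of_le (getR_len hx)
    (st_len j0 true)))) x hx
  have k2 := impR_mp k1 (by
    rw [andR_eq]
    exact ⟨Nat.ble_eq_true_of_le (by omega), Nat.ble_eq_true_of_le (by omega)⟩)
  rw [frc_eq, hx1] at k2
  have k3 := impR_mp k2 (by
    have := hF [e0] (by rw [List.cons_prefix_cons]; exact ⟨rfl, List.nil_prefix⟩) (by simp)
    simpa using this)
  rw [frc_eq, frc_eq, frc_eq, hx2] at k3
  have hle1 := len_le h1
  have hle1' := len_le h1'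
  have hal : al (trT j0) (fun c _ _ => Nat.beq c g)
      (Nat.add (V - x.2.1 - sV w - y.2.1) (Q - x.2.2.1 - sQ w - y.2.2.1)) c2
      (V - x.2.1 - sV w - y.2.1) (Q - x.2.2.1 - sQ w - y.2.2.1) = true := by
    refine al_sound (cok_t j0) hr' h0' (by omega) (by omega) ?_ (Nat.beq_refl g)
    show w'.length ≤ V - x.2.1 - sV w - y.2.1 + (Q - x.2.2.1 - sQ w - y.2.2.1)
    omega
  have k4 := dfs_sound (cok_t (j0 + 1)) k3 hr h0 (by
      show sV w ≤ V - x.2.1; omega) (by show sQ w ≤ Q - x.2.2.1; omega) (by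
      show w.length ≤ V - x.2.1 + (Q - x.2.2.1); omega)
    (fun s hs hne => by
      have := hF (e0 :: s) (by
        rw [List.cons_prefix_cons]
        exact ⟨rfl, hs.trans (List.prefix_append _ _)⟩) (by simp)
      simpa using this) (by
      unfold gl1
      rw [anyR_iff]
      refine ⟨y, hy, ?_⟩
      rw [andR_eq, andR_eq]
      refine ⟨Nat.ble_eq_true_of_le ?_, Nat.ble_eq_true_of_le ?_, ?_⟩
      · show y.2.1 ≤ V - x.2.1 - sV w; omega
      · show y.2.2.1 ≤ Q - x.2.2.1 - sQ w; omega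
      · rw [frc_eq, frc_eq, frc_eq, hy2]
        exact hal)
  unfold tst1 at k4
  have k5 := impR_mp (allR_iff.1 k4 y hy) (by
    rw [andR_eq]
    refine ⟨Nat.ble_eq_true_of_le ?_, Nat.ble_eq_true_of_le ?_⟩
    · show y.2.1 ≤ V - x.2.1 - sV w; omega
    · show y.2.2.1 ≤ Q - x.2.2.1 - sQ w; omega)
  rw [frc_eq, frc_eq, frc_eq, hy2] at k5
  have k6 := impR_mp k5 hal
  rw [frc_eq, hy1] at k6
  have k7 := impR_mp k6 (by
    have := hF (e0 :: (w ++ [es])) (by
      rw [List.cons_prefix_cons]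
      refine ⟨rfl, ⟨w', ?_⟩⟩
      simp) (by simp)
    simpa using this)
  have k8 := dfs_sound (cok_t j0) k7 hr' h0' (by
      show sV w' ≤ V - x.2.1 - sV w - y.2.1; omega) (by
      show sQ w' ≤ Q - x.2.2.1 - sQ w - y.2.2.1; omega) (by
      show w'.length ≤ V - x.2.1 - sV w - y.2.1 + (Q - x.2.2.1 - sQ w - y.2.2.1); omega)
    (fun s hs hne => by
      have := hF (e0 :: (w ++ es :: s)) (by
        rw [List.cons_prefix_cons]
        refine ⟨rfl, ?_⟩
        rw [List.prefix_append_right_inj, List.cons_prefix_cons]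
        exact ⟨rfl, hs⟩) (by simp)
      simpa using this) (Nat.beq_refl g)
  simpa using k8

/-- the complete search -/
def AllB (F P : List ℕ → Bool) (V Q : ℕ) : Prop :=
  (allB0 F P V Q 1 = true ∧ allB0 F P V Q 2 = true) ∧
    allB1 F P V Q 0 = true ∧ allB1 F P V Q 1 = true ∧ allB1 F P V Q 2 = true

/-- **all closed words whose prefixes satisfy `F` satisfy `P`** -/
theorem clo_test {F P : List ℕ → Bool} {V Q : ℕ} (hB : AllB F P V Q) {b : List ℕ} (hb : Clo b)
    (hV : sV b ≤ V) (hQ : sQ b ≤ Q) (hF : ∀ s, s <+: b → s ≠ [] → F s.reverse = true) :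
    P b.reverse = true := by
  rcases hb with ⟨j0, e0, w, hj, rfl, h0, h1, hc⟩ | ⟨j0, e0, w, es, w', hj, rfl, h0, h1, h0', h1', hc⟩
  · rcases hj with rfl | rfl
    · exact test0 hB.1.1 hc h0 h1 hV hQ hF
    · exact test0 hB.1.2 hc h0 h1 hV hQ hF
  · have h3 : j0 = 0 ∨ j0 = 1 ∨ j0 = 2 := by omega
    rcases h3 with rfl | rfl | rfl
    · exact test1 hB.2.1 hc h0 h1 h0' h1' hV hQ hF
    · exact test1 hB.2.2.1 hc h0 h1 h0' h1' hV hQ hF
    · exact test1 hB.2.2.2 hc h0 h1 h0' h1' hV hQ hF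

end Vale.Agent.P032.H546
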