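import Vale.Agent.P032.H546.TabD
import Vale.Agent.P032.H546.Krn

/-!
# P032: the tables contain all pairs of tied columns

`ckZ zb za F` : the check of `F (code before) (code after) (event vector)` for all pairs of columns
which obey the zones `zb` before, `za` after (`true` = zone `A`) and the rules of a common time;
`ck_sound`.
-/

namespace Vale.Agent.P032.H546

/-- the event of a pair (letter before, letter after), code `4 l + m` -/
def evp (p : ℕ) : ℕ := Nat.land (Nat.shiftRight 0x198a01800080 (Nat.mul 3 p)) 7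

/-- neighbours: different letters, no exchange -/
def adB (p q : ℕ) : Bool :=
  Nat.beq (Nat.land (Nat.shiftRight 0x77703bb0d5d0ee63077b0bbd09de0ea5707b90bdd0dee0c6770bab0ddc0eee0
    (Nat.add (Nat.mul 16 p) q)) 1) 1

/-- opposite slots -/
def opB (p q : ℕ) : Bool :=
  Nat.beq (Nat.land (Nat.shiftRight 0xb0bb0033b0bbb0bb0033077707770777b0bb0777ffffffffb0bb0777ffffffff
    (Nat.add (Nat.mul 16 p) q)) 1) 1

/-- the pairs allowed by the zones before and after (`true` = zone `A`) -/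
def PZ (zb za : Bool) : List ℕ :=
  match zb, za with
  | true, true => [0, 1, 2, 4, 5, 6, 8, 9, 10]
  | true, false => [0, 1, 3, 4, 5, 7, 8, 9, 11]
  | false, true => [0, 1, 2, 4, 5, 6, 12, 13, 14]
  | false, false => [0, 1, 3, 4, 5, 7, 12, 13, 15]

/-- the possible next pairs, zones AA -/
def nxt0 : List (List ℕ) :=
  [[5, 6, 9, 10], [6, 8, 10], [4, 5, 9], [4, 5, 6, 8, 9, 10], [2, 9, 10], [0, 2, 8, 10], [0, 1,
    8], [0, 1, 2, 8, 9, 10], [1, 5, 6], [0, 2, 4], [0, 1, 4, 5], [0, 1, 2, 4, 5, 6], [1, 2, 5,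
    6, 9, 10], [0, 2, 4, 6, 8, 10], [0, 1, 4, 5, 8, 9], [0, 1, 2, 4, 5, 6, 8, 9, 10]]

/-- the possible next pairs, zones AC -/
def nxt1 : List (List ℕ) :=
  [[5, 7, 9, 11], [7, 8, 11], [4, 5, 7, 9, 11], [4, 5, 8, 9], [3, 9, 11], [0, 3, 8, 11], [0, 1, 3,
    8, 11], [0, 1, 8, 9], [1, 3, 5, 7], [0, 3, 4, 7], [0, 1, 3, 4, 5, 7], [0, 1, 4, 5], [1, 5,
    7, 9, 11], [0, 3, 4, 8, 11], [0, 1, 3, 4, 5, 7, 8, 9], [0, 1, 4, 5, 8, 9]]

/-- the possible next pairs, zones CA -/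
def nxt2 : List (List ℕ) :=
  [[5, 6, 13, 14], [6, 12, 14], [4, 5, 12, 13], [4, 5, 6, 13, 14], [2, 13, 14], [0, 2, 12, 14],
    [0, 1, 12, 13], [0, 1, 2, 12, 14], [1, 5, 6, 13, 14], [0, 2, 4, 12, 14], [0, 1, 4, 5, 12,
    13], [0, 1, 2, 4, 5, 6, 12, 13], [1, 2, 5, 6], [0, 2, 4, 6], [0, 1, 4, 5], [0, 1, 2, 4, 5,
    6]]

/-- the possible next pairs, zones CC -/
def nxt3 : List (List ℕ) :=
  [[5, 7, 13, 15], [7, 12, 15], [4, 5, 7, 12, 13, 15], [4, 5, 13], [3, 13, 15], [0, 3, 12, 15],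
    [0, 1, 3, 12, 13, 15], [0, 1, 12], [1, 3, 5, 7, 13, 15], [0, 3, 4, 7, 12, 15], [0, 1, 3, 4,
    5, 7, 12, 13, 15], [0, 1, 4, 5, 12, 13], [1, 5, 7], [0, 3, 4], [0, 1, 3, 4, 5, 7], [0, 1, 4,
    5]]

/-- the possible next pairs -/
noncomputable def nxt (zb za : Bool) (p : ℕ) : List ℕ :=
  getR (match zb, za with
    | true, true => nxt0 | true, false => nxt1 | false, true => nxt2 | false, false => nxt3) p

def cA (p0 p1 p2 p3 p4 p5 : ℕ) : ℕ :=
  Nat.add (Nat.div p0 4) (Nat.mul 4 (Nat.add (Nat.div p1 4) (Nat.mul 4 (Nat.add (Nat.div p2 4)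
    (Nat.mul 4 (Nat.add (Nat.div p3 4) (Nat.mul 4 (Nat.add (Nat.div p4 4)
      (Nat.mul 4 (Nat.div p5 4))))))))))

def cB (p0 p1 p2 p3 p4 p5 : ℕ) : ℕ :=
  Nat.add (Nat.mod p0 4) (Nat.mul 4 (Nat.add (Nat.mod p1 4) (Nat.mul 4 (Nat.add (Nat.mod p2 4)
    (Nat.mul 4 (Nat.add (Nat.mod p3 4) (Nat.mul 4 (Nat.add (Nat.mod p4 4)
      (Nat.mul 4 (Nat.mod p5 4))))))))))

def cE (p0 p1 p2 p3 p4 p5 : ℕ) : ℕ :=
  Nat.add (evp p0) (Nat.mul 8 (Nat.add (evp p1) (Nat.mul 8 (Nat.add (evp p2)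
    (Nat.mul 8 (Nat.add (evp p3) (Nat.mul 8 (Nat.add (evp p4) (Nat.mul 8 (evp p5))))))))))

/-- the check of all pairs of columns -/
noncomputable def ckZ (zb za : Fin 6 → Bool) (F : ℕ → ℕ → ℕ → Bool) : Bool :=
  allR (fun p0 => allR (fun p1 => allR (fun p2 => allR (fun p3 => impR (opB p0 p3)
    (allR (fun p4 => impR (opB p1 p4) (allR (fun p5 => impR (opB p2 p5) (impR (adB p5 p0)
      (F (cA p0 p1 p2 p3 p4 p5) (cB p0 p1 p2 p3 p4 p5) (cE p0 p1 p2 p3 p4 p5))))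
    (nxt (zb 5) (za 5) p4))) (nxt (zb 4) (za 4) p3))) (nxt (zb 3) (za 3) p2))
    (nxt (zb 2) (za 2) p1)) (nxt (zb 1) (za 1) p0)) (PZ (zb 0) (za 0))

/-- the code of a column -/
def cod (h : Fin 6 → Fin 4) : ℕ :=
  (h 0).val + 4 * (h 1).val + 16 * (h 2).val + 64 * (h 3).val + 256 * (h 4).val +
    1024 * (h 5).val

/-- the code of an event vector -/
def ec (lam : Fin 6 → Fin 7) : ℕ :=
  (lam 0).val + 8 * (lam 1).val + 64 * (lam 2).val + 512 * (lam 3).val + 4096 * (lam 4).val +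
    32768 * (lam 5).val

/-- two columns at the same time, `lam` the events -/
structure Tp (lam : Fin 6 → Fin 7) (h g : Fin 6 → Fin 4) : Prop where
  ct : ∀ j, (lam j).val = evp (4 * (h j).val + (g j).val)
  adj : ∀ j, h j ≠ h (j + 1)
  adj' : ∀ j, g j ≠ g (j + 1)
  noswap : ∀ j, h j ≠ g j → h j = g (j + 1) → g j ≠ h (j + 1)
  opp : ∀ j, (h j = 2 ∨ g j = 2) → (h (j + 3) = 3 ∨ g (j + 3) = 3) → False

/-- the letter obeys the zone -/
def ZL (x : Bool) (l : Fin 4) : Prop := (x = true → l ≠ 3) ∧ (x = false → l ≠ 2)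

instance (x : Bool) (l : Fin 4) : Decidable (ZL x l) := by unfold ZL; infer_instance

def cp (a b : Fin 4) : ℕ := 4 * a.val + b.val

theorem mem_PZ : ∀ (x y : Bool) (a b : Fin 4), ZL x a → ZL y b → cp a b ∈ PZ x y := by decide

theorem mem_nxt : ∀ (x y : Bool) (a b a' b' : Fin 4), ZL x a' → ZL y b' → a ≠ a' → b ≠ b' →
    (a ≠ b → a = b' → b ≠ a') → cp a' b' ∈ nxt x y (cp a b) := by decide +kernel

theorem adB_of : ∀ a b a' b' : Fin 4, a ≠ a' → b ≠ b' → (a ≠ b → a = b' → b ≠ a') →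
    adB (cp a b) (cp a' b') = true := by decide +kernel

theorem opB_of : ∀ a b a' b' : Fin 4, ((a = 2 ∨ b = 2) → (a' = 3 ∨ b' = 3) → False) →
    ((a' = 2 ∨ b' = 2) → (a = 3 ∨ b = 3) → False) → opB (cp a b) (cp a' b') = true := by
  decide +kernel

theorem cp_div (a b : Fin 4) : cp a b / 4 = a.val := by
  unfold cp; have := b.isLt; omega

theorem cp_mod (a b : Fin 4) : cp a b % 4 = b.val := by
  unfold cp; have := b.isLt; omega

theorem ck_sound {zb za : Fin 6 → Bool} {F : ℕ → ℕ → ℕ → Bool} (hc : ckZ zb za F = true)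
    {h g : Fin 6 → Fin 4} {lam : Fin 6 → Fin 7}
    (hb : ∀ j, ZL (zb j) (h j)) (ha : ∀ j, ZL (za j) (g j)) (t : Tp lam h g) :
    F (cod h) (cod g) (ec lam) = true := by
  have ad : adB (cp (h 5) (g 5)) (cp (h 0) (g 0)) = true :=
    adB_of _ _ _ _ (t.adj 5) (t.adj' 5) (t.noswap 5)
  have op : ∀ j, opB (cp (h j) (g j)) (cp (h (j + 3)) (g (j + 3))) = true := fun j => by
    refine opB_of _ _ _ _ (t.opp j) fun h1 h2 => t.opp (j + 3) h1 ?_
    have e : j + 3 + 3 = j := by rw [add_assoc]; exact add_zero j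
    rwa [e]
  have mm : ∀ j, cp (h (j + 1)) (g (j + 1)) ∈ nxt (zb (j + 1)) (za (j + 1)) (cp (h j) (g j)) :=
    fun j => mem_nxt _ _ _ _ _ _ (hb _) (ha _) (t.adj j) (t.adj' j) (t.noswap j)
  have k0 := allR_iff.1 hc _ (mem_PZ _ _ _ _ (hb 0) (ha 0))
  have k1 := allR_iff.1 k0 _ (mm 0)
  have k2 := allR_iff.1 k1 _ (mm 1)
  have k3 := impR_mp (allR_iff.1 k2 _ (mm 2)) (op 0)
  have k4 := impR_mp (allR_iff.1 k3 _ (mm 3)) (op 1)
  have k5 := impR_mp (impR_mp (allR_iff.1 k4 _ (mm 4)) (op 2)) ad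
  have e1 : cA (cp (h 0) (g 0)) (cp (h 1) (g 1)) (cp (h 2) (g 2)) (cp (h 3) (g 3))
      (cp (h 4) (g 4)) (cp (h 5) (g 5)) = cod h := by
    unfold cA cod
    show _ / 4 + 4 * (_ / 4 + 4 * (_ / 4 + 4 * (_ / 4 + 4 * (_ / 4 + 4 * (_ / 4))))) = _
    simp only [cp_div]
    ring
  have e2 : cB (cp (h 0) (g 0)) (cp (h 1) (g 1)) (cp (h 2) (g 2)) (cp (h 3) (g 3))
      (cp (h 4) (g 4)) (cp (h 5) (g 5)) = cod g := by
    unfold cB cod
    show _ % 4 + 4 * (_ % 4 + 4 * (_ % 4 + 4 * (_ % 4 + 4 * (_ % 4 + 4 * (_ % 4))))) = _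
    simp only [cp_mod]
    ring
  have e3 : cE (cp (h 0) (g 0)) (cp (h 1) (g 1)) (cp (h 2) (g 2)) (cp (h 3) (g 3))
      (cp (h 4) (g 4)) (cp (h 5) (g 5)) = ec lam := by
    unfold cE ec
    rw [t.ct 0, t.ct 1, t.ct 2, t.ct 3, t.ct 4, t.ct 5]
    show _ + 8 * (_ + 8 * (_ + 8 * (_ + 8 * (_ + 8 * _)))) = _
    simp only [cp]
    ring
  have k6 : F (cA (cp (h 0) (g 0)) (cp (h 1) (g 1)) (cp (h 2) (g 2)) (cp (h 3) (g 3))
      (cp (h 4) (g 4)) (cp (h 5) (g 5))) (cB (cp (h 0) (g 0)) (cp (h 1) (g 1)) (cp (h 2) (g 2))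
      (cp (h 3) (g 3)) (cp (h 4) (g 4)) (cp (h 5) (g 5))) (cE (cp (h 0) (g 0)) (cp (h 1) (g 1))
      (cp (h 2) (g 2)) (cp (h 3) (g 3)) (cp (h 4) (g 4)) (cp (h 5) (g 5))) = true := k5
  rw [e1, e2, e3] at k6
  exact k6

/-! ### The checks of the tables -/

/-- the zone of a slot in the phase `k` -/
def zn (k : ℕ) (j : Fin 6) : Bool := Nat.blt (j.val % 3) k

/-- the zone before the time `0` -/
def zr (k : ℕ) (j : Fin 6) : Bool := zn k (j + 5)

/-- rotation of a code -/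
def rc (c : ℕ) : ℕ := Nat.add (Nat.div c 4) (Nat.mul 1024 (Nat.mod c 4))

/-- the check in the phase `k` -/
noncomputable def FT (k A B e : ℕ) : Bool :=
  frc (lb k A) fun c => frc (lb k B) fun d => frc e fun e' =>
    andR (memT (trT k) c e' d) (impR (Nat.beq e' 0) (Nat.beq c d))

/-- the check at the second zone time -/
noncomputable def FM (k A B e : ℕ) : Bool :=
  frc (lb (Nat.succ k) A) fun c => frc (lb k B) fun d => frc e fun e' => memT (miT k) c e' d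

/-- the number of the phase after the time `0` -/
def nx (k : ℕ) (s : Bool) : ℕ := match s with | true => k + 1 | false => k

/-- the check at the time `0` -/
noncomputable def FS (k : ℕ) (s : Bool) (A B e : ℕ) : Bool :=
  frc (lb (nx k s) B) fun c => frc (lb k (rc A)) fun d => frc e fun e' => memT (stT k s) c e' d

theorem chk_t0 : ckZ (zn 0) (zn 0) (FT 0) = true := by decide +kernel
theorem chk_t1 : ckZ (zn 1) (zn 1) (FT 1) = true := by decide +kernel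
theorem chk_t2 : ckZ (zn 2) (zn 2) (FT 2) = true := by decide +kernel
theorem chk_t3 : ckZ (zn 3) (zn 3) (FT 3) = true := by decide +kernel
theorem chk_m0 : ckZ (zn 1) (zn 0) (FM 0) = true := by decide +kernel
theorem chk_m1 : ckZ (zn 2) (zn 1) (FM 1) = true := by decide +kernel
theorem chk_m2 : ckZ (zn 3) (zn 2) (FM 2) = true := by decide +kernel
theorem chk_s01 : ckZ (zr 0) (zn 1) (FS 0 true) = true := by decide +kernel
theorem chk_s10 : ckZ (zr 1) (zn 1) (FS 1 false) = true := by decide +kernel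
theorem chk_s11 : ckZ (zr 1) (zn 2) (FS 1 true) = true := by decide +kernel
theorem chk_s20 : ckZ (zr 2) (zn 2) (FS 2 false) = true := by decide +kernel
theorem chk_s21 : ckZ (zr 2) (zn 3) (FS 2 true) = true := by decide +kernel

end Vale.Agent.P032.H546
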